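import Vale.Agent.P082.Defs

/-! Weak limits. -/

set_option linter.unusedSectionVars false

namespace Vale.Agent.P082

open Filter Topology Finset Vale.Agent.P104
open scoped InnerProductSpace ComplexOrder ComplexConjugate

universe u v

variable {G : Type v} [NormedAddCommGroup G] [InnerProductSpace ℂ G] [CompleteSpace G]
  {M : Type u} [CStarAlgebra M] {ρ : M →⋆ₐ[ℂ] (G →L[ℂ] G)}

section
variable {ι : Type*} {l : Filter ι} {a b : ι → M} {x y : M}

theorem WL.const (x : M) : WL ρ l (fun _ => x) x := fun _ _ => tendsto_const_nhds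

theorem WL.add (h : WL ρ l a x) (h' : WL ρ l b y) : WL ρ l (fun i => a i + b i) (x + y) := fun ξ η => by
  simpa only [map_add, add_apply, inner_add_right] using (h ξ η).add (h' ξ η)

theorem WL.sub (h : WL ρ l a x) (h' : WL ρ l b y) : WL ρ l (fun i => a i - b i) (x - y) := fun ξ η => by
  simpa only [map_sub, sub_apply, inner_sub_right] using (h ξ η).sub (h' ξ η)

theorem WL.smul (h : WL ρ l a x) (c : ℂ) : WL ρ l (fun i => c • a i) (c • x) := fun ξ η => by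
  simpa only [map_smul, smul_apply, inner_smul_right] using (h ξ η).const_mul c

theorem WL.const_mul (h : WL ρ l a x) (c : M) : WL ρ l (fun i => c * a i) (c * x) := fun ξ η => by
  have e : ∀ w, ⟪ξ, ρ c w⟫_ℂ = ⟪ρ (star c) ξ, w⟫_ℂ := fun w => by rw [ws_inner, star_star]
  simpa only [ws_mul_apply, e] using h (ρ (star c) ξ) η

theorem WL.mul_const (h : WL ρ l a x) (c : M) : WL ρ l (fun i => a i * c) (x * c) := fun ξ η => by
  simpa only [ws_mul_apply] using h ξ (ρ c η)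

theorem WL.star (h : WL ρ l a x) : WL ρ l (fun i => star (a i)) (star x) := fun ξ η => by
  have := (Complex.continuous_conj.tendsto _).comp (h η ξ)
  simpa only [Function.comp_def, inner_conj_symm, ws_inner] using this

theorem WL.sum {J : Type*} (s : Finset J) {a : J → ι → M} {x : J → M}
    (h : ∀ j ∈ s, WL ρ l (a j) (x j)) : WL ρ l (fun i => ∑ j ∈ s, a j i) (∑ j ∈ s, x j) := fun ξ η => by
  simpa only [map_sum, _root_.sum_apply, inner_sum] using
    tendsto_finsetSum s fun j hj => h j hj ξ η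

theorem WL.mono (h : WL ρ l a x) {l' : Filter ι} (hl : l' ≤ l) : WL ρ l' a x := fun ξ η => (h ξ η).mono_left hl

theorem WL.congr' (h : WL ρ l a x) (e : ∀ᶠ i in l, a i = b i) : WL ρ l b x := fun ξ η =>
  (h ξ η).congr' (e.mono fun i hi => by simp only [hi])

theorem WL.comp (h : WL ρ l a x) {ι' : Type*} {l' : Filter ι'} {g : ι' → ι}
    (hg : Tendsto g l' l) : WL ρ l' (fun i => a (g i)) x := fun ξ η => (h ξ η).comp hg

theorem WL.of_tendsto (h : Tendsto a l (𝓝 x)) : WL ρ l a x := fun ξ η => by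
  have h1 : Tendsto (fun i => ρ (a i)) l (𝓝 (ρ x)) :=
    ((AddMonoidHomClass.continuous_of_bound ρ 1 fun y => by
      rw [one_mul]; exact NonUnitalStarAlgHom.norm_apply_le ρ y).tendsto x).comp h
  exact tendsto_const_nhds.inner
    (((ContinuousLinearMap.apply ℂ G η).continuous.tendsto _).comp h1)

theorem BS.wl (h : BS ρ l a x) : WL ρ l a x := fun _ η => tendsto_const_nhds.inner (h.lim η)

theorem WL.unique (hρ : IsVN ρ) [l.NeBot] (h : WL ρ l a x) (h' : WL ρ l b y)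
    (e : ∀ᶠ i in l, a i = b i) : x = y :=
  hρ.inj (ContinuousLinearMap.ext fun η => ext_inner_left ℂ fun ξ =>
    tendsto_nhds_unique (h.congr' e ξ η) (h' ξ η))

theorem WL.vf (h : WL ρ l a x) (ξ : G) : Tendsto (fun i => vf ρ ξ (a i)) l (𝓝 (vf ρ ξ x)) :=
  (Complex.continuous_re.tendsto _).comp (h ξ ξ)

theorem WL.norm_le (hρ : IsVN ρ) [l.NeBot] (h : WL ρ l a x) {R : ℝ}
    (hR : ∀ᶠ i in l, ‖a i‖ ≤ R) : ‖x‖ ≤ R := by
  obtain ⟨i0, hi0⟩ := hR.exists
  have hR0 : 0 ≤ R := (norm_nonneg _).trans hi0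
  rw [← NonUnitalStarAlgHom.norm_map ρ hρ.inj]
  refine ContinuousLinearMap.opNorm_le_bound _ hR0 fun η => ?_
  have h1 : ‖⟪ρ x η, ρ x η⟫_ℂ‖ ≤ ‖ρ x η‖ * (R * ‖η‖) := by
    refine le_of_tendsto (h (ρ x η) η).norm (hR.mono fun i hi => ?_)
    refine (norm_inner_le_norm _ _).trans (mul_le_mul_of_nonneg_left ?_ (norm_nonneg _))
    exact (ws_norm_le _ _).trans (mul_le_mul_of_nonneg_right hi (norm_nonneg _))
  rw [inner_self_eq_norm_sq_to_K, norm_pow, RCLike.norm_ofReal, abs_norm] at h1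
  rcases (norm_nonneg (ρ x η)).eq_or_lt with h0 | h0
  · rw [← h0]; positivity
  · exact le_of_mul_le_mul_left (by linarith) h0

theorem WL.normal {t : M →ₗ[ℂ] ℂ} (ht : Normal ρ t) (h : WL ρ l a x) :
    Tendsto (fun i => t (a i)) l (𝓝 (t x)) := by
  obtain ⟨J, _, ζ, ζ', e⟩ := ht
  simp only [e]
  exact tendsto_finsetSum _ fun j _ => h _ _

theorem WL.n2_le [Tr M] (ht : Normal ρ (τ : M →ₗ[ℂ] ℂ)) [l.NeBot] (h : WL ρ l a x) {r : ι → ℝ}
    {R : ℝ} (hr : Tendsto r l (𝓝 R)) (hR : ∀ᶠ i in l, n2 (a i) ≤ r i) : n2 x ≤ R := by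
  have hR0 : 0 ≤ R := ge_of_tendsto hr (hR.mono fun i hi => (n2_nonneg _).trans hi)
  have h1 := ((h.const_mul (Star.star x)).normal ht).norm
  have h2 : ‖(τ : M →ₗ[ℂ] ℂ) (Star.star x * x)‖ ≤ n2 x * R := by
    refine le_of_tendsto_of_tendsto h1 (hr.const_mul (n2 x)) (hR.mono fun i hi => ?_)
    refine (norm_τ_mul_le _ _).trans ?_
    rw [n2_star]
    exact mul_le_mul_of_nonneg_left hi (n2_nonneg _)
  rw [τ_star_mul_self, Complex.norm_real, Real.norm_of_nonneg (sq_nonneg _)] at h2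
  rcases (n2_nonneg x).eq_or_lt with h0 | h0
  · rw [← h0]; exact hR0
  · exact le_of_mul_le_mul_left (by linarith) h0

theorem WL.avg {T : ι → M →ₗ[ℂ] M} {S : M →ₗ[ℂ] M} (h : ∀ a, WL ρ l (fun i => T i a) (S a))
    {J : Type} [Fintype J] (m : J → M) (a : M) :
    WL ρ l (fun i => avg m (T i) a) (avg m S a) := by
  simp only [avg_apply]
  exact WL.sum _ fun j _ => (h _).const_mul _

end

theorem IsVN.norm_eq (h : IsVN ρ) (a : M) : ‖ρ a‖ = ‖a‖ := NonUnitalStarAlgHom.norm_map ρ h.inj a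

theorem IsVN.norm_le_of (h : IsVN ρ) {a : M} {R : ℝ} (hR : 0 ≤ R)
    (ha : ∀ ξ, ‖ρ a ξ‖ ≤ R * ‖ξ‖) : ‖a‖ ≤ R := by
  rw [← h.norm_eq]
  exact ContinuousLinearMap.opNorm_le_bound _ hR ha

theorem IsVN.nonneg_of [PartialOrder M] [StarOrderedRing M] (h : IsVN ρ) {a : M}
    (ha : star a = a) (h0 : ∀ ξ, 0 ≤ vf ρ ξ a) : 0 ≤ a := by
  have hs : IsSelfAdjoint a := ha
  obtain ⟨b, hb⟩ := CStarAlgebra.nonneg_iff_eq_star_mul_self.1 (CFC.negPart_nonneg a)
  have e : star (b * a⁻) * (b * a⁻) = -(star a⁻ * a * a⁻) := by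
    have h1 : star a⁻ = a⁻ := (CFC.negPart_nonneg a).star_eq
    rw [star_mul, mul_assoc, ← mul_assoc (star b), ← hb, h1]
    conv_rhs => enter [1, 1, 2]; rw [← CFC.posPart_sub_negPart a hs]
    rw [mul_sub, CFC.negPart_mul_posPart, zero_sub, neg_mul, neg_neg, mul_assoc]
  have h2 : b * a⁻ = 0 := h.inj (ContinuousLinearMap.ext fun ξ => by
    have h3 := ws_norm_sq (ρ := ρ) (b * a⁻) ξ
    have h4 : 0 ≤ (⟪ρ a⁻ ξ, ρ a (ρ a⁻ ξ)⟫_ℂ).re := h0 (ρ a⁻ ξ)
    rw [e, map_neg, neg_apply, inner_neg_right, Complex.neg_re, mul_assoc,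
      ws_mul_apply (star a⁻), ← ws_inner, ws_mul_apply a] at h3
    rw [map_zero, zero_apply, ← norm_eq_zero, ← sq_eq_zero_iff]
    exact le_antisymm (by linarith) (sq_nonneg _))
  have h3 : a⁻ = 0 := by
    rw [← CStarRing.star_mul_self_eq_zero_iff, (CFC.negPart_nonneg a).star_eq]
    conv_lhs => enter [1]; rw [hb]
    rw [mul_assoc, h2, mul_zero]
  exact (CFC.negPart_eq_zero_iff a hs).1 h3

theorem IsVN.exists_lim (h : IsVN ρ) {ι : Type*} (U : Ultrafilter ι) {a : ι → M} {R : ℝ}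
    (hR : ∀ᶠ i in (U : Filter ι), ‖a i‖ ≤ R) : ∃ x, WL ρ (U : Filter ι) a x := by
  obtain ⟨x, hx⟩ := h.lim (U.map a) R hR
  exact ⟨x, fun ξ η => hx ξ η⟩

theorem IsVN.isWRep (h : IsVN ρ) : IsWRep ρ := by
  refine ⟨h.inj, fun l R x hl hR hs => ?_⟩
  obtain ⟨y, hy⟩ := h.lim (Ultrafilter.of l) R (hR.filter_mono (Ultrafilter.of_le l))
  refine ⟨y, ContinuousLinearMap.ext fun η => ext_inner_left ℂ fun ξ => ?_⟩
  exact tendsto_nhds_unique (hy ξ η)
    (tendsto_const_nhds.inner ((hs η).1.mono_left (Ultrafilter.of_le l)))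

theorem IsVN.exists_lim_map (h : IsVN ρ) {ι : Type*} (U : Ultrafilter ι) {T : ι → M →ₗ[ℂ] M}
    {c : ℝ} (hT : ∀ᶠ i in (U : Filter ι), ∀ a, ‖T i a‖ ≤ c * ‖a‖) :
    ∃ S : M →ₗ[ℂ] M, ∀ a, WL ρ (U : Filter ι) (fun i => T i a) (S a) := by
  choose f hf using fun a => h.exists_lim U (a := fun i => T i a) (hT.mono fun i hi => hi a)
  refine ⟨⟨⟨f, fun a b => ?_⟩, fun c a => ?_⟩, hf⟩
  · exact (hf _).unique h ((hf a).add (hf b)) (.of_forall fun i => map_add _ _ _)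
  · exact (hf _).unique h ((hf a).smul c) (.of_forall fun i => map_smul _ _ _)

theorem Inv.exists_lim (h : IsVN ρ) {E : Type u} {S : Set (E → M →ₗ[ℂ] M)} {c : E → ℝ}
    (hS : Inv ρ S c) {ι : Type*} (U : Ultrafilter ι) {T : ι → E → M →ₗ[ℂ] M}
    (hT : ∀ᶠ i in (U : Filter ι), T i ∈ S) :
    ∃ T' ∈ S, ∀ e a, WL ρ (U : Filter ι) (fun i => T i e a) (T' e a) := by
  choose T' hT' using fun e => h.exists_lim_map U (T := fun i => T i e) (c := c e)
    (hT.mono fun i hi => hS.bd _ hi e)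
  exact ⟨T', hS.lim (U.map T) T' hT fun e a ξ η => hT' e a ξ η, hT'⟩

theorem lim_exists_op {ι : Type*} (U : Ultrafilter ι) {u : ι → G →L[ℂ] G} {R : ℝ}
    (hu : ∀ᶠ i in (U : Filter ι), ‖u i‖ ≤ R) :
    ∃ x : G →L[ℂ] G, ∀ η ξ, Tendsto (fun i => ⟪η, u i ξ⟫_ℂ) U (𝓝 ⟪η, x ξ⟫_ℂ) := by
  have key : ∀ η ξ : G, ∃ b : ℂ, ‖b‖ ≤ R * ‖η‖ * ‖ξ‖ ∧
      Tendsto (fun n => ⟪η, u n ξ⟫_ℂ) U (𝓝 b) := by
    intro η ξ
    obtain ⟨b, hb, h⟩ := (isCompact_closedBall (0 : ℂ) (R * ‖η‖ * ‖ξ‖)).ultrafilter_le_nhds'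
      (U.map fun n => ⟪η, u n ξ⟫_ℂ) (Ultrafilter.mem_map.2 (mem_of_superset hu fun n hn => by
        rw [Set.mem_preimage, mem_closedBall_zero_iff, mul_comm R, mul_assoc]
        exact (norm_inner_le_norm _ _).trans (mul_le_mul_of_nonneg_left
          ((u n).le_of_opNorm_le hn ξ) (norm_nonneg _))))
    exact ⟨b, mem_closedBall_zero_iff.1 hb, h⟩
  choose b hb h using key
  let B : G →L⋆[ℂ] G →L[ℂ] ℂ := LinearMap.mkContinuous₂
    (LinearMap.mk₂'ₛₗ (starRingEnd ℂ) (RingHom.id ℂ) b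
      (fun η η' ξ => tendsto_nhds_unique (h _ _)
        (by simpa only [inner_add_left] using (h η ξ).add (h η' ξ)))
      (fun c η ξ => tendsto_nhds_unique (h _ _)
        (by simpa only [inner_smul_left, smul_eq_mul] using (h η ξ).const_mul _))
      (fun η ξ ξ' => tendsto_nhds_unique (h _ _)
        (by simpa only [map_add, inner_add_right] using (h η ξ).add (h η ξ')))
      (fun c η ξ => tendsto_nhds_unique (h _ _)
        (by simpa only [map_smul, inner_smul_right, smul_eq_mul, RingHom.id_apply]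
          using (h η ξ).const_mul _))) R hb
  have e : ∀ η ξ, ⟪η, ContinuousLinearMap.adjoint
      (InnerProductSpace.continuousLinearMapOfBilin B) ξ⟫_ℂ = b η ξ := fun η ξ => by
    rw [ContinuousLinearMap.adjoint_inner_right,
      InnerProductSpace.continuousLinearMapOfBilin_apply]
    rfl
  exact ⟨_, fun η ξ => e η ξ ▸ h η ξ⟩

theorem isVN_subtype (N : VonNeumannAlgebra G)
    [IsClosed (N.toStarSubalgebra : Set (G →L[ℂ] G))] : IsVN N.toStarSubalgebra.subtype := by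
  refine ⟨Subtype.val_injective, fun U R hR => ?_⟩
  obtain ⟨x, hx⟩ := lim_exists_op U (u := fun a : N.toStarSubalgebra => (a : G →L[ℂ] G)) hR
  refine ⟨⟨x, ?_⟩, hx⟩
  change x ∈ N
  rw [← N.commutant_commutant, VonNeumannAlgebra.mem_commutant_iff]
  intro c hc
  ext1 ξ
  refine ext_inner_left ℂ fun η => tendsto_nhds_unique ?_ (hx η (c ξ))
  have h1 := hx (ContinuousLinearMap.adjoint c η) ξ
  simp only [ContinuousLinearMap.adjoint_inner_left] at h1
  refine h1.congr fun a => ?_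
  rw [← mul_apply_eq_comp, ← VonNeumannAlgebra.mem_commutant_iff.1 hc a a.2, mul_apply_eq_comp]

end Vale.Agent.P082
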