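import Vale.Agent.P082.Defs

/-! Partitions on which given elements are almost scalar. -/

set_option linter.unusedSectionVars false

namespace Vale.Agent.P082

open Filter Topology Finset Vale.Agent.P104
open scoped InnerProductSpace ComplexOrder ComplexConjugate

universe u v

variable {A : Type u} [CStarAlgebra A] {ι κ : Type} [Fintype ι] [Fintype κ]

section Order

variable [PartialOrder A] [StarOrderedRing A]

theorem lq_norm {z : A} {r : ℝ} (hr : 0 ≤ r) (h : star z * z ≤ (r ^ 2) • (1 : A)) : ‖z‖ ≤ r := by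
  rw [← Algebra.algebraMap_eq_smul_one, ← CStarAlgebra.norm_le_iff_le_algebraMap _ (sq_nonneg r)
    (star_mul_self_nonneg z), CStarRing.norm_star_mul_self, ← sq] at h
  exact (pow_le_pow_iff_left₀ (norm_nonneg _) hr two_ne_zero).1 h

theorem lq_half {y g : A} {r : ℝ} (hg : IsStarProjection g) (hy : 0 ≤ y) (hr : ‖y‖ ≤ r)
    (h : g * y = y) : ‖y - ((r / 2 : ℝ) : ℂ) • g‖ ≤ r / 2 := by
  have r0 := (norm_nonneg _).trans hr
  have h' : y * g = y := by
    simpa [hg.isSelfAdjoint.star_eq, hy.isSelfAdjoint.star_eq] using congrArg star h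
  have h1 : 0 ≤ y * (r • 1 - y) := Commute.mul_nonneg hy (by
    rwa [sub_nonneg, ← Algebra.algebraMap_eq_smul_one,
      ← CStarAlgebra.norm_le_iff_le_algebraMap _ r0 hy])
    (((Commute.one_right y).smul_right r).sub_right (Commute.refl y))
  refine lq_norm (by positivity) ?_
  calc _ = (r / 2) ^ 2 • g - y * (r • 1 - y) := by
        simp only [Complex.coe_smul, star_sub, star_smul, star_trivial, hg.isSelfAdjoint.star_eq,
          hy.isSelfAdjoint.star_eq, mul_sub, sub_mul, smul_mul_assoc, mul_smul_comm, h, h',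
          hg.isIdempotentElem.eq, mul_one]
        module
    _ ≤ (r / 2) ^ 2 • g := sub_le_self _ h1
    _ ≤ _ := smul_le_smul_of_nonneg_left hg.le_one (by positivity)

end Order

theorem lq_cut (hR : Rickart A) {e x s : A} (he : IsStarProjection e) (hx : star x = x)
    (hs : s ∈ unitary A) (hse : s * e = e * s) (hsx : s * x = x * s) {c r : ℝ}
    (h : ‖e * x * e - (c : ℂ) • e‖ ≤ r) :
    ∃ g, IsStarProjection g ∧ e * g = g ∧ s * g = g * s ∧
      ‖g * x * g - ((c + r / 2 : ℝ) : ℂ) • g‖ ≤ r / 2 ∧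
      ‖(e - g) * x * (e - g) - ((c - r / 2 : ℝ) : ℂ) • (e - g)‖ ≤ r / 2 := by
  let := CStarAlgebra.spectralOrder A
  have := CStarAlgebra.spectralOrderedRing A
  obtain ⟨k, hk⟩ : ∃ k, k = e * x * e - (c : ℂ) • e := ⟨_, rfl⟩
  rw [← hk] at h
  have e1 := he.isSelfAdjoint.star_eq
  have e2 := he.isIdempotentElem.eq
  have k1 : IsSelfAdjoint k := by simp [IsSelfAdjoint, hk, e1, hx, mul_assoc]
  have k2 : e * k = k := by simp [hk, mul_sub, ← mul_assoc, e2]
  have k2' : k * e = k := by simp [hk, sub_mul, mul_assoc, e2]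
  have k3 : Commute k s :=
    ((((Commute.symm hse).mul_left (Commute.symm hsx)).mul_left (Commute.symm hse)).sub_left
      ((Commute.symm hse).smul_left _)).symm.symm |> fun h => hk ▸ h
  obtain ⟨g, g1, g2, g3⟩ := hR k⁺
  have p1 := (CFC.posPart_nonneg k).isSelfAdjoint.star_eq
  have p2 := (CFC.negPart_nonneg k).isSelfAdjoint.star_eq
  have g0 := g1.isSelfAdjoint.star_eq
  have a1 : k⁻ * g = 0 := g3 _ (CFC.negPart_mul_posPart k)
  have a2 : k⁺ * g = k⁺ := by simpa [g0, p1] using congrArg star g2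
  have a3 : g * k⁻ = 0 := by simpa [g0, p2] using congrArg star a1
  have a4 := CFC.posPart_sub_negPart k k1
  have a5 : k * g = k⁺ := by rw [← a4, sub_mul, a1, a2, sub_zero, a4]
  have a6 : g * k = k⁺ := by rw [← a4, mul_sub, a3, g2, sub_zero, a4]
  have b0 : e * k⁺ = k⁺ := by rw [← a5, ← mul_assoc, k2]
  have b1 : e * g = g := by
    have := g3 (1 - e) (by rw [sub_mul, one_mul, b0, sub_self])
    rwa [sub_mul, one_mul, sub_eq_zero, eq_comm] at this
  have b2 : g * e = g := by simpa [g0, e1] using congrArg star b1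
  have c1 : ∀ u ∈ unitary A, Commute k u → u * g = g * u * g := fun u hu hc => by
    have c2 : k⁺ * u = u * k⁺ := hc.cfcₙ_real _
    have := g3 (u - g * u) (by rw [sub_mul, mul_assoc, ← c2, ← mul_assoc, g2, sub_self])
    rwa [sub_mul, sub_eq_zero] at this
  have n1 : ‖k⁺‖ ≤ r := (CStarAlgebra.norm_posPart_le k).trans h
  have n2 : ‖k⁻‖ ≤ r := (CStarAlgebra.norm_negPart_le k).trans h
  have d : ∀ f : A, e * f = f → f * e = f → f * f = f → f * x * f - (c : ℂ) • f = f * k * f :=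
    fun f f1 f2 f3 => by
      rw [hk, mul_sub, sub_mul, mul_smul_comm, smul_mul_assoc, f2, f3, ← mul_assoc, ← mul_assoc, f2,
        mul_assoc (f * x), f1]
  have q := g1.sub_of_mul_eq_right he b1
  refine ⟨g, g1, b1, ?_, ?_, ?_⟩
  · have := congrArg star (c1 _ (Unitary.star_mem hs) (by simpa [k1.star_eq] using k3.star_star))
    simp only [star_mul, star_star, g0, ← mul_assoc] at this
    rw [this, c1 s hs k3]
  · rw [Complex.ofReal_add, add_smul, ← sub_sub, d g b1 b2 g1.isIdempotentElem.eq, a6, a2]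
    exact lq_half g1 (CFC.posPart_nonneg k) n1 g2
  · have b3 : (e - g) * k = -k⁻ := by
      rw [sub_mul, k2, a6, sub_eq_iff_eq_add, neg_add_eq_sub, a4]
    have b4 : (e - g) * k⁻ = k⁻ := by
      rw [← neg_inj, ← b3, ← mul_neg, ← b3, ← mul_assoc, q.isIdempotentElem.eq]
    have b5 : k⁻ * (e - g) = k⁻ := by
      simpa only [star_mul, q.isSelfAdjoint.star_eq, p2] using congrArg star b4
    rw [Complex.ofReal_sub, sub_smul, ← sub_add, d _ (by rw [mul_sub, e2, b1])
      (by rw [sub_mul, e2, b2]) q.isIdempotentElem.eq, b3, neg_mul, b5, ← norm_neg, neg_add,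
      neg_neg, ← sub_eq_add_neg]
    exact lq_half q (CFC.negPart_nonneg k) n2 b4

theorem lq_trans {μ : Type} {g : μ → A} {f : κ → A} {e : ι → A} (h : Ref g f) (h' : Ref f e) :
    Ref g e := fun j =>
  let ⟨i, hi⟩ := h j
  let ⟨l, hl⟩ := h' i
  ⟨l, by rw [← hi, ← mul_assoc, hl]⟩

theorem lq_pass {f : κ → A} {e : ι → A} (hf : IsPart f) (he : IsPart e) (h : Ref f e) {x : A}
    {r : ℝ} (hx : ∀ i, ∃ c : ℝ, ‖e i * x * e i - (c : ℂ) • e i‖ ≤ r) (j : κ) :
    ∃ c : ℝ, ‖f j * x * f j - (c : ℂ) • f j‖ ≤ r := by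
  obtain ⟨i, hi⟩ := h j
  obtain ⟨c, hc⟩ := hx i
  have hi' : f j * e i = f j := by simpa [hf.star_eq, he.star_eq] using congrArg star hi
  refine ⟨c, le_trans ?_ hc⟩
  calc _ = ‖f j * (e i * x * e i - (c : ℂ) • e i) * f j‖ := by
        rw [mul_sub, sub_mul, mul_smul_comm, smul_mul_assoc, hi', hf.idem, ← mul_assoc,
          ← mul_assoc, hi', mul_assoc (f j * x), hi]
    _ ≤ 1 * ‖e i * x * e i - (c : ℂ) • e i‖ * 1 := by
        refine (norm_mul_le _ _).trans (mul_le_mul ((norm_mul_le _ _).trans ?_) (hf.norm_le j)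
          (norm_nonneg _) (by positivity))
        exact mul_le_mul_of_nonneg_right (hf.norm_le j) (norm_nonneg _)
    _ = _ := by ring

theorem lq_one (hR : Rickart A) {e : ι → A} (he : IsPart e) {s : A} (hs : s ∈ unitary A)
    (hse : ∀ i, s * e i = e i * s) {x : A} (hx : star x = x) (hsx : s * x = x * s) (n : ℕ) :
    ∃ (κ : Type) (_ : Fintype κ) (f : κ → A), IsPart f ∧ Ref f e ∧ (∀ j, s * f j = f j * s) ∧
      ∀ j, ∃ c : ℝ, ‖f j * x * f j - (c : ℂ) • f j‖ ≤ ‖x‖ * (1 / 2) ^ n := by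
  induction n with
  | zero =>
    refine ⟨ι, inferInstance, e, he, fun j => ⟨j, he.idem j⟩, hse, fun j => ⟨0, ?_⟩⟩
    have := he.norm_le j
    simp only [Complex.ofReal_zero, zero_smul, sub_zero, pow_zero, mul_one]
    calc _ ≤ ‖e j‖ * ‖x‖ * ‖e j‖ := (norm_mul_le _ _).trans (by gcongr; exact norm_mul_le _ _)
      _ ≤ 1 * ‖x‖ * 1 := by gcongr
      _ = _ := by ring
  | succ n ih =>
    obtain ⟨κ, _, f, f1, f2, f3, f4⟩ := ih
    choose c hc using f4
    choose g g1 g2 g3 g4 g5 using fun j => lq_cut hR (f1.proj j) hx hs (f3 j) hsx (hc j)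
    have g6 : ∀ j, g j * f j = g j := fun j => by
      simpa [f1.star_eq, (g1 j).isSelfAdjoint.star_eq] using congrArg star (g2 j)
    have r1 : ∀ (j) (b : Bool), f j * cond b (g j) (f j - g j) = cond b (g j) (f j - g j) := by
      rintro j (_ | _) <;> simp [mul_sub, f1.idem, g2]
    have r2 : ∀ (j) (b : Bool), cond b (g j) (f j - g j) * f j = cond b (g j) (f j - g j) := by
      rintro j (_ | _) <;> simp [sub_mul, f1.idem, g6]
    refine ⟨κ × Bool, inferInstance, fun y => cond y.2 (g y.1) (f y.1 - g y.1), ⟨?_, ?_, ?_⟩,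
      lq_trans (fun y => ⟨y.1, r1 _ _⟩) f2, ?_, ?_⟩
    · rintro ⟨j, _ | _⟩
      exacts [(g1 j).sub_of_mul_eq_right (f1.proj j) (g2 j), g1 j]
    · rintro ⟨i, a⟩ ⟨j, b⟩ h
      by_cases hij : i = j
      · subst hij
        cases a <;> cases b <;>
          simp_all [sub_mul, mul_sub, fun j => (g1 j).isIdempotentElem.eq]
      · dsimp only
        rw [← r2, ← r1 j, mul_assoc, ← mul_assoc (f i), f1.orth i j hij, zero_mul, mul_zero]
    · simp [Fintype.sum_prod_type, f1.sum]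
    · rintro ⟨j, _ | _⟩ <;> simp [mul_sub, sub_mul, f3, g3]
    · have : ‖x‖ * (1 / 2) ^ (n + 1) = ‖x‖ * (1 / 2) ^ n / 2 := by ring
      rw [this]
      rintro ⟨j, _ | _⟩
      exacts [⟨_, g5 j⟩, ⟨_, g4 j⟩]

theorem exists_refine (hR : Rickart A) {e : ι → A} (he : IsPart e) {s : A} (hs : s ∈ unitary A)
    (hse : ∀ i, s * e i = e i * s) {J : Type} [Fintype J] (x : J → A) (hx : ∀ k, star (x k) = x k)
    (hsx : ∀ k, s * x k = x k * s) {η : ℝ} (hη : 0 < η) :
    ∃ (κ : Type) (_ : Fintype κ) (f : κ → A), IsPart f ∧ Ref f e ∧ (∀ j, s * f j = f j * s) ∧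
      ∀ k j, ∃ c : ℝ, ‖f j * x k * f j - (c : ℂ) • f j‖ ≤ η := by
  classical
  suffices h : ∀ t : Finset J, ∃ (κ : Type) (_ : Fintype κ) (f : κ → A), IsPart f ∧ Ref f e ∧
      (∀ j, s * f j = f j * s) ∧ ∀ k ∈ t, ∀ j, ∃ c : ℝ, ‖f j * x k * f j - (c : ℂ) • f j‖ ≤ η by
    obtain ⟨κ, _, f, f1, f2, f3, f4⟩ := h univ
    exact ⟨κ, _, f, f1, f2, f3, fun k => f4 k (mem_univ k)⟩
  intro t
  induction t using Finset.induction_on with
  | empty => exact ⟨ι, _, e, he, fun j => ⟨j, he.idem j⟩, hse, by simp⟩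
  | insert k t _ ih =>
    obtain ⟨κ, _, f, f1, f2, f3, f4⟩ := ih
    obtain ⟨γ, γ0, γ1⟩ := exists_pos_mul_lt hη ‖x k‖
    obtain ⟨n, hn⟩ := exists_pow_lt_of_lt_one γ0 one_half_lt_one
    obtain ⟨μ, _, g, g1, g2, g3, g4⟩ := lq_one hR f1 hs f3 (hx k) (hsx k) n
    refine ⟨μ, _, g, g1, lq_trans g2 f2, g3, (forall_mem_insert _ _ _).2 ⟨fun j => (g4 j).imp fun c hc =>
      hc.trans ((mul_le_mul_of_nonneg_left hn.le (norm_nonneg _)).trans γ1.le),
      fun l hl => lq_pass g1 f1 g2 (f4 l hl)⟩⟩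

theorem lq_unit : IsPart fun _ : Unit => (1 : A) :=
  ⟨fun _ => .one _, fun _ _ h => absurd rfl h, by simp⟩

theorem exists_spec (hR : Rickart A) {s : A} (hs : s ∈ unitary A) {η : ℝ} (hη : 0 < η) :
    ∃ (κ : Type) (_ : Fintype κ) (f : κ → A), IsPart f ∧ (∀ j, s * f j = f j * s) ∧
      ∀ j, ∃ θ : ℂ, ‖θ‖ = 1 ∧ ‖s * f j - θ • f j‖ ≤ η := by
  have c0 : s * star s = star s * s := hs.2.trans hs.1.symm
  obtain ⟨κ, _, f, f1, -, f3, f4⟩ := exists_refine hR lq_unit hs (by simp)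
    (fun b : Bool => cond b (realPart s : A) (imaginaryPart s : A))
    (by rintro (_ | _) <;> exact selfAdjoint.star_val_eq)
    (by rintro (_ | _) <;> simp [realPart_apply_coe, imaginaryPart_apply_coe, mul_add, add_mul,
      mul_sub, sub_mul, c0]) (show 0 < η / 4 by positivity)
  refine ⟨κ, _, f, f1, f3, fun j => ?_⟩
  obtain ⟨a, ha⟩ := f4 true j
  obtain ⟨b, hb⟩ := f4 false j
  have h1 : ‖s * f j - (a + Complex.I * b) • f j‖ ≤ η / 2 := by
    have : s * f j - (a + Complex.I * b) • f j = (f j * realPart s * f j - (a : ℂ) • f j) +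
        Complex.I • (f j * imaginaryPart s * f j - (b : ℂ) • f j) := by
      rw [← f1.idem j, ← mul_assoc, f3, f1.idem]
      nth_rw 1 [← realPart_add_I_smul_imaginaryPart s]
      simp only [mul_add, add_mul, mul_smul_comm, smul_mul_assoc]
      module
    rw [this]
    refine (norm_add_le _ _).trans ?_
    rw [norm_smul, Complex.norm_I, one_mul]
    exact (add_le_add ha hb).trans_eq (by ring)
  obtain ⟨θ, θ1, θ2⟩ := Complex.exists_norm_mul_eq_self (a + Complex.I * b)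
  refine ⟨θ, θ1, ?_⟩
  have h2 := (abs_norm_sub_norm_le _ _).trans h1
  rw [CStarRing.norm_mem_unitary_mul _ hs, norm_smul] at h2
  generalize (a + Complex.I * b : ℂ) = w at *
  have h3 : ‖w • f j - θ • f j‖ = |‖f j‖ - ‖w‖ * ‖f j‖| := by
    rw [← sub_smul, norm_smul, ← one_sub_mul, abs_mul, abs_norm, ← norm_neg]
    nth_rw 1 [← θ2]
    rw [neg_sub, ← mul_one_sub, norm_mul, θ1, one_mul, ← Complex.ofReal_one, ← Complex.ofReal_sub,
      Complex.norm_real, Real.norm_eq_abs]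
  linarith [norm_sub_le_norm_sub_add_norm_sub (s * f j) (w • f j) (θ • f j)]

theorem mod_of_proj (hR : Rickart A) {φ : A →ₗ[ℂ] A} {c : ℝ} (hφ : ∀ a, ‖φ a‖ ≤ c * ‖a‖)
    (h : ∀ q, IsStarProjection q → φ q = q * φ 1) (a : A) : φ a = a * φ 1 := by
  let := CStarAlgebra.spectralOrder A
  have := CStarAlgebra.spectralOrderedRing A
  refine LinearMap.congr_fun (LinearMap.ext_on (g := LinearMap.mulRight ℂ (φ 1))
    (CStarAlgebra.span_unitary A) fun s hs => ?_) a
  rw [LinearMap.mulRight_apply, ← sub_eq_zero, ← norm_le_zero_iff]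
  refine le_of_forall_pos_le_add fun ε hε => ?_
  obtain ⟨η, hη, η1⟩ := exists_pos_mul_lt hε (|c| + ‖φ 1‖)
  obtain ⟨κ, _, f, f1, f2, f3⟩ := exists_spec hR hs hη
  choose θ θ1 θ2 using f3
  have d1 : ∀ j, f j * (s * f j - θ j • f j) = s * f j - θ j • f j := fun j => by
    rw [mul_sub, ← mul_assoc, ← f2, mul_assoc, mul_smul_comm, f1.idem]
  have d2 : ∀ j, (s * f j - θ j • f j) * f j = s * f j - θ j • f j := fun j => by
    rw [sub_mul, mul_assoc, smul_mul_assoc, f1.idem]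
  have h1 : ‖s - ∑ j, θ j • f j‖ ≤ η := by
    have : s - ∑ j, θ j • f j = ∑ j, (s * f j - θ j • f j) := by
      rw [sum_sub_distrib, ← mul_sum, f1.sum, mul_one]
    rw [this]
    generalize hd : (fun j => s * f j - θ j • f j) = d
    simp only [fun j => congrFun hd j] at d1 d2 θ2
    refine lq_norm hη.le ?_
    rw [← f1.sum_star_mul, smul_sum, star_sum, sum_mul_sum]
    refine sum_le_sum fun i _ => ?_
    rw [sum_eq_single i (fun j _ hj => by
      rw [← d1 i, ← d1 j, star_mul, f1.star_eq, mul_assoc, ← mul_assoc (f i), f1.orth i j hj.symm,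
        zero_mul, mul_zero]) (by simp), ← d2 i, star_mul, mul_assoc, ← mul_assoc (star (d i)),
      ← mul_assoc]
    refine (CStarAlgebra.star_left_conjugate_le_norm_smul (.star_mul_self _)).trans
      (smul_le_smul_of_nonneg_right ?_ (star_mul_self_nonneg _))
    rw [CStarRing.norm_star_mul_self, ← sq]
    exact pow_le_pow_left₀ (norm_nonneg _) (θ2 i) 2
  have h2 : φ s - s * φ 1 = φ (s - ∑ j, θ j • f j) - (s - ∑ j, θ j • f j) * φ 1 := by
    simp [sub_mul, sum_mul, h _ (f1.proj _)]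
  rw [h2]
  have h3 := (hφ _).trans (mul_le_mul (le_abs_self c) h1 (norm_nonneg _) (abs_nonneg c))
  have h4 := (norm_mul_le _ _).trans (mul_le_mul_of_nonneg_right h1 (norm_nonneg (φ 1)))
  linarith [norm_sub_le (φ (s - ∑ j, θ j • f j)) ((s - ∑ j, θ j • f j) * φ 1)]

theorem exists_part_n2 [Tr A] (hR : Rickart A) (X : Finset A) {η : ℝ} (hη : 0 < η) :
    ∃ (κ : Type) (_ : Fintype κ) (f : κ → A), IsPart f ∧ ∀ (φ : A →ₗ[ℂ] A) (c : ℝ), 0 ≤ c →
      (∀ a, ‖φ a‖ ≤ c * ‖a‖) → ∀ b ∈ X, n2 (avg f φ b) ≤ c * (n2 b + η) := by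
  obtain ⟨κ, _, f, f1, -, -, f4⟩ := exists_refine hR lq_unit (one_mem _) (by simp)
    (fun k : Fin X.card => (X.equivFin.symm k : A) * star (X.equivFin.symm k : A)) (by simp)
    (by simp) (show 0 < η ^ 2 / 2 by positivity)
  refine ⟨κ, _, f, f1, fun φ c hc hφ b hb => ?_⟩
  have f5 := f4 (X.equivFin ⟨b, hb⟩)
  simp only [Equiv.symm_apply_apply] at f5
  have n0 := n2_nonneg b
  refine (pow_le_pow_iff_left₀ (n2_nonneg _) (by positivity) two_ne_zero).1 ?_
  have h1 : n2 (avg f φ b) ^ 2 = ∑ j, n2 (f j * φ (f j * b)) ^ 2 := by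
    simp only [f1.avg_apply, n2_sq', star_sum, sum_mul_sum, map_sum]
    refine sum_congr rfl fun i _ => sum_eq_single i (fun j _ hj => ?_) (by simp)
    rw [star_mul, f1.star_eq, mul_assoc, ← mul_assoc (f i), f1.orth i j hj.symm, zero_mul, mul_zero,
      map_zero]
  have h2 : ∀ j, n2 (f j * φ (f j * b)) ^ 2 ≤
      c ^ 2 * (tr (f j * (b * star b)) + η ^ 2 * tr (f j)) := fun j => by
    obtain ⟨a, ha⟩ := f5 j
    have t0 := n2_proj (f1.proj j)
    have a1 : ‖f j * b‖ ^ 2 ≤ |a| + η ^ 2 / 2 := by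
      have e1 : ‖f j * b‖ ^ 2 = ‖f j * (b * star b) * f j‖ := by
        rw [sq, ← CStarRing.norm_self_mul_star, star_mul, f1.star_eq]
        simp only [mul_assoc]
      have e2 : ‖(a : ℂ) • f j‖ ≤ |a| := by
        rw [norm_smul, Complex.norm_real]
        exact mul_le_of_le_one_right (norm_nonneg _) (f1.norm_le j)
      linarith [norm_sub_norm_le (f j * (b * star b) * f j) ((a : ℂ) • f j)]
    have a2 : |tr (f j * (b * star b)) - a * tr (f j)| ≤ η ^ 2 / 2 * tr (f j) := by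
      have e1 : tr (f j * ((f j * (b * star b) * f j - (a : ℂ) • f j) * f j)) =
          tr (f j * (b * star b)) - a * tr (f j) := by
        rw [tr_comm, mul_assoc, f1.idem, sub_mul, mul_assoc, f1.idem, smul_mul_assoc, f1.idem,
          map_sub, tr_comm, ← mul_assoc, f1.idem, Complex.coe_smul, map_smul, smul_eq_mul]
      rw [← e1, ← t0]
      refine (abs_tr_mul_le _ _).trans ?_
      have := n2_nonneg (f j)
      calc _ ≤ n2 (f j) * (η ^ 2 / 2 * n2 (f j)) :=
            mul_le_mul_of_nonneg_left ((n2_mul_le _ _).trans (by gcongr)) this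
        _ = _ := by ring
    have a3 : 0 ≤ tr (f j * (b * star b)) := by
      have := sq_nonneg (n2 (f j * b))
      rwa [n2_sq', star_mul, f1.star_eq, mul_assoc, ← mul_assoc (f j), f1.idem, tr_comm,
        mul_assoc] at this
    have a4 : 0 ≤ tr (f j) := t0 ▸ sq_nonneg _
    have a5 : |a| * tr (f j) ≤ tr (f j * (b * star b)) + η ^ 2 / 2 * tr (f j) := by
      rw [← abs_of_nonneg a4, ← abs_mul, abs_of_nonneg a4]
      have := abs_le.1 a2
      exact abs_le.2 ⟨by linarith, by linarith⟩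
    calc _ ≤ (n2 (f j) * (c * ‖f j * b‖)) ^ 2 := pow_le_pow_left₀ (n2_nonneg _)
          ((n2_mul_le' _ _).trans (mul_le_mul_of_nonneg_left (hφ _) (n2_nonneg _))) 2
      _ = c ^ 2 * (‖f j * b‖ ^ 2 * tr (f j)) := by rw [← t0]; ring
      _ ≤ c ^ 2 * ((|a| + η ^ 2 / 2) * tr (f j)) := by gcongr
      _ ≤ _ := mul_le_mul_of_nonneg_left (by linarith) (sq_nonneg c)
  rw [h1]
  refine (sum_le_sum fun j _ => h2 j).trans ?_
  rw [← mul_sum, sum_add_distrib, ← mul_sum, ← map_sum, ← map_sum, ← sum_mul, f1.sum, one_mul,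
    tr_one, tr_comm, ← n2_sq', mul_pow]
  exact mul_le_mul_of_nonneg_left (by nlinarith) (sq_nonneg c)

end Vale.Agent.P082
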