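import Vale.Agent.P082.Defs

/-! Random phases on partitions. -/

set_option linter.unusedSectionVars false

namespace Vale.Agent.P082

open Filter Topology Finset Vale.Agent.P104
open scoped InnerProductSpace ComplexOrder ComplexConjugate

universe u v

variable {A : Type u} [CStarAlgebra A] {ι κ : Type} [Fintype ι] [Fintype κ]
variable {p : ℕ} [NeZero p]

theorem norm_ph (a : ZMod p) : ‖ph a‖ = 1 := AddChar.norm_apply _ a

theorem ph_neg (a : ZMod p) : ph (-a) = conj (ph a) := AddChar.map_neg_eq_conj _ a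

theorem ph_add (a b : ZMod p) : ph (a + b) = ph a * ph b := AddChar.map_add_eq_mul _ a b

theorem ph_zero : ph (0 : ZMod p) = 1 := AddChar.map_zero_eq_one _

theorem ph_sum {σ : Type} (s : Finset σ) (a : σ → ZMod p) :
    ph (∑ l ∈ s, a l) = ∏ l ∈ s, ph (a l) := by
  classical
  induction s using Finset.induction_on with
  | empty => simp [ph_zero]
  | insert l s hl ih => rw [sum_insert hl, prod_insert hl, ph_add, ih]

theorem ph_Ex_zero {Ω : Type} [Fintype Ω] [AddCommGroup Ω] (L : Ω → ZMod p)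
    (hL : ∀ x y, L (x + y) = L x + L y) (x : Ω) (hx : L x ≠ 0) :
    Ex (fun ω => ph (L ω)) = 0 := by
  have h1 := Ex_equiv (Equiv.addLeft x) fun ω => ph (L ω)
  simp only [Equiv.coe_addLeft, hL, ph_add] at h1
  rw [← mul_Ex] at h1
  refine by_contra fun h => hx (ZMod.injective_stdAddChar ?_)
  exact (mul_right_cancel₀ h (h1.trans (one_mul _).symm)).trans ph_zero.symm

theorem orth_of_perm [DecidableEq ι] {σ C : Type} [Fintype σ] [Fintype C] [DecidableEq C]
    (c c' : σ → C) (γ γ' : σ → ι)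
    (h : ∃ π : Equiv.Perm σ, ∀ l, c (π l) = c' l ∧ γ (π l) = γ' l) :
    Ex (fun ϖ : C → ι → ZMod p =>
      (∏ l, ph (ϖ (c l) (γ l))) * conj (∏ l, ph (ϖ (c' l) (γ' l)))) = 1 := by
  obtain ⟨π, hπ⟩ := h
  refine Eq.trans (congrArg Ex (funext fun ϖ => ?_)) (Ex_const 1)
  rw [← ph_sum, ← ph_sum, ← ph_neg, ← ph_add, ← Equiv.sum_comp π]
  simp only [hπ, add_neg_cancel, ph_zero]

theorem orth_of_not [DecidableEq ι] {σ C : Type} [Fintype σ] [Fintype C] [DecidableEq C]
    (hp : Fintype.card σ < p) (c c' : σ → C) (γ γ' : σ → ι)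
    (h : ¬ ∃ π : Equiv.Perm σ, ∀ l, c (π l) = c' l ∧ γ (π l) = γ' l) :
    Ex (fun ϖ : C → ι → ZMod p =>
      (∏ l, ph (ϖ (c l) (γ l))) * conj (∏ l, ph (ϖ (c' l) (γ' l)))) = 0 := by
  obtain ⟨k, hk⟩ : ∃ k : C × ι, Fintype.card {l // (c' l, γ' l) = k} ≠
      Fintype.card {l // (c l, γ l) = k} := by
    by_contra! h'
    exact h ⟨Equiv.ofFiberEquiv fun k => Fintype.equivOfCardEq (h' k), fun l =>
      Prod.ext_iff.1 (Equiv.ofFiberEquiv_map (fun k => Fintype.equivOfCardEq (h' k)) l)⟩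
  simp only [← ph_sum, ← ph_neg, ← ph_add]
  refine ph_Ex_zero _ (fun x y => ?_) (fun a b => if (a, b) = k then 1 else 0) fun h0 => hk ?_
  · simp only [Pi.add_apply, sum_add_distrib]; ring
  · simp only [sum_boole, add_neg_eq_zero, ← Fintype.card_subtype] at h0
    rw [ZMod.natCast_eq_natCast_iff', Nat.mod_eq_of_lt ((Fintype.card_subtype_le _).trans_lt hp),
      Nat.mod_eq_of_lt ((Fintype.card_subtype_le _).trans_lt hp)] at h0
    exact h0.symm

theorem orth1 [DecidableEq ι] (hp : 1 < p) (i j : ι) :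
    Ex (fun α : ι → ZMod p => conj (ph (α i)) * ph (α j)) = if i = j then 1 else 0 := by
  simp only [← ph_neg, ← ph_add]
  split_ifs with h
  · simp only [h, neg_add_cancel, ph_zero, Ex_const]
  · have : Fact (1 < p) := ⟨hp⟩
    refine ph_Ex_zero _ (fun x y => ?_) (Pi.single j 1) (by simp [h])
    simp only [Pi.add_apply]; ring

theorem orth2 [DecidableEq ι] (hp : 2 < p) (a b c d : ι) :
    Ex (fun α : ι → ZMod p => ph (α a) * conj (ph (α b)) * conj (ph (α c)) * ph (α d)) =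
      (if a = b ∧ c = d then 1 else 0) + (if a = c ∧ b = d then 1 else 0)
        - (if a = b ∧ a = c ∧ a = d then 1 else 0) := by
  simp only [← ph_neg, ← ph_add]
  have : Fact (1 < p) := ⟨by omega⟩
  have h2 : (2 : ZMod p) ≠ 0 := fun h =>
    absurd (Nat.le_of_dvd two_pos ((ZMod.natCast_eq_zero_iff 2 p).1 h)) (by omega)
  have hL : ∀ x y : ι → ZMod p, (x + y) a + -(x + y) b + -(x + y) c + (x + y) d =
      x a + -x b + -x c + x d + (y a + -y b + -y c + y d) := fun x y => by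
    simp only [Pi.add_apply]; ring
  by_cases h1 : a = b
  · subst h1
    by_cases h3 : c = d
    · subst h3
      by_cases h4 : a = c <;> simp [h4, ph_zero, Ex_const]
    · rw [ph_Ex_zero _ hL (Pi.single d 1) (by simp [h3])]
      by_cases h4 : a = c <;> simp [h3, h4]
  · by_cases h3 : a = c
    · subst h3
      by_cases h4 : b = d
      · subst h4
        simp [h1, ph_zero, Ex_const]
      · rw [ph_Ex_zero _ hL (Pi.single d 1) (by simp [h4])]
        simp [h1, h4]
    · rw [ph_Ex_zero _ hL (Pi.single a 1) ?_]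
      · simp [h1, h3]
      · by_cases h4 : d = a <;> simp [Ne.symm h1, Ne.symm h3, h4, one_add_one_eq_two, h2]

theorem IsPart.star_Lam {e : ι → A} (h : IsPart e) (α : ι → ZMod p) :
    star (Lam e α) = Lam e (-α) := by
  simp [Lam, star_sum, h.star_eq, ph_neg]

theorem IsPart.Lam_mul {e : ι → A} (h : IsPart e) (α β : ι → ZMod p) :
    Lam e α * Lam e β = Lam e (α + β) := by
  classical
  simp [Lam, sum_mul_sum, h.mul_ite, smul_smul, ph_add, mul_comm]

theorem IsPart.Lam_mem {e : ι → A} (h : IsPart e) (α : ι → ZMod p) : Lam e α ∈ unitary A := by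
  constructor <;> rw [h.star_Lam, h.Lam_mul] <;> simp [Lam, ph_zero, h.sum]

theorem Mod.Lam {e : ι → A} {φ : A →ₗ[ℂ] A} (h : Mod e φ) (α : ι → ZMod p) (a : A) :
    φ (Lam e α * a) = Lam e α * φ a := by
  simp [P082.Lam, sum_mul, h _ a]

theorem IsPart.avg_eq_Ex [DecidableEq ι] (hp : 1 < p) {e : ι → A} (h : IsPart e)
    (φ : A →ₗ[ℂ] A) (a : A) :
    avg e φ a = Ex fun α : ι → ZMod p => star (Lam e α) * φ (Lam e α * a) := by
  have e1 : ∀ α : ι → ZMod p, star (Lam e α) * φ (Lam e α * a) =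
      ∑ i, ∑ j, (conj (ph (α i)) * ph (α j)) • (e i * φ (e j * a)) := fun α => by
    simp only [Lam, star_sum, star_smul, h.star_eq, sum_mul, map_sum, smul_mul_assoc, map_smul,
      mul_sum, smul_sum, mul_smul_comm, smul_smul, RCLike.star_def, mul_comm (ph _)]
    exact sum_comm
  have e2 : ∀ (f : (ι → ZMod p) → ℂ) (x : A), Ex (fun α => f α • x) = Ex f • x := fun f x => by
    rw [Ex, Ex, smul_assoc, sum_smul]
  simp [e1, Ex_sum, e2, orth1 hp, h.avg_apply]

theorem IsPart.norm_avg_le {e : ι → A} (h : IsPart e) {φ : A →ₗ[ℂ] A} {c : ℝ}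
    (hφ : ∀ a, ‖φ a‖ ≤ c * ‖a‖) (a : A) : ‖avg e φ a‖ ≤ c * ‖a‖ := by
  classical
  rw [h.avg_eq_Ex (p := 2) one_lt_two]
  refine (norm_Ex_le _).trans (Ex_le fun α => ?_)
  rw [CStarRing.norm_mem_unitary_mul _ (Unitary.star_mem (h.Lam_mem α))]
  exact (hφ _).trans_eq (by rw [CStarRing.norm_mem_unitary_mul _ (h.Lam_mem α)])

theorem IsPart.n2_avg_le [Tr A] {e : ι → A} (h : IsPart e) {φ : A →ₗ[ℂ] A} {c : ℝ}
    (hφ : ∀ a, n2 (φ a) ≤ c * n2 a) (a : A) : n2 (avg e φ a) ≤ c * n2 a := by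
  classical
  rw [h.avg_eq_Ex (p := 2) one_lt_two]
  refine (n2_Ex_le _).trans (Ex_le fun α => ?_)
  rw [n2_unitary_mul (Unitary.star_mem (h.Lam_mem α))]
  exact (hφ _).trans_eq (by rw [n2_unitary_mul (h.Lam_mem α)])

theorem IsPart.n2_avg_le' [Tr A] {e : ι → A} (h : IsPart e) {φ : A →ₗ[ℂ] A} {c : ℝ}
    (hφ : ∀ a, n2 (φ a) ≤ c * ‖a‖) (a : A) : n2 (avg e φ a) ≤ c * ‖a‖ := by
  classical
  rw [h.avg_eq_Ex (p := 2) one_lt_two]
  refine (n2_Ex_le _).trans (Ex_le fun α => ?_)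
  rw [n2_unitary_mul (Unitary.star_mem (h.Lam_mem α))]
  exact (hφ _).trans_eq (by rw [CStarRing.norm_mem_unitary_mul _ (h.Lam_mem α)])

theorem BB.avg [Tr A] {e : ι → A} (h : IsPart e) {φ : A →ₗ[ℂ] A} (hφ : BB φ) : BB (avg e φ) :=
  ⟨fun a => by simpa using h.norm_avg_le (c := 1) (by simpa using hφ.b1) a,
    fun a => by simpa using h.n2_avg_le (c := 1) (by simpa using hφ.b2) a⟩

theorem BB.avgW [Tr A] {C : Type} {e : C → ι → A} (h : ∀ j, IsPart (e j)) (w : List C)
    {φ : A →ₗ[ℂ] A} (hφ : BB φ) : BB (avgW e w φ) := by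
  induction w generalizing φ with
  | nil => exact hφ
  | cons j w ih => exact ih (hφ.avg (h j))

section
variable {σ C : Type} {e : C → ι → A} {c : σ → C}

theorem pr_nil (ϖ : σ → ι → ZMod p) : pr e c [] ϖ = 1 := rfl

theorem pr_cons (l : σ) (L : List σ) (ϖ : σ → ι → ZMod p) :
    pr e c (l :: L) ϖ = Lam (e (c l)) (ϖ l) * pr e c L ϖ := rfl

theorem pr_append (L L' : List σ) (ϖ : σ → ι → ZMod p) :
    pr e c (L ++ L') ϖ = pr e c L ϖ * pr e c L' ϖ := by
  simp [pr]

theorem pr_mem (h : ∀ j, IsPart (e j)) (L : List σ) (ϖ : σ → ι → ZMod p) :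
    pr e c L ϖ ∈ unitary A := by
  induction L with
  | nil => exact one_mem _
  | cons l L ih => exact mul_mem ((h _).Lam_mem _) ih

theorem pr_update [DecidableEq σ] {l : σ} {L : List σ} (hl : l ∉ L) (ϖ : σ → ι → ZMod p)
    (α : ι → ZMod p) : pr e c L (Function.update ϖ l α) = pr e c L ϖ :=
  congrArg List.prod (List.map_congr_left fun x hx => by
    rw [Function.update_of_ne fun h : x = l => hl (h ▸ hx)])

theorem Ex_pr [DecidableEq ι] [Fintype σ] [DecidableEq σ] (hp : 1 < p) (h : ∀ j, IsPart (e j))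
    {L : List σ} (hL : L.Nodup) (φ : A →ₗ[ℂ] A) (a : A) :
    Ex (fun ϖ : σ → ι → ZMod p => star (pr e c L ϖ) * φ (pr e c L ϖ * a))
      = avgW e (L.map c) φ a := by
  induction L generalizing φ with
  | nil => simp [pr_nil, avgW_nil, Ex_const]
  | cons l L ih =>
    rw [List.map_cons, avgW_cons, ← ih (List.nodup_cons.1 hL).2, Ex_update l]
    refine congrArg Ex (funext fun ϖ => ?_)
    simp only [pr_cons, pr_update (List.nodup_cons.1 hL).1, Function.update_self, star_mul,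
      mul_assoc, (h _).avg_eq_Ex hp, mul_Ex]

end

theorem prod_expand [DecidableEq ι] {K : ℕ} (a : Fin K → ι → A) (β : Fin K → ι → ℂ) :
    (List.ofFn fun l => ∑ i, β l i • a l i).prod
      = ∑ γ : Fin K → ι, (∏ l, β l (γ l)) • (List.ofFn fun l => a l (γ l)).prod := by
  have h := (MultilinearMap.mkPiAlgebraFin ℂ K A).map_sum fun l i => β l i • a l i
  simpa only [MultilinearMap.map_smul_univ, MultilinearMap.mkPiAlgebraFin_apply] using h

end Vale.Agent.P082
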