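import Vale.Agent.P082.Lim
import Vale.Agent.P082.Phase
import Vale.Agent.P082.LQ

/-! Algebra of cochains. -/

set_option linter.unusedSectionVars false

namespace Vale.Agent.P082

open Filter Topology Finset Vale.Agent.P104
open scoped InnerProductSpace ComplexOrder ComplexConjugate

universe u v

variable {G : Type v} [NormedAddCommGroup G] [InnerProductSpace ℂ G] [CompleteSpace G]
  {M : Type u} [CStarAlgebra M] {ρ : M →⋆ₐ[ℂ] (G →L[ℂ] G)}

theorem nrm_nil : nrm ([] : List M) = 1 := by simp [nrm]

theorem nrm_cons (x : M) (l : List M) : nrm (x :: l) = ‖x‖ * nrm l := by simp [nrm]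

theorem nrm_nonneg (l : List M) : 0 ≤ nrm l := by
  induction l with
  | nil => rw [nrm_nil]; exact zero_le_one
  | cons x l ih => rw [nrm_cons]; exact mul_nonneg (norm_nonneg _) ih

theorem co_dd_nil (F : List M → M) (y : M) : dd F y [] = F [] * y := rfl

theorem co_dd_cons (F : List M → M) (y x : M) (l : List M) :
    dd F y (x :: l) = F (y * x :: l) - dd (fun l' => F (y :: l')) x l := rfl

theorem co_prism_nil (α : M → M) (v : M) (F : List M → M) : prism α v F [] = F [v] := rfl

theorem co_prism_cons (α : M → M) (v : M) (F : List M → M) (x : M) (l : List M) :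
    prism α v F (x :: l) = F (v :: x :: l) - prism α v (fun l' => F (α x :: l')) l := rfl

theorem dd_add (F K : List M → M) (y : M) (l : List M) :
    dd (fun l => F l + K l) y l = dd F y l + dd K y l := by
  induction l generalizing F K y with
  | nil => simp only [co_dd_nil, add_mul]
  | cons x l ih =>
    simp only [co_dd_cons]
    rw [ih (fun l' => F (y :: l')) (fun l' => K (y :: l'))]
    abel

theorem dd_sub (F K : List M → M) (y : M) (l : List M) :
    dd (fun l => F l - K l) y l = dd F y l - dd K y l := by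
  induction l generalizing F K y with
  | nil => simp only [co_dd_nil, sub_mul]
  | cons x l ih =>
    simp only [co_dd_cons]
    rw [ih (fun l' => F (y :: l')) (fun l' => K (y :: l'))]
    abel

theorem dd_smul (c : ℂ) (F : List M → M) (y : M) (l : List M) :
    dd (fun l => c • F l) y l = c • dd F y l := by
  induction l generalizing F y with
  | nil => simp only [co_dd_nil, smul_mul_assoc]
  | cons x l ih =>
    simp only [co_dd_cons]
    rw [ih (fun l' => F (y :: l')), smul_sub]

theorem dd_mul (b : M) (F : List M → M) (y : M) (l : List M) :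
    dd (fun l => b * F l) y l = b * dd F y l := by
  induction l generalizing F y with
  | nil => simp only [co_dd_nil, mul_assoc]
  | cons x l ih =>
    simp only [co_dd_cons]
    rw [ih (fun l' => F (y :: l')), mul_sub]

theorem dd_sum {J : Type*} (s : Finset J) (F : J → List M → M) (y : M) (l : List M) :
    dd (fun l => ∑ j ∈ s, F j l) y l = ∑ j ∈ s, dd (F j) y l := by
  induction l generalizing F y with
  | nil => simp only [co_dd_nil, sum_mul]
  | cons x l ih =>
    simp only [co_dd_cons]
    rw [ih (fun j l' => F j (y :: l')), sum_sub_distrib]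

theorem dd_map {α : M → M} (hα : ∀ x y, α (x * y) = α x * α y) {v : M}
    (hv : ∀ x, α x * v = v * x) (F : List M → M) (y : M) (l : List M) :
    dd F (α y) (l.map α) * v = dd (fun l => F (l.map α) * v) y l := by
  induction l generalizing F y with
  | nil => simp only [List.map_nil, co_dd_nil, mul_assoc, hv]
  | cons x l ih =>
    simp only [List.map_cons, co_dd_cons, sub_mul]
    rw [ih (fun l' => F (α y :: l')), hα]

theorem WL.dd {ι : Type*} {U : Filter ι} {F : ι → List M → M} {K : List M → M}
    (h : ∀ l, WL ρ U (fun i => F i l) (K l)) (y : M) (l : List M) :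
    WL ρ U (fun i => dd (F i) y l) (dd K y l) := by
  induction l generalizing F K y with
  | nil => exact (h []).mul_const y
  | cons x l ih =>
    exact (h (y * x :: l)).sub
      (ih (F := fun i l' => F i (y :: l')) (K := fun l' => K (y :: l')) (fun l' => h (y :: l')) x)

theorem Lin.lim (hρ : IsVN ρ) {ι : Type*} {U : Filter ι} [U.NeBot] {F : ι → List M → M}
    {K : List M → M} (h : ∀ l, WL ρ U (fun i => F i l) (K l)) (hF : ∀ᶠ i in U, Lin (F i)) :
    Lin K := fun l₁ l₂ =>
  ⟨fun x y => (h _).unique hρ ((h (l₁ ++ x :: l₂)).add (h (l₁ ++ y :: l₂)))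
      (hF.mono fun _ hi => (hi l₁ l₂).map_add x y),
    fun c x => (h _).unique hρ ((h (l₁ ++ x :: l₂)).smul c)
      (hF.mono fun _ hi => (hi l₁ l₂).map_smul c x)⟩

theorem co_prism_add (α : M → M) (v : M) (F K : List M → M) (l : List M) :
    prism α v (fun l => F l + K l) l = prism α v F l + prism α v K l := by
  induction l generalizing F K with
  | nil => rfl
  | cons x l ih =>
    simp only [co_prism_cons]
    rw [ih (fun l' => F (α x :: l')) (fun l' => K (α x :: l'))]
    abel

theorem co_prism_sub (α : M → M) (v : M) (F K : List M → M) (l : List M) :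
    prism α v (fun l => F l - K l) l = prism α v F l - prism α v K l := by
  induction l generalizing F K with
  | nil => rfl
  | cons x l ih =>
    simp only [co_prism_cons]
    rw [ih (fun l' => F (α x :: l')) (fun l' => K (α x :: l'))]
    abel

theorem co_prism_smul (α : M → M) (v : M) (c : ℂ) (F : List M → M) (l : List M) :
    prism α v (fun l => c • F l) l = c • prism α v F l := by
  induction l generalizing F with
  | nil => rfl
  | cons x l ih =>
    simp only [co_prism_cons]
    rw [ih (fun l' => F (α x :: l')), smul_sub]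

theorem co_prism_mul (α : M → M) (v b : M) (F : List M → M) (l : List M) :
    prism α v (fun l => b * F l) l = b * prism α v F l := by
  induction l generalizing F with
  | nil => rfl
  | cons x l ih =>
    simp only [co_prism_cons]
    rw [ih (fun l' => F (α x :: l')), mul_sub]

theorem co_prism_dd {α : M → M} (hα : ∀ x y, α (x * y) = α x * α y) {v : M}
    (hv : ∀ x, α x * v = v * x) (F : List M → M) (x : M) (l : List M) :
    prism α v (fun l' => dd F (α x) l') l =
      dd (prism α v F) x l + dd F v (x :: l) - F (α x :: l.map α) * v := by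
  induction l generalizing F x with
  | nil =>
    simp only [co_prism_nil, co_dd_cons, co_dd_nil, hv, List.map_nil]
    abel
  | cons w l ih =>
    have e1 := co_prism_sub α v (fun l' => F (α x * α w :: l'))
      (fun l' => dd (fun l'' => F (α x :: l'')) (α w) l') l
    have e2 := ih (fun l'' => F (α x :: l'')) w
    have e3 := dd_sub (fun l' => F (v :: x :: l')) (prism α v fun l'' => F (α x :: l'')) w l
    simp only [co_prism_cons, co_dd_cons, List.map_cons, hv, hα] at e1 e2 e3 ⊢
    rw [e1, e2, e3]
    abel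

theorem prism_eq {α : M → M} (hα : ∀ x y, α (x * y) = α x * α y) {v : M}
    (hv : ∀ x, α x * v = v * x) {F : List M → M} (hF : ∀ x l, dif F x l = 0) (x : M) (l : List M) :
    α x * prism α v F l - dd (prism α v F) x l = v * F (x :: l) - F (α x :: l.map α) * v := by
  have k : ∀ y l, dd F y l = y * F l := fun y l => (sub_eq_zero.1 (hF y l)).symm
  have e := co_prism_dd hα hv F x l
  simp only [k] at e
  rw [co_prism_mul] at e
  rw [e]
  abel

theorem Lin.prism (α : M →ₗ[ℂ] M) (v : M) {F : List M → M} (hF : Lin F) : Lin (prism α v F) := by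
  intro l₁ l₂
  induction l₁ generalizing F with
  | nil =>
    have h1 := hF [v] l₂
    refine ⟨fun x y => ?_, fun c x => ?_⟩
    · have e : (fun l' => F (α (x + y) :: l')) = fun l' => F (α x :: l') + F (α y :: l') :=
        funext fun l' => by rw [map_add]; exact (hF [] l').map_add _ _
      have e1 : F (v :: (x + y) :: l₂) = F (v :: x :: l₂) + F (v :: y :: l₂) := h1.map_add x y
      simp only [List.nil_append, co_prism_cons]
      rw [e, co_prism_add, e1]
      abel
    · have e : (fun l' => F (α (c • x) :: l')) = fun l' => c • F (α x :: l') :=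
        funext fun l' => by rw [map_smul]; exact (hF [] l').map_smul _ _
      have e1 : F (v :: (c • x) :: l₂) = c • F (v :: x :: l₂) := h1.map_smul c x
      simp only [List.nil_append, co_prism_cons]
      rw [e, co_prism_smul, e1, smul_sub]
  | cons w l₁ ih =>
    have h1 := hF (v :: w :: l₁) l₂
    have h2 := ih (F := fun l' => F (α w :: l')) fun l₃ l₄ => hF (α w :: l₃) l₄
    refine ⟨fun x y => ?_, fun c x => ?_⟩
    · have e1 := h1.map_add x y
      have e2 := h2.map_add x y
      simp only [List.cons_append, co_prism_cons] at e1 e2 ⊢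
      rw [e1, e2]
      abel
    · have e1 := h1.map_smul c x
      have e2 := h2.map_smul c x
      simp only [List.cons_append, co_prism_cons] at e1 e2 ⊢
      rw [e1, e2, smul_sub]

theorem norm_prism_le {α : M → M} (hα : ∀ x, ‖α x‖ ≤ ‖x‖) {v : M} (hv : ‖v‖ ≤ 1)
    {F : List M → M} {C : ℝ} (hC : 0 ≤ C) (hF : ∀ l, ‖F l‖ ≤ C * nrm l) (l : List M) :
    ‖prism α v F l‖ ≤ C * (l.length + 1) * nrm l := by
  induction l generalizing F C with
  | nil =>
    have := hF [v]
    rw [nrm_cons, nrm_nil, mul_one] at this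
    rw [co_prism_nil, nrm_nil, List.length_nil, Nat.cast_zero, zero_add, mul_one, mul_one]
    exact this.trans (mul_le_of_le_one_right hC hv)
  | cons x l ih =>
    have h0 := nrm_nonneg l
    have hx := norm_nonneg x
    have h1 : ‖F (v :: x :: l)‖ ≤ C * (‖x‖ * nrm l) := by
      refine (hF _).trans ?_
      rw [nrm_cons, nrm_cons]
      exact mul_le_mul_of_nonneg_left (mul_le_of_le_one_left (mul_nonneg hx h0) hv) hC
    have h2 := ih (F := fun l' => F (α x :: l')) (C := C * ‖x‖) (mul_nonneg hC hx) fun l' => by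
      refine (hF _).trans ?_
      rw [nrm_cons, mul_assoc]
      exact mul_le_mul_of_nonneg_left (mul_le_mul_of_nonneg_right (hα x) (nrm_nonneg l')) hC
    rw [co_prism_cons, nrm_cons, List.length_cons, Nat.cast_succ]
    refine (norm_sub_le _ _).trans ((add_le_add h1 h2).trans_eq ?_)
    ring

theorem co_lin_mul (b : M) {F : List M → M} (hF : Lin F) : Lin fun l => b * F l := fun l₁ l₂ =>
  ⟨fun x y => (congrArg (b * ·) ((hF l₁ l₂).map_add x y)).trans (mul_add _ _ _),
    fun c x => (congrArg (b * ·) ((hF l₁ l₂).map_smul c x)).trans (mul_smul_comm _ _ _)⟩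

theorem Coc.central {F : List M → M} {C : ℝ} (h : Coc F C) {z : M} (hz : IsCP z) :
    Coc (fun l => z * F l) C := by
  refine ⟨h.C0, co_lin_mul z h.lin, fun l => ?_, fun x l => ?_⟩
  · exact (norm_mul_le _ _).trans
      ((mul_le_of_le_one_left (norm_nonneg _) hz.proj.norm_le).trans (h.bd l))
  · have e := h.coc x l
    rw [dif] at e ⊢
    rw [dd_mul, ← mul_assoc, ← hz.comm x, mul_assoc, ← mul_sub, e, mul_zero]

theorem Sol.lim (hρ : IsVN ρ) {ι : Type*} {U : Filter ι} [U.NeBot] {F : ι → List M → M}
    {F' : List M → M} {z : M} {c : List M → ℝ} {T : ι → List M → M →ₗ[ℂ] M}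
    {T' : List M → M →ₗ[ℂ] M} (hF : ∀ l, WL ρ U (fun i => F i l) (F' l))
    (hT : ∀ l a, WL ρ U (fun i => T i l a) (T' l a)) (h : ∀ᶠ i in U, T i ∈ Sol (F i) z c) :
    T' ∈ Sol F' z c :=
  ⟨fun a => Lin.lim hρ (F := fun i l => T i l a) (fun l => hT l a) (h.mono fun _ hi => hi.1 a),
    fun l a => (hT l a).norm_le hρ (h.mono fun _ hi => hi.2.1 l a),
    fun l a => ((hT l a).const_mul z).unique hρ (hT l a) (h.mono fun _ hi => hi.2.2.1 l a),
    fun a b l => (hT l (b * a)).unique hρ (((hF (a :: l)).const_mul b).add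
      (WL.dd (F := fun i l' => T i l' b) (K := fun l' => T' l' b) (fun l' => hT l' b) a l))
      (h.mono fun _ hi => hi.2.2.2 a b l)⟩

theorem Sol.avg {F : List M → M} {z : M} (hz : IsCP z) {c : List M → ℝ}
    {T : List M → M →ₗ[ℂ] M} (hT : T ∈ Sol F z c) {J : Type} [Fintype J] {m : J → M}
    (hm : ∑ j, star (m j) * m j = 1) (hb : ∀ l a, ‖avg m (T l) a‖ ≤ c l * ‖a‖) :
    (fun l => avg m (T l)) ∈ Sol F z c := by
  obtain ⟨h1, -, h3, h4⟩ := hT
  refine ⟨fun a l₁ l₂ => ⟨fun x y => ?_, fun r x => ?_⟩, hb, fun l a => ?_, fun a b l => ?_⟩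
  · simp only [avg_apply, ← sum_add_distrib, ← mul_add]
    exact sum_congr rfl fun j _ => congrArg _ ((h1 (m j * a) l₁ l₂).map_add x y)
  · simp only [avg_apply, smul_sum, ← mul_smul_comm]
    exact sum_congr rfl fun j _ => congrArg _ ((h1 (m j * a) l₁ l₂).map_smul r x)
  · simp only [avg_apply, mul_sum]
    refine sum_congr rfl fun j _ => ?_
    rw [← mul_assoc, hz.comm, mul_assoc, h3]
  · simp only [avg_apply]
    rw [dd_sum univ fun j l' => star (m j) * T l' (m j * b)]
    have e : ∀ j, star (m j) * T l (m j * (b * a)) = star (m j) * m j * (b * F (a :: l)) +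
        dd (fun l' => star (m j) * T l' (m j * b)) a l := fun j => by
      rw [← mul_assoc (m j), h4, dd_mul, mul_add]
      simp only [mul_assoc]
    simp only [e]
    rw [sum_add_distrib, ← sum_mul, hm, one_mul]

theorem co_convex (F : List M → M) (z : M) (c : List M → ℝ) : Convex ℝ (Sol F z c) := by
  rintro T ⟨h1, h2, h3, h4⟩ T' ⟨k1, k2, k3, k4⟩ s t hs ht hst
  have e : ∀ l a, (s • T + t • T') l a = (s : ℂ) • T l a + (t : ℂ) • T' l a := fun l a => by
    simp only [Pi.add_apply, Pi.smul_apply, LinearMap.add_apply, LinearMap.smul_apply,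
      Complex.coe_smul]
  have hst' : (s : ℂ) + t = 1 := by exact_mod_cast hst
  refine ⟨fun a l₁ l₂ => ⟨fun x y => ?_, fun r x => ?_⟩, fun l a => ?_, fun l a => ?_,
    fun a b l => ?_⟩
  · have e1 := (h1 a l₁ l₂).map_add x y
    have e2 := (k1 a l₁ l₂).map_add x y
    simp only [e] at e1 e2 ⊢
    rw [e1, e2, smul_add, smul_add]
    abel
  · have e1 := (h1 a l₁ l₂).map_smul r x
    have e2 := (k1 a l₁ l₂).map_smul r x
    simp only [e] at e1 e2 ⊢
    rw [e1, e2, smul_add, smul_comm r, smul_comm r]
  · rw [e]
    refine (norm_add_le _ _).trans ?_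
    rw [norm_smul, norm_smul, Complex.norm_real, Complex.norm_real, Real.norm_of_nonneg hs,
      Real.norm_of_nonneg ht]
    refine (add_le_add (mul_le_mul_of_nonneg_left (h2 l a) hs)
      (mul_le_mul_of_nonneg_left (k2 l a) ht)).trans_eq ?_
    rw [← add_mul, hst, one_mul]
  · rw [e, mul_add, mul_smul_comm, mul_smul_comm, h3, k3]
  · simp only [e]
    rw [dd_add (fun l' => (s : ℂ) • T l' b) fun l' => (t : ℂ) • T' l' b, dd_smul, dd_smul, h4, k4,
      smul_add, smul_add, add_add_add_comm, ← add_smul, hst', one_smul]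

theorem Coc.inv (hρ : IsVN ρ) {F : List M → M} {C : ℝ} (h : Coc F C) {z : M} (hz : IsCP z) :
    Inv ρ (Sol (fun l => z * F l) z fun l => C * nrm l) fun l => C * nrm l := by
  have h' := h.central hz
  refine ⟨⟨fun l => IsLinearMap.mk' (fun a => z * F (a :: l)) (h'.lin [] l),
      fun a l₁ l₂ => h'.lin (a :: l₁) l₂, fun l a => ?_, fun l a => hz.idem _, fun a b l => ?_⟩,
    fun l => mul_nonneg h.C0 (nrm_nonneg l), fun T hT => hT.2.1, fun U T hU hT => ?_,
    co_convex _ _ _, fun ι _ p hp T hT => ?_⟩
  · refine (h'.bd (a :: l)).trans_eq ?_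
    rw [nrm_cons]
    ring
  · have e := h'.coc b (a :: l)
    rw [dif, co_dd_cons, sub_eq_zero] at e
    exact (eq_sub_iff_add_eq.1 e).symm
  · exact Sol.lim hρ (U := (U : Filter (List M → M →ₗ[ℂ] M))) (F := fun _ l => z * F l)
      (T := fun T' => T') (fun l => WL.const _) hT hU
  · exact Sol.avg hz hT hp.sum_star_mul fun l a => hp.norm_avg_le (hT.2.1 l) a

theorem Sol.final (hR : Rickart M) {F : List M → M} {z : M} {c : List M → ℝ}
    {T : List M → M →ₗ[ℂ] M} (hT : T ∈ Sol F z c)
    (h : ∀ l q, IsStarProjection q → T l q = q * T l 1) (a : M) (l : List M) :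
    F (a :: l) = dif (fun l => T l 1) a l := by
  have e := hT.2.2.2 a 1 l
  rw [one_mul, one_mul, mod_of_proj hR (hT.2.1 l) (h l) a] at e
  rw [dif, e, add_sub_cancel_right]

end Vale.Agent.P082
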