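import Vale.Agent.P082.Lim

/-! Complete domination. -/

set_option linter.unusedSectionVars false

namespace Vale.Agent.P082

open Filter Topology Finset Vale.Agent.P104
open scoped InnerProductSpace ComplexOrder ComplexConjugate

universe u v

variable {G : Type v} [NormedAddCommGroup G] [InnerProductSpace ℂ G] [CompleteSpace G]
  {M : Type u} [CStarAlgebra M] {ρ : M →⋆ₐ[ℂ] (G →L[ℂ] G)}

theorem dom_vf_conj (m k : M) (η : G) : vf ρ (ρ m η) k = vf ρ η (star m * k * m) := by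
  change (⟪ρ m η, ρ k (ρ m η)⟫_ℂ).re = (⟪η, ρ (star m * k * m) η⟫_ℂ).re
  rw [map_mul, map_mul, map_star, ContinuousLinearMap.star_eq_adjoint,
    mul_apply_eq_comp, mul_apply_eq_comp,
    ContinuousLinearMap.adjoint_inner_right]

theorem dom_vf_one (η : G) : vf ρ η 1 = ‖η‖ ^ 2 := by
  have h := vf_star_mul (ρ := ρ) η 1
  rwa [star_one, mul_one, map_one ρ, one_apply_eq_self] at h

theorem dom_orth {q q' : M} (h : star q * q' = 0) (x y : G) :
    ‖ρ q x + ρ q' y‖ ^ 2 = ‖ρ q x‖ ^ 2 + ‖ρ q' y‖ ^ 2 := by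
  have h1 : ⟪ρ q x, ρ q' y⟫_ℂ = 0 := by
    rw [← ContinuousLinearMap.adjoint_inner_right, ← ContinuousLinearMap.star_eq_adjoint,
      ← map_star, ← mul_apply_eq_comp, ← map_mul, h]
    simp
  rw [sq, sq, sq]
  exact norm_add_sq_eq_norm_sq_add_norm_sq_of_inner_eq_zero _ _ h1

theorem dom_swap {q : M} (hq : IsStarProjection q) (x y : G) :
    ‖ρ q x + ρ (1 - q) y‖ ^ 2 + ‖ρ (1 - q) x + ρ q y‖ ^ 2 = ‖x‖ ^ 2 + ‖y‖ ^ 2 := by
  have h1 : star q * (1 - q) = 0 := by rw [hq.isSelfAdjoint.star_eq, hq.mul_one_sub_self]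
  have h2 : star (1 - q) * q = 0 := by
    rw [hq.one_sub.isSelfAdjoint.star_eq, hq.one_sub_mul_self]
  have h3 : ∀ z : G, ‖z‖ ^ 2 = ‖ρ q z‖ ^ 2 + ‖ρ (1 - q) z‖ ^ 2 := fun z => by
    rw [← dom_orth h1, ← _root_.add_apply, ← map_add, add_sub_cancel, map_one,
      one_apply_eq_self]
  rw [dom_orth h1, dom_orth h2, h3 x, h3 y]
  ring

theorem Dom.mono {φ : M →ₗ[ℂ] M} {k k' : M} (h : Dom ρ φ k) (hk : ∀ ξ, vf ρ ξ k ≤ vf ρ ξ k') :
    Dom ρ φ k' := fun I J _ _ X hX η => (h I J X hX η).trans (sum_le_sum fun _ _ => hk _)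

theorem Dom.vf_nonneg {φ : M →ₗ[ℂ] M} {k : M} (h : Dom ρ φ k) (ξ : G) : 0 ≤ vf ρ ξ k := by
  have h1 := h Unit Empty (fun _ _ => 0) (fun _ => by simp) fun _ => ξ
  simpa using h1

theorem Dom.norm_le (hρ : IsVN ρ) {φ : M →ₗ[ℂ] M} {c : ℝ} (hc : 0 ≤ c)
    (h : Dom ρ φ (((c ^ 2 : ℝ) : ℂ) • 1)) (a : M) : ‖φ a‖ ≤ c * ‖a‖ := by
  have key : ∀ x : M, ‖x‖ ≤ 1 → ‖φ x‖ ≤ c := fun x hx => by
    rw [← norm_star]
    refine hρ.norm_le_of hc fun ξ => ?_
    have h1 := h Unit Unit (fun _ _ => x) (fun ζ => by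
      simp only [univ_unique, sum_singleton]
      refine pow_le_pow_left₀ (norm_nonneg _) (((ρ x).le_opNorm _).trans ?_) 2
      rw [hρ.norm_eq]
      exact mul_le_of_le_one_left (norm_nonneg _) hx) fun _ => ξ
    simp only [univ_unique, sum_singleton] at h1
    rw [Complex.coe_smul, map_smul, dom_vf_one, smul_eq_mul, ← mul_pow] at h1
    exact le_of_sq_le_sq h1 (by positivity)
  by_cases ha : a = 0
  · simp [ha]
  · have h0 : 0 < ‖a‖ := norm_pos_iff.2 ha
    have h1 := key (((‖a‖⁻¹ : ℝ) : ℂ) • a) (by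
      rw [norm_smul, Complex.norm_real, Real.norm_of_nonneg (by positivity),
        inv_mul_cancel₀ h0.ne'])
    rw [map_smul, norm_smul, Complex.norm_real, Real.norm_of_nonneg (by positivity),
      inv_mul_le_iff₀ h0, mul_comm] at h1
    exact h1

theorem Dom.avg {φ : M →ₗ[ℂ] M} {k : M} (h : Dom ρ φ k) {J : Type} [Fintype J] {m : J → M}
    (hm : ∑ j, star (m j) * m j = 1) : Dom ρ (avg m φ) (∑ j, star (m j) * k * m j) := by
  intro I J' _ _ X hX η
  have h1 := h (I × J) J' (fun i j => m i.2 * X i.1 j) (fun ξ => by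
    refine le_of_eq_of_le ?_ (hX ξ)
    rw [Fintype.sum_prod_type]
    refine sum_congr rfl fun i _ => ?_
    rw [← dom_vf_one (ρ := ρ), ← hm, map_sum]
    refine sum_congr rfl fun l _ => ?_
    simp only [vf_star_mul, map_mul, mul_apply_eq_comp, map_sum]) fun i =>
      ρ (m i.2) (η i.1)
  simp only [Fintype.sum_prod_type, dom_vf_conj] at h1
  simp only [avg_apply, star_sum, star_mul, star_star, map_sum, map_mul,
    _root_.sum_apply, mul_apply_eq_comp]
  simpa only [map_mul] using h1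

theorem Dom.strict {φ : M →ₗ[ℂ] M} {k q : M} (h : Dom ρ φ k) (hq : IsStarProjection q) :
    Dom ρ (P082.avg (fun b : Bool => cond b q (1 - q)) φ)
      (q * k * q + (1 - q) * k * (1 - q)
        - (q * φ (1 - q) + (1 - q) * φ q) * star (q * φ (1 - q) + (1 - q) * φ q)) := by
  classical
  intro I J _ _ X hX η
  have e1 : star q = q := hq.isSelfAdjoint.star_eq
  have e2 : star (1 - q) = 1 - q := hq.one_sub.isSelfAdjoint.star_eq
  have h1 := h (I × Bool) (J ⊕ I)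
    (fun i => Sum.elim (fun j => cond i.2 q (1 - q) * X i.1 j)
      fun i' => if i.1 = i' then cond i.2 (1 - q) q else 0) (fun ξ => by
    have h2 := hX fun j => ξ (Sum.inl j)
    simp only [Fintype.sum_prod_type, Fintype.sum_sum_type, Sum.elim_inl, Sum.elim_inr,
      Fintype.sum_bool, cond_true, cond_false, apply_ite ρ, map_zero,
      DFunLike.ite_apply, _root_.zero_apply, sum_ite_eq, mem_univ, if_true,
      map_mul, mul_apply_eq_comp, ← map_sum, dom_swap hq, sum_add_distrib]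
    linarith) fun i => ρ (cond i.2 q (1 - q)) (η i.1)
  have h3 : ∀ ξ : G, vf ρ ξ ((q * φ (1 - q) + (1 - q) * φ q) *
      star (q * φ (1 - q) + (1 - q) * φ q)) =
      ‖ρ (star (φ (1 - q))) (ρ q ξ) + ρ (star (φ q)) (ρ (1 - q) ξ)‖ ^ 2 := fun ξ => by
    have h4 := vf_star_mul (ρ := ρ) ξ (star (q * φ (1 - q) + (1 - q) * φ q))
    rw [star_star] at h4
    rw [h4, star_add, star_mul, star_mul, e1, e2, map_add, map_mul, map_mul]
    rfl
  simp only [Fintype.sum_prod_type, Fintype.sum_sum_type, Sum.elim_inl, Sum.elim_inr,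
    Fintype.sum_bool, cond_true, cond_false, apply_ite φ, apply_ite star, apply_ite ρ, map_zero,
    star_zero, DFunLike.ite_apply, _root_.zero_apply, sum_add_distrib, sum_ite_eq',
    mem_univ, if_true, dom_vf_conj, e1, e2] at h1
  simp only [avg_apply, Fintype.sum_bool, cond_true, cond_false, star_add, star_mul, e1, e2,
    map_sub (vf ρ _), map_add (vf ρ _), sum_sub_distrib, sum_add_distrib, map_add ρ, map_mul ρ,
    _root_.add_apply, mul_apply_eq_comp] at h3 ⊢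
  simp only [h3]
  linarith

theorem Dom.lim {ι : Type*} {l : Filter ι} [l.NeBot] {T : ι → M →ₗ[ℂ] M} {S : M →ₗ[ℂ] M}
    {k : ι → M} {k' : M} (hT : ∀ a, WL ρ l (fun i => T i a) (S a))
    (hk : ∀ ξ, Tendsto (fun i => vf ρ ξ (k i)) l (𝓝 (vf ρ ξ k')))
    (h : ∀ᶠ i in l, Dom ρ (T i) (k i)) : Dom ρ S k' := by
  intro I J _ _ X hX η
  set x : J → G := fun j => ∑ i, ρ (star (S (X i j))) (η i) with hx
  have h1 : Tendsto (fun n => ∑ j, (⟪x j, ∑ i, ρ (star (T n (X i j))) (η i)⟫_ℂ).re) l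
      (𝓝 (∑ j, ‖x j‖ ^ 2)) := by
    refine tendsto_finsetSum _ fun j _ => ?_
    have h2 : ‖x j‖ ^ 2 = (⟪x j, ∑ i, ρ (star (S (X i j))) (η i)⟫_ℂ).re :=
      (inner_self_eq_norm_sq (𝕜 := ℂ) (x j)).symm
    rw [h2]
    refine (Complex.continuous_re.tendsto _).comp ?_
    simp only [inner_sum]
    exact tendsto_finsetSum _ fun i _ => (hT _).star _ _
  have h3 : Tendsto (fun n => (∑ j, ‖x j‖ ^ 2 + ∑ i, vf ρ (η i) (k n)) / 2) l
      (𝓝 ((∑ j, ‖x j‖ ^ 2 + ∑ i, vf ρ (η i) k') / 2)) :=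
    (tendsto_const_nhds.add (tendsto_finsetSum _ fun i _ => hk _)).div_const 2
  have h4 := le_of_tendsto_of_tendsto h1 h3 (by
    filter_upwards [h] with n hn
    have h5 := hn I J X hX η
    have h6 : ∑ j, (⟪x j, ∑ i, ρ (star (T n (X i j))) (η i)⟫_ℂ).re ≤
        ∑ j, (‖x j‖ ^ 2 + ‖∑ i, ρ (star (T n (X i j))) (η i)‖ ^ 2) / 2 :=
      sum_le_sum fun j _ => by
        have h7 := re_inner_le_norm (𝕜 := ℂ) (x j) (∑ i, ρ (star (T n (X i j))) (η i))
        have h8 := two_mul_le_add_sq ‖x j‖ ‖∑ i, ρ (star (T n (X i j))) (η i)‖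
        rw [RCLike.re_to_complex] at h7
        linarith
    rw [← sum_div, sum_add_distrib] at h6
    linarith)
  change ∑ j, ‖x j‖ ^ 2 ≤ _
  linarith

theorem eq_of_defect {φ : M →ₗ[ℂ] M} {q : M} (hq : IsStarProjection q) :
    φ q - q * φ 1 = (1 - q - q) * (q * φ (1 - q) + (1 - q) * φ q) := by
  have h : ∀ x, q * (q * x) = q * x := fun x => by rw [← mul_assoc, hq.isIdempotentElem.eq]
  simp only [map_sub, mul_add, mul_sub, sub_mul, one_mul, h]
  abel

end Vale.Agent.P082
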