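import Vale.Agent.P082.Dom

/-! The fixed point theorem for completely bounded families. -/

set_option linter.unusedSectionVars false

namespace Vale.Agent.P082

open Filter Topology Finset Vale.Agent.P104
open scoped InnerProductSpace ComplexOrder ComplexConjugate

universe u v

variable {G : Type v} [NormedAddCommGroup G] [InnerProductSpace ℂ G] [CompleteSpace G]
  {M : Type u} [CStarAlgebra M] {ρ : M →⋆ₐ[ℂ] (G →L[ℂ] G)}

theorem fc_mul {W : Set M} (h1 : ∀ w ∈ W, PI w)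
    (h2 : ∀ w ∈ W, ∀ w' ∈ W, w ≠ w' → w * star w' = 0) (s : Finset W) {w : W} (hw : w ∈ s) :
    (w : M) * ∑ v ∈ s, star (v : M) * (v : M) = w := by
  rw [mul_sum, sum_eq_single_of_mem w hw]
  · exact h1 w w.2
  · intro v _ hv
    rw [← mul_assoc, h2 w w.2 v v.2 fun e => hv (Subtype.ext e).symm, zero_mul]

theorem fc_le {W : Set M} (h1 : ∀ w ∈ W, PI w)
    (h2 : ∀ w ∈ W, ∀ w' ∈ W, w ≠ w' → w * star w' = 0) {s t : Finset W} (hst : s ⊆ t) :
    (∑ v ∈ s, star (v : M) * (v : M)) * ∑ v ∈ t, star (v : M) * (v : M) =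
      ∑ v ∈ s, star (v : M) * (v : M) := by
  rw [sum_mul]
  exact sum_congr rfl fun v hv => by rw [mul_assoc, fc_mul h1 h2 t (hst hv)]

theorem fc_star {W : Set M} (s : Finset W) :
    star (∑ v ∈ s, star (v : M) * (v : M)) = ∑ v ∈ s, star (v : M) * (v : M) := by
  simp [star_sum]

theorem fc_proj {W : Set M} (h1 : ∀ w ∈ W, PI w)
    (h2 : ∀ w ∈ W, ∀ w' ∈ W, w ≠ w' → w * star w' = 0) (s : Finset W) :
    IsStarProjection (∑ v ∈ s, star (v : M) * (v : M)) :=
  isStarProjection_iff'.2 ⟨fc_le h1 h2 subset_rfl, fc_star s⟩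

theorem exists_spread (h : IsVN ρ) {e : M} (he : IsStarProjection e) (e0 : e ≠ 0) :
    ∃ (z : M) (W : Set M), IsCP z ∧ z ≠ 0 ∧ (∀ w ∈ W, PI w ∧ e * w = w) ∧
      (∀ w ∈ W, ∀ w' ∈ W, w ≠ w' → w * star w' = 0) ∧
      WL ρ atTop (fun s : Finset W => ∑ w ∈ s, star (w : M) * (w : M)) z := by
  classical
  have hw := h.isWRep
  obtain ⟨W, hW⟩ := zorn_subset {W : Set M | (∀ w ∈ W, PI w ∧ e * w = w) ∧
      ∀ w ∈ W, ∀ w' ∈ W, w ≠ w' → w * star w' = 0} fun c hc hch => by
    refine ⟨⋃₀ c, ⟨?_, ?_⟩, fun s hs => Set.subset_sUnion_of_mem hs⟩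
    · rintro w ⟨s, hs, hw⟩
      exact (hc hs).1 w hw
    · rintro w ⟨s, hs, hw⟩ w' ⟨t, ht, hw'⟩
      rcases hch.total hs ht with hst | hst
      · exact (hc ht).2 w (hst hw) w' hw'
      · exact (hc hs).2 w hw w' (hst hw')
  obtain ⟨h1, h2⟩ := hW.prop
  have h1' : ∀ w ∈ W, PI w := fun w hw => (h1 w hw).1
  obtain ⟨r, hr, -, -⟩ := hw.lim_PI (v := fun s : Finset W => ∑ w ∈ s, star (w : M) * (w : M))
    (fun s => PI.ofProj (fc_proj h1' h2 s)) fun s t hst => by
      have a := fc_le h1' h2 hst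
      have b := congrArg star a
      rw [star_mul, fc_star, fc_star] at b
      rw [PLe, fc_star, a, b, fc_le h1' h2 subset_rfl]
      exact ⟨rfl, rfl⟩
  have rs : star r = r := hr.star.eq hw hr (.of_forall fc_star)
  have rp : IsStarProjection r := isStarProjection_iff'.2
    ⟨(hr.mul hr).eq hw hr (.of_forall fun s => fc_le h1' h2 subset_rfl), rs⟩
  have wr : ∀ w ∈ W, w * r = w := fun w hw' => by
    refine ((BS.const w).mul hr).eq hw (BS.const w) ?_
    filter_upwards [eventually_ge_atTop {(⟨w, hw'⟩ : W)}] with s hs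
    exact fc_mul h1' h2 s (w := ⟨w, hw'⟩) (hs (mem_singleton_self _))
  have key : ∀ b, e * b * (1 - r) = 0 := fun b => by
    by_contra hne
    obtain ⟨t, ht, t0, ⟨a, ha⟩, ⟨a', ha'⟩⟩ := hw.rickart.exists_PI hne
    have et : e * t = t := by rw [ha]; simp only [← mul_assoc, he.isIdempotentElem.eq]
    have tr : t * r = 0 := by
      rw [ha', mul_assoc, mul_assoc, rp.one_sub_mul_self, mul_zero, mul_zero]
    have o1 : ∀ w ∈ W, t * star w = 0 := fun w hw' => by
      rw [← wr w hw', star_mul, rs, ← mul_assoc, tr, zero_mul]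
    have hm : t ∈ W := by
      refine hW.2 (y := insert t W) ⟨?_, ?_⟩ (Set.subset_insert _ _) (Set.mem_insert _ _)
      · rintro w (rfl | hw')
        exacts [⟨ht, et⟩, h1 w hw']
      · rintro w (rfl | hw') w' (rfl | hw'') hne'
        · exact absurd rfl hne'
        · exact o1 _ hw''
        · simpa using congrArg star (o1 _ hw')
        · exact h2 _ hw' _ hw'' hne'
    exact t0 ((wr t hm).symm.trans tr)
  have k2 : ∀ b, r * b = r * b * r := fun b => by
    have : r * (b * (1 - r)) = 0 := by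
      refine (hr.mul (BS.const _)).eq hw (BS.const 0) (.of_forall fun s => ?_)
      rw [sum_mul]
      refine sum_eq_zero fun w _ => ?_
      rw [mul_assoc, ← mul_assoc (w : M), ← (h1 w w.2).2, star_mul, mul_assoc e, mul_assoc e,
        ← mul_assoc e, key, mul_zero]
    rwa [mul_sub, mul_one, mul_sub, sub_eq_zero, ← mul_assoc] at this
  refine ⟨r, W, ⟨rp, fun b => ?_⟩, fun h0 => e0 ?_, h1, h2, BS.wl hr⟩
  · have := congrArg star (k2 (star b))
    simp only [star_mul, star_star, rs, ← mul_assoc] at this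
    rw [this, ← k2]
  · simpa [h0] using key 1

theorem fc_lim (h : IsVN ρ) {E : Type u} {S : Set (E → M →ₗ[ℂ] M)} {c : E → ℝ}
    (hc : ∀ e, 0 ≤ c e) (hD : ∀ T ∈ S, ∀ e, Dom ρ (T e) (((c e ^ 2 : ℝ) : ℂ) • 1))
    (hlim : ∀ (U : Ultrafilter (E → M →ₗ[ℂ] M)) (T : E → M →ₗ[ℂ] M), S ∈ U →
      (∀ e a, WL ρ (U : Filter (E → M →ₗ[ℂ] M)) (fun T' => T' e a) (T e a)) → T ∈ S)
    {ι : Type*} (U : Ultrafilter ι) {T : ι → E → M →ₗ[ℂ] M} (hT : ∀ i, T i ∈ S) :
    ∃ T' ∈ S, ∀ e a, WL ρ (U : Filter ι) (fun i => T i e a) (T' e a) := by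
  choose T' hT' using fun e => h.exists_lim_map U (T := fun i => T i e) (c := c e)
    (.of_forall fun i a => (hD _ (hT i) e).norm_le h (hc e) a)
  refine ⟨T', hlim (U.map T) T' (Ultrafilter.mem_map.2 (univ_mem' hT)) fun e a ξ η => ?_, hT'⟩
  rw [Ultrafilter.coe_map, tendsto_map'_iff]
  exact hT' e a ξ η

theorem fc_avg {φ : M →ₗ[ℂ] M} {k : M} (hk : ∀ b, k * b = b * k) (h : Dom ρ φ k) {J : Type}
    [Fintype J] {m : J → M} (hm : ∑ j, star (m j) * m j = 1) : Dom ρ (avg m φ) k := by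
  have := h.avg hm
  simp only [← hk, mul_assoc, ← mul_sum, hm, mul_one] at this
  exact this

variable (ρ) in
/-- Families with a central dominating family. -/
structure FcP {E : Type u} (S : Set (E → M →ₗ[ℂ] M)) (c : E → ℝ) : Type u where
  T : E → M →ₗ[ℂ] M
  k : E → M
  mem : T ∈ S
  cen : ∀ e b, k e * b = b * k e
  sa : ∀ e, star (k e) = k e
  bd : ∀ e, ‖k e‖ ≤ ‖(((c e ^ 2 : ℝ) : ℂ) • 1 : M)‖
  dom : ∀ e, Dom ρ (T e) (k e)

instance {E : Type u} (S : Set (E → M →ₗ[ℂ] M)) (c : E → ℝ) : Preorder (FcP ρ S c) where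
  le a b := ∀ e ξ, vf ρ ξ (b.k e) ≤ vf ρ ξ (a.k e)
  le_refl _ _ _ := le_rfl
  le_trans _ _ _ h h' e ξ := (h' e ξ).trans (h e ξ)

theorem fc_max (h : IsVN ρ) {E : Type u} {S : Set (E → M →ₗ[ℂ] M)} {c : E → ℝ}
    (hne : S.Nonempty) (hc : ∀ e, 0 ≤ c e)
    (hD : ∀ T ∈ S, ∀ e, Dom ρ (T e) (((c e ^ 2 : ℝ) : ℂ) • 1))
    (hlim : ∀ (U : Ultrafilter (E → M →ₗ[ℂ] M)) (T : E → M →ₗ[ℂ] M), S ∈ U →
      (∀ e a, WL ρ (U : Filter (E → M →ₗ[ℂ] M)) (fun T' => T' e a) (T e a)) → T ∈ S) :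
    ∃ m : FcP ρ S c, IsMax m := by
  obtain ⟨T0, hT0⟩ := hne
  have : Nonempty (FcP ρ S c) := ⟨⟨T0, fun e => ((c e ^ 2 : ℝ) : ℂ) • 1, hT0, fun e b => by simp,
    fun e => by rw [star_smul, star_one, Complex.star_def, Complex.conj_ofReal],
    fun e => le_rfl, hD T0 hT0⟩⟩
  refine zorn_le_nonempty fun C hC ⟨y, hy⟩ => ?_
  have _ : Nonempty C := ⟨⟨y, hy⟩⟩
  have _ : IsDirectedOrder C := hC.directedOn.isDirectedOrder
  let U : Ultrafilter C := Ultrafilter.of atTop
  have hU : (U : Filter C) ≤ atTop := Ultrafilter.of_le _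
  obtain ⟨T, hT, hT'⟩ := fc_lim h hc hD hlim U (T := fun i => i.1.T) fun i => i.1.mem
  choose k hk using fun e => h.exists_lim U (a := fun i => i.1.k e) (.of_forall fun i => i.1.bd e)
  refine ⟨⟨T, k, hT, fun e b => ((hk e).mul_const b).unique h ((hk e).const_mul b)
    (.of_forall fun i => i.1.cen e b), fun e => (hk e).star.unique h (hk e)
    (.of_forall fun i => i.1.sa e), fun e => (hk e).norm_le h (.of_forall fun i => i.1.bd e),
    fun e => Dom.lim (hT' e) (hk e).vf (.of_forall fun i => i.1.dom e)⟩, fun z hz e ξ => ?_⟩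
  refine le_of_tendsto ((hk e).vf ξ) ?_
  filter_upwards [hU (eventually_ge_atTop (⟨z, hz⟩ : C))] with i hi
  exact (show z ≤ i.1 from hi) e ξ

theorem fc_small [PartialOrder M] [StarOrderedRing M] (h : IsVN ρ) {x : M} (hx : x ≠ 0) :
    ∃ (γ : ℝ) (g : M), 0 < γ ∧ IsStarProjection g ∧ g ≠ 0 ∧ γ • g ≤ x * star x := by
  have h0 : 0 < ‖x * star x‖ := norm_pos_iff.2 (mt (CStarRing.mul_star_self_eq_zero_iff x).1 hx)
  obtain ⟨g, c, hg, a1, -, -, -, -, a6, a7⟩ :=
    h.isWRep.rickart.spec (IsSelfAdjoint.mul_star_self x) (half_pos h0)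
  refine ⟨_, g, half_pos h0, hg, fun g0 => ?_, a6.trans ?_⟩
  · rw [g0, sub_zero, mul_one, ← Algebra.algebraMap_eq_smul_one,
      ← CStarAlgebra.norm_le_iff_le_algebraMap _ (half_pos h0).le (mul_star_self_nonneg x)] at a7
    linarith
  · have e1 : 0 ≤ x * star x * (1 - g) := by
      refine (hg.one_sub.isSelfAdjoint.conjugate_nonneg (mul_star_self_nonneg x)).trans
        (le_of_eq ?_)
      rw [sub_mul, one_mul, a1, ← mul_one_sub, mul_assoc, hg.one_sub.isIdempotentElem.eq]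
    rwa [mul_sub, mul_one, sub_nonneg] at e1

theorem fc_family {W : Set M} (h1 : ∀ w ∈ W, PI w)
    (h2 : ∀ w ∈ W, ∀ w' ∈ W, w ≠ w' → w * star w' = 0) (s : Finset W) :
    ∃ (m : Option (Fin s.card) → M), ∑ j, star (m j) * m j = 1 ∧
      ∀ g, (∀ w ∈ W, g * w = w) → ∑ j, star (m j) * g * m j =
        star (m none) * g * m none + ∑ v ∈ s, star (v : M) * (v : M) := by
  have e : ∀ f : W → M, ∑ i : Fin s.card, f (s.equivFin.symm i) = ∑ v ∈ s, f v := fun f => by
    rw [s.equivFin.symm.sum_comp fun v : s => f v, sum_coe_sort s f]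
  have hp := (fc_proj h1 h2 s).one_sub
  refine ⟨fun j => j.elim (1 - ∑ v ∈ s, star (v : M) * (v : M))
    fun i => ((s.equivFin.symm i : W) : M), ?_, fun g hg => ?_⟩
  · rw [Fintype.sum_option]
    simp only [Option.elim]
    rw [e fun v => star (v : M) * (v : M), hp.isSelfAdjoint.star_eq, hp.isIdempotentElem.eq,
      sub_add_cancel]
  · rw [Fintype.sum_option]
    simp only [Option.elim]
    rw [e fun v => star (v : M) * g * (v : M)]
    congr 1
    exact sum_congr rfl fun v _ => by rw [mul_assoc, hg v v.2]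

theorem fix_cb (h : IsVN ρ) {E : Type u} {S : Set (E → M →ₗ[ℂ] M)} {c : E → ℝ}
    (hne : S.Nonempty) (hc : ∀ e, 0 ≤ c e)
    (hD : ∀ T ∈ S, ∀ e, Dom ρ (T e) (((c e ^ 2 : ℝ) : ℂ) • 1))
    (hlim : ∀ (U : Ultrafilter (E → M →ₗ[ℂ] M)) (T : E → M →ₗ[ℂ] M), S ∈ U →
      (∀ e a, WL ρ (U : Filter (E → M →ₗ[ℂ] M)) (fun T' => T' e a) (T e a)) → T ∈ S)
    (havg : ∀ (J : Type) [Fintype J] (m : J → M), ∑ j, star (m j) * m j = 1 →
      ∀ T ∈ S, (fun e => avg m (T e)) ∈ S) :
    ∃ T ∈ S, ∀ e q, IsStarProjection q → T e q = q * T e 1 := by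
  classical
  let _ := CStarAlgebra.spectralOrder M
  have _ := CStarAlgebra.spectralOrderedRing M
  obtain ⟨P, hP⟩ := fc_max h hne hc hD hlim
  refine ⟨P.T, P.mem, fun e0 q hq => ?_⟩
  rw [← sub_eq_zero, eq_of_defect hq]
  suffices q * P.T e0 (1 - q) + (1 - q) * P.T e0 q = 0 by rw [this, mul_zero]
  by_contra hx
  obtain ⟨γ, g, hγ, hg, g0, hle⟩ := fc_small h hx
  obtain ⟨z, W, hz, z0, h1, h2, hW⟩ := exists_spread h hg g0
  have hb := (part_bool hq).sum_star_mul
  have d1 : Dom ρ (avg (fun b : Bool => cond b q (1 - q)) (P.T e0)) (P.k e0 - (γ : ℂ) • g) := by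
    refine ((P.dom e0).strict hq).mono fun ξ => vf_mono ξ ?_
    rw [← P.cen, ← P.cen, mul_assoc, mul_assoc, hq.isIdempotentElem.eq,
      hq.one_sub.isIdempotentElem.eq, ← mul_add, add_sub_cancel, mul_one, Complex.coe_smul]
    exact sub_le_sub_left hle _
  choose m hm hm' using fc_family (fun w hw => (h1 w hw).1) h2
  have d2 : ∀ s, Dom ρ (avg (m s) (avg (fun b : Bool => cond b q (1 - q)) (P.T e0)))
      (P.k e0 - (γ : ℂ) • ∑ v ∈ s, star (v : M) * (v : M)) := fun s => by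
    refine (d1.avg (hm s)).mono fun ξ => vf_mono ξ ?_
    simp only [mul_sub, sub_mul, sum_sub_distrib, mul_smul_comm, smul_mul_assoc, ← smul_sum,
      hm' s g fun w hw => (h1 w hw).2]
    simp only [← P.cen, mul_assoc (P.k e0), ← mul_sum, hm, mul_one, Complex.coe_smul]
    refine sub_le_sub_left (smul_le_smul_of_nonneg_left (le_add_of_nonneg_left ?_) hγ.le) _
    exact star_left_conjugate_nonneg hg.nonneg _
  let U : Ultrafilter (Finset W) := Ultrafilter.of atTop
  have hU : (U : Filter (Finset W)) ≤ atTop := Ultrafilter.of_le _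
  obtain ⟨T, hT, hT'⟩ := fc_lim h hc hD hlim U
    (T := fun s e => avg (m s) (avg (fun b : Bool => cond b q (1 - q)) (P.T e)))
    fun s => havg _ _ (hm s) _ (havg _ _ hb _ P.mem)
  have d3 : Dom ρ (T e0) (P.k e0 - (γ : ℂ) • z) :=
    Dom.lim (hT' e0) ((WL.const _).sub ((hW.mono hU).smul _)).vf (.of_forall d2)
  have d4 : ∀ e, Dom ρ (T e) (P.k e) := fun e => Dom.lim (hT' e) (WL.const _).vf
    (.of_forall fun s => fc_avg (P.cen e) (fc_avg (P.cen e) (P.dom e) hb) (hm s))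
  have s3 : star (P.k e0 - (γ : ℂ) • z) = P.k e0 - (γ : ℂ) • z := by
    rw [star_sub, P.sa, star_smul, hz.star_eq, Complex.star_def, Complex.conj_ofReal]
  have l3 : P.k e0 - (γ : ℂ) • z ≤ P.k e0 := by
    rw [Complex.coe_smul]
    exact sub_le_self _ (smul_nonneg hγ.le hz.proj.nonneg)
  let Q : FcP ρ S c := ⟨T, Function.update P.k e0 (P.k e0 - (γ : ℂ) • z), hT, fun e b => by
      by_cases he : e = e0
      · subst he
        simp [sub_mul, mul_sub, P.cen, hz.comm]
      · rw [Function.update_of_ne he, P.cen], fun e => by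
      by_cases he : e = e0
      · subst he
        rw [Function.update_self, s3]
      · rw [Function.update_of_ne he, P.sa], fun e => by
      by_cases he : e = e0
      · subst he
        rw [Function.update_self]
        exact (CStarAlgebra.norm_le_norm_of_nonneg_of_le (h.nonneg_of s3 d3.vf_nonneg) l3).trans
          (P.bd _)
      · rw [Function.update_of_ne he]
        exact P.bd e, fun e => by
      by_cases he : e = e0
      · subst he
        rwa [Function.update_self]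
      · rw [Function.update_of_ne he]
        exact d4 e⟩
  have hPQ : P ≤ Q := fun e ξ => by
    by_cases he : e = e0
    · subst he
      simp only [Q, Function.update_self]
      exact vf_mono ξ l3
    · simp only [Q, Function.update_of_ne he, le_refl]
  refine z0 (h.inj (ContinuousLinearMap.ext fun ξ => ?_))
  have := hP hPQ e0 ξ
  simp only [Q, Function.update_self, map_sub, Complex.coe_smul, map_smul, smul_eq_mul] at this
  have e1 : vf ρ ξ z = ‖ρ z ξ‖ ^ 2 := by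
    rw [← vf_star_mul, hz.star_eq, hz.proj.isIdempotentElem.eq]
  rw [e1] at this
  have e2 : ‖ρ z ξ‖ ^ 2 ≤ 0 := by
    by_contra hlt
    have := mul_pos hγ (not_le.1 hlt)
    linarith
  rw [map_zero]
  simpa using e2

end Vale.Agent.P082
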