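import Vale.Agent.P082.Dom
import Vale.Agent.P082.LQ

/-! The fixed point theorem in the discrete finite case. -/

set_option linter.unusedSectionVars false

namespace Vale.Agent.P082

open Filter Topology Finset Vale.Agent.P104
open scoped InnerProductSpace ComplexOrder ComplexConjugate

universe u v

variable {G : Type v} [NormedAddCommGroup G] [InnerProductSpace ℂ G] [CompleteSpace G]
  {M : Type u} [CStarAlgebra M] {ρ : M →⋆ₐ[ℂ] (G →L[ℂ] G)}

/-- A bound for a matrix of elements. -/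
def fi_MB (ρ : M →⋆ₐ[ℂ] (G →L[ℂ] G)) {I J : Type} [Fintype I] [Fintype J] (Y : I → J → M)
    (K : ℝ) : Prop :=
  ∀ η : I → G, ∑ j, ‖∑ i, ρ (star (Y i j)) (η i)‖ ^ 2 ≤ K * ∑ i, ‖η i‖ ^ 2

section
variable {I J : Type} [Fintype I] [Fintype J]

theorem fi_mono {Y : I → J → M} {K K' : ℝ} (h : fi_MB ρ Y K) (hK : K ≤ K') : fi_MB ρ Y K' :=
  fun η => (h η).trans (mul_le_mul_of_nonneg_right hK (by positivity))

theorem fi_add {Y Y' : I → J → M} {K K' : ℝ} (h : fi_MB ρ Y K) (h' : fi_MB ρ Y' K') :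
    fi_MB ρ (fun i j => Y i j + Y' i j) (2 * K + 2 * K') := fun η => by
  have h1 := h η
  have h2 := h' η
  have h3 : ∑ j, ‖∑ i, ρ (star (Y i j + Y' i j)) (η i)‖ ^ 2 ≤
      ∑ j, (2 * ‖∑ i, ρ (star (Y i j)) (η i)‖ ^ 2 + 2 * ‖∑ i, ρ (star (Y' i j)) (η i)‖ ^ 2) := by
    refine sum_le_sum fun j _ => ?_
    simp only [star_add, map_add, add_apply, sum_add_distrib]
    refine (pow_le_pow_left₀ (norm_nonneg _) (norm_add_le _ _) 2).trans ?_
    nlinarith [sq_nonneg (‖∑ i, ρ (star (Y i j)) (η i)‖ - ‖∑ i, ρ (star (Y' i j)) (η i)‖)]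
  rw [sum_add_distrib, ← mul_sum, ← mul_sum] at h3
  linarith

theorem fi_contr {a : M} (ha : ‖a‖ ≤ 1) (ξ : G) : ‖ρ a ξ‖ ^ 2 ≤ ‖ξ‖ ^ 2 :=
  pow_le_pow_left₀ (norm_nonneg _)
    ((ws_norm_le a ξ).trans (mul_le_of_le_one_left (norm_nonneg _) ha)) 2

theorem fi_conj {Y : I → J → M} {K : ℝ} (h : fi_MB ρ Y K) (hK : 0 ≤ K) {u w : M} (hu : ‖u‖ ≤ 1)
    (hw : ‖w‖ ≤ 1) : fi_MB ρ (fun i j => u * Y i j * star w) K := fun η => by
  have h1 := h fun i => ρ (star u) (η i)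
  refine le_trans (sum_le_sum fun j _ => ?_) (h1.trans (mul_le_mul_of_nonneg_left
    (sum_le_sum fun i _ => fi_contr (by rwa [norm_star]) _) hK))
  simp only [star_mul, star_star, map_mul, mul_apply_eq_comp, ← map_sum]
  exact fi_contr hw _

theorem fi_small {Y : I → J → M} {ε : ℝ} (h : ∀ i j, ‖Y i j‖ ≤ ε) :
    fi_MB ρ Y (ε ^ 2 * (Fintype.card I * Fintype.card J)) := fun η => by
  have h1 : ∀ j, ‖∑ i, ρ (star (Y i j)) (η i)‖ ^ 2 ≤ ε ^ 2 * Fintype.card I * ∑ i, ‖η i‖ ^ 2 :=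
    fun j => by
      have h2 : ‖∑ i, ρ (star (Y i j)) (η i)‖ ≤ ∑ i, ε * ‖η i‖ :=
        norm_sum_le_of_le _ fun i _ => (ws_norm_le _ _).trans
          (mul_le_mul_of_nonneg_right (by rw [norm_star]; exact h i j) (norm_nonneg _))
      refine (pow_le_pow_left₀ (norm_nonneg _) h2 2).trans
        ((sum_mul_sq_le_sq_mul_sq _ _ _).trans_eq ?_)
      rw [sum_const, card_univ, nsmul_eq_mul, mul_comm (Fintype.card I : ℝ)]
  refine (sum_le_card_nsmul _ _ _ fun j _ => h1 j).trans_eq ?_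
  rw [card_univ, nsmul_eq_mul]
  ring

theorem fi_vec {c : I → J → ℂ} {K : ℝ}
    (h : ∀ α : I → ℂ, ∑ j, ‖∑ i, c i j * α i‖ ^ 2 ≤ K * ∑ i, ‖α i‖ ^ 2) (ζ : I → G) :
    ∑ j, ‖∑ i, c i j • ζ i‖ ^ 2 ≤ K * ∑ i, ‖ζ i‖ ^ 2 := by
  let W := Submodule.span ℂ (Set.range ζ)
  have : FiniteDimensional ℂ W := FiniteDimensional.span_of_finite ℂ (Set.finite_range ζ)
  let b := stdOrthonormalBasis ℂ W
  let z : I → W := fun i => ⟨ζ i, Submodule.subset_span ⟨i, rfl⟩⟩
  have e1 : ∀ j, ‖∑ i, c i j • ζ i‖ ^ 2 = ∑ m, ‖∑ i, c i j * ⟪b m, z i⟫_ℂ‖ ^ 2 := fun j => by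
    have e : ∑ i, c i j • ζ i = ((∑ i, c i j • z i : W) : G) := by simp [z]
    rw [e, ← Submodule.coe_norm, ← b.sum_sq_norm_inner_right]
    simp only [inner_sum, inner_smul_right]
  have e2 : ∀ i, ‖ζ i‖ ^ 2 = ∑ m, ‖⟪b m, z i⟫_ℂ‖ ^ 2 := fun i =>
    (b.sum_sq_norm_inner_right (z i)).symm
  simp only [e1, e2]
  rw [sum_comm, sum_comm (f := fun i m => ‖⟪b m, z i⟫_ℂ‖ ^ 2), mul_sum]
  exact sum_le_sum fun m _ => h _

theorem fi_pyth {κ : Type} [Fintype κ] {f : κ → M} (hf : IsPart f) (ξ : G) :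
    ‖ξ‖ ^ 2 = ∑ l, ‖ρ (f l) ξ‖ ^ 2 := by
  simp only [← vf_star_mul, ← map_sum, hf.sum_star_mul]
  simpa using (vf_star_mul (ρ := ρ) ξ 1).symm

theorem fi_glue {κ : Type} [Fintype κ] {f : κ → M} (hf : IsPart f) {Y : I → J → M} {K : ℝ}
    (hc : ∀ l i j, f l * Y i j = Y i j * f l) (h : ∀ l, fi_MB ρ (fun i j => Y i j * f l) K) :
    fi_MB ρ Y K := fun η => by
  have e : ∀ l j, ρ (f l) (∑ i, ρ (star (Y i j)) (η i)) =
      ∑ i, ρ (star (Y i j * f l)) (ρ (f l) (η i)) := fun l j => by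
    rw [map_sum]
    refine sum_congr rfl fun i _ => ?_
    have e1 : star (Y i j * f l) * f l = f l * star (Y i j) := by
      rw [← hc, star_mul, hf.star_eq, mul_assoc, hf.idem, ← hf.star_eq l, ← star_mul, hc, star_mul]
    rw [← mul_apply_eq_comp, ← mul_apply_eq_comp, ← map_mul, ← map_mul, e1]
  calc _ = ∑ l, ∑ j, ‖∑ i, ρ (star (Y i j * f l)) (ρ (f l) (η i))‖ ^ 2 := by
        rw [sum_comm]
        exact sum_congr rfl fun j _ => by rw [fi_pyth (ρ := ρ) hf]; simp only [e]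
    _ ≤ ∑ l, K * ∑ i, ‖ρ (f l) (η i)‖ ^ 2 := sum_le_sum fun l _ => h l _
    _ = _ := by rw [← mul_sum, sum_comm]; simp only [← fi_pyth hf]

theorem fi_norm (h : IsVN ρ) {X : I → J → M} (hX : Contr ρ X) (α : I → ℂ) (β : J → ℂ) :
    ‖∑ i, ∑ j, (α i * β j) • X i j‖ ≤ √(∑ i, ‖α i‖ ^ 2) * √(∑ j, ‖β j‖ ^ 2) := by
  refine h.norm_le_of (by positivity) fun ξ => ?_
  have h1 := hX fun j => β j • ξ
  have e : ρ (∑ i, ∑ j, (α i * β j) • X i j) ξ = ∑ i, α i • ∑ j, ρ (X i j) (β j • ξ) := by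
    simp only [map_sum, map_smul, _root_.sum_apply, smul_apply,
      smul_sum, smul_smul]
  have h2 : ‖∑ i, α i • ∑ j, ρ (X i j) (β j • ξ)‖ ≤ ∑ i, ‖α i‖ * ‖∑ j, ρ (X i j) (β j • ξ)‖ :=
    norm_sum_le_of_le _ fun i _ => (norm_smul _ _).le
  rw [e]
  refine (sq_le_sq₀ (norm_nonneg _) (by positivity)).1 ((pow_le_pow_left₀ (norm_nonneg _) h2
    2).trans ((sum_mul_sq_le_sq_mul_sq _ _ _).trans ?_))
  rw [mul_pow, mul_pow, Real.sq_sqrt (by positivity), Real.sq_sqrt (by positivity), mul_assoc]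
  refine mul_le_mul_of_nonneg_left (h1.trans_eq ?_) (by positivity)
  simp only [norm_smul, mul_pow, sum_mul]

theorem fi_scalar (h : IsVN ρ) {X : I → J → M} (hX : Contr ρ X) {b : M →ₗ[ℂ] M} {c ε : ℝ}
    (hc : 0 ≤ c) (hb : ∀ a, ‖b a‖ ≤ c * ‖a‖) (hε : ε * (Fintype.card I * Fintype.card J) ≤ 1)
    {f : M} (hf : IsStarProjection f) {d : I → J → ℂ} (hd : ∀ i j, ‖b (X i j) * f - d i j • f‖ ≤ ε) :
    fi_MB ρ (fun i j => d i j • f) ((c + 1) ^ 2) := fun η => by
  rcases eq_or_ne f 0 with rfl | f0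
  · simp only [smul_zero, star_zero, map_zero, zero_apply, sum_const_zero,
      norm_zero]
    simp only [ne_eq, OfNat.ofNat_ne_zero, not_false_eq_true, zero_pow, sum_const_zero]
    positivity
  have f1 : ‖f‖ = 1 := by
    have := CStarRing.norm_star_mul_self (x := f)
    rw [hf.isSelfAdjoint.star_eq, hf.isIdempotentElem.eq] at this
    exact (mul_eq_left₀ (norm_ne_zero_iff.2 f0)).1 this.symm
  have h1 := fi_vec (c := fun i j => star (d i j)) (K := (c + 1) ^ 2) (fun α => ?_)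
    fun i => ρ f (η i)
  · simp only [star_smul, hf.isSelfAdjoint.star_eq, map_smul, smul_apply]
    exact h1.trans (mul_le_mul_of_nonneg_left (sum_le_sum fun i _ => fi_contr f1.le _)
      (by positivity))
  obtain ⟨β, hβ⟩ : ∃ β : J → ℂ, β = fun j => ∑ i, star (d i j) * α i := ⟨_, rfl⟩
  have hβ' : ∀ j, ∑ i, star (d i j) * α i = β j := fun j => by rw [hβ]
  simp only [hβ']
  have e1 : ((∑ j, ‖β j‖ ^ 2 : ℝ) : ℂ) = ∑ i, ∑ j, star (α i) * β j * d i j := by
    rw [sum_comm, Complex.ofReal_sum]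
    refine sum_congr rfl fun j _ => ?_
    rw [Complex.ofReal_pow, ← Complex.conj_mul', ← Complex.star_def]
    nth_rewrite 1 [← hβ' j]
    rw [star_sum, sum_mul]
    exact sum_congr rfl fun i _ => by rw [star_mul', star_star]; ring
  have e2 : ((∑ j, ‖β j‖ ^ 2 : ℝ) : ℂ) • f = b (∑ i, ∑ j, (star (α i) * β j) • X i j) * f -
      ∑ i, ∑ j, (star (α i) * β j) • (b (X i j) * f - d i j • f) := by
    simp only [e1, map_sum, map_smul, sum_mul, smul_mul_assoc, smul_sub, sum_sub_distrib, sum_smul,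
      smul_smul, sub_sub_cancel]
  have n1 := fi_norm h hX (fun i => star (α i)) β
  simp only [norm_star] at n1
  generalize hA : ∑ i, ‖α i‖ ^ 2 = A at n1
  have a0 : 0 ≤ A := by rw [← hA]; positivity
  have a1 : ∀ i, ‖α i‖ ≤ √A := fun i => Real.le_sqrt_of_sq_le
    (hA ▸ single_le_sum (f := fun i => ‖α i‖ ^ 2) (fun _ _ => sq_nonneg _) (mem_univ i))
  generalize hS : ∑ j, ‖β j‖ ^ 2 = S at n1 e2
  have s0 : 0 ≤ S := by rw [← hS]; positivity
  have s1 : ∀ j, ‖β j‖ ≤ √S := fun j => Real.le_sqrt_of_sq_le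
    (hS ▸ single_le_sum (f := fun j => ‖β j‖ ^ 2) (fun _ _ => sq_nonneg _) (mem_univ j))
  have n2 : ‖∑ i, ∑ j, (star (α i) * β j) • (b (X i j) * f - d i j • f)‖ ≤ √A * √S := by
    refine (norm_sum_le_of_le _ fun i _ => norm_sum_le_of_le (n := fun _ => √A * √S * ε) _
      fun j _ => ?_).trans ?_
    · rw [norm_smul, norm_mul, norm_star]
      have := a1 i
      have := s1 j
      have := hd i j
      gcongr
    · simp only [sum_const, card_univ, nsmul_eq_mul]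
      nlinarith [mul_le_mul_of_nonneg_left hε (show 0 ≤ √A * √S by positivity)]
  have n3 : S ≤ (c + 1) * √A * √S := by
    have e3 := congrArg norm e2
    rw [norm_smul, f1, mul_one, Complex.norm_real, Real.norm_of_nonneg s0] at e3
    have n4 := (norm_mul_le _ f).trans (mul_le_mul_of_nonneg_right
      ((hb _).trans (mul_le_mul_of_nonneg_left n1 hc)) (norm_nonneg _))
    rw [f1] at n4
    linarith [e3.le.trans (norm_sub_le _ _)]
  nlinarith [Real.sq_sqrt s0, Real.sq_sqrt a0, sq_nonneg ((c + 1) * √A - √S)]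

theorem fi_part (hR : Rickart M) {p : M} (hp : IsStarProjection p)
    (hc : ∀ a b, p * a * p * (p * b * p) = p * b * p * (p * a * p)) (z : I → J → M)
    (hz : ∀ i j, p * z i j * p = z i j) {ε : ℝ} (hε : 0 < ε) :
    ∃ (κ : Type) (_ : Fintype κ) (f : κ → M), IsPart f ∧ (∀ l i j, f l * z i j = z i j * f l) ∧
      ∀ l i j, ∃ d : ℂ, ‖z i j * f l - d • f l‖ ≤ ε := by
  obtain ⟨κ, _, f, hf, hr, -, hd⟩ := exists_refine hR (part_bool hp) (one_mem (unitary M))
    (fun _ => by simp) (J := I × J × Bool)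
    (fun k => cond k.2.2 (realPart (z k.1 k.2.1) : M) (imaginaryPart (z k.1 k.2.1) : M))
    (by rintro ⟨i, j, _ | _⟩ <;> exact Subtype.prop (p := fun x => IsSelfAdjoint x) _)
    (fun _ => by simp) (half_pos hε)
  have hcm : ∀ l i j, f l * z i j = z i j * f l := fun l i j => by
    obtain ⟨_ | _, hb⟩ := hr l
    · have e0 : (1 - p) * f l = f l := hb
      have e1 : p * f l = 0 := by rw [← e0, ← mul_assoc, hp.mul_one_sub_self, zero_mul]
      have e2 : f l * p = 0 := by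
        simpa [hf.star_eq, hp.isSelfAdjoint.star_eq] using congrArg star e1
      rw [← hz, mul_assoc _ p (f l), e1, ← mul_assoc, ← mul_assoc, e2]
      simp
    · have e1 : p * f l = f l := hb
      have e2 : f l * p = f l := by
        simpa [hf.star_eq, hp.isSelfAdjoint.star_eq] using congrArg star e1
      have := hc (f l) (z i j)
      rwa [e1, e2, hz] at this
  refine ⟨κ, inferInstance, f, hf, hcm, fun l i j => ?_⟩
  obtain ⟨c1, h1⟩ := hd (i, j, true) l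
  obtain ⟨c2, h2⟩ := hd (i, j, false) l
  refine ⟨c1 + Complex.I * c2, ?_⟩
  have e : z i j * f l - (c1 + Complex.I * c2) • f l =
      (f l * realPart (z i j) * f l - (c1 : ℂ) • f l) +
        Complex.I • (f l * imaginaryPart (z i j) * f l - (c2 : ℂ) • f l) := by
    have e1 : z i j * f l = f l * z i j * f l := by rw [hcm, mul_assoc, hf.idem]
    rw [e1]
    nth_rewrite 1 [← realPart_add_I_smul_imaginaryPart (z i j)]
    simp only [mul_add, add_mul, mul_smul_comm, smul_mul_assoc, add_smul, smul_sub, smul_smul]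
    abel
  rw [e]
  refine (norm_add_le _ _).trans ?_
  rw [norm_smul, Complex.norm_I, one_mul]
  exact (add_le_add h1 h2).trans_eq (add_halves ε)

theorem fi_corner (h : IsVN ρ) {p : M} (hp : IsStarProjection p)
    (hc : ∀ a b, p * a * p * (p * b * p) = p * b * p * (p * a * p)) {b : M →ₗ[ℂ] M} {c : ℝ}
    (c0 : 0 ≤ c) (hb : ∀ a, ‖b a‖ ≤ c * ‖a‖) (hpb : ∀ a, p * b a * p = b a) {X : I → J → M}
    (hX : Contr ρ X) : fi_MB ρ (fun i j => b (X i j)) (2 * (c + 1) ^ 2 + 2 * 1) := by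
  have hn : (0 : ℝ) ≤ Fintype.card I * Fintype.card J := by positivity
  generalize hN : (Fintype.card I * Fintype.card J : ℝ) = N at hn
  have hε : 0 < (N + 1)⁻¹ := by positivity
  have h1 : (N + 1)⁻¹ * N ≤ 1 := by
    rw [inv_mul_le_iff₀ (by positivity)]; linarith
  have h2 : (N + 1)⁻¹ ≤ 1 := inv_le_one_of_one_le₀ (by linarith)
  obtain ⟨κ, _, f, hf, hcm, hd⟩ := fi_part h.isWRep.rickart hp hc (fun i j => b (X i j))
    (fun i j => hpb _) hε
  choose d hd using hd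
  refine fi_glue hf hcm fun l => ?_
  have h3 := fi_add (fi_scalar h hX c0 hb (by rwa [hN]) (hf.proj l) (hd l))
    (fi_mono (fi_small (ρ := ρ) (hd l)) (K' := 1) (by rw [hN]; nlinarith))
  simpa only [add_sub_cancel] using h3

end

theorem AbCover.dom (h : IsVN ρ) {y : M} (hy : IsCP y) (ha : AbCover y) {φ : M →ₗ[ℂ] M} {c : ℝ}
    (hφ : ∀ a, ‖φ a‖ ≤ c * ‖a‖) (hyφ : ∀ a, y * φ a = φ a) :
    ∃ K : ℝ, Dom ρ φ ((K : ℂ) • 1) := by
  classical
  obtain ⟨p, L, _, u, hp, hc, hu, hs⟩ := ha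
  have key : ∀ s : Finset (L × L), ∃ K : ℝ, ∀ (I J : Type) [Fintype I] [Fintype J]
      (X : I → J → M), Contr ρ X → fi_MB ρ
        (fun i j => ∑ x ∈ s, u x.1 * (star (u x.1) * φ (X i j) * u x.2) * star (u x.2)) K := by
    intro s
    induction s using Finset.induction_on with
    | empty => exact ⟨0, fun I J _ _ X _ η => by simp⟩
    | insert x s hx ih =>
      obtain ⟨K, hK⟩ := ih
      refine ⟨2 * (2 * (|c| + 1) ^ 2 + 2 * 1) + 2 * K, fun I J _ _ X hX => ?_⟩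
      simp only [sum_insert hx]
      refine fi_add (fi_conj (fi_corner h hp hc (abs_nonneg c)
        (b := LinearMap.mulRight ℂ (u x.2) ∘ₗ LinearMap.mulLeft ℂ (star (u x.1)) ∘ₗ φ)
        (fun a => ?_) (fun a => ?_) hX) (by positivity) (hu _).2 (hu _).2) (hK I J X hX)
      · change ‖star (u x.1) * φ a * u x.2‖ ≤ _
        refine (norm_mul_le _ _).trans ((mul_le_of_le_one_right (norm_nonneg _) (hu _).2).trans
          ((norm_mul_le _ _).trans ((mul_le_of_le_one_left (norm_nonneg _) ?_).trans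
            ((hφ a).trans (mul_le_mul_of_nonneg_right (le_abs_self c) (norm_nonneg _))))))
        rw [norm_star]; exact (hu _).2
      · change p * (star (u x.1) * φ a * u x.2) * p = star (u x.1) * φ a * u x.2
        have e : p * star (u x.1) = star (u x.1) := by
          simpa [hp.isSelfAdjoint.star_eq] using congrArg star (hu x.1).1
        rw [← mul_assoc, ← mul_assoc, e, mul_assoc _ _ p, (hu _).1]
  obtain ⟨K, hK⟩ := key univ
  refine ⟨K, fun I J _ _ X hX η => ?_⟩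
  have e : ∀ a, ∑ x : L × L, u x.1 * (star (u x.1) * φ a * u x.2) * star (u x.2) = φ a := fun a => by
    have e1 : ∀ s t, u s * (star (u s) * φ a * u t) * star (u t) =
      u s * star (u s) * φ a * (u t * star (u t)) := fun s t => by simp only [mul_assoc]
    simp only [Fintype.sum_prod_type, e1, ← mul_sum, ← sum_mul, hs]
    rw [hyφ, ← hy.comm, hyφ]
  have h1 := hK I J X hX η
  simp only [e] at h1
  refine h1.trans_eq ?_
  rw [mul_sum]
  refine sum_congr rfl fun i _ => ?_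
  rw [Complex.coe_smul, map_smul, smul_eq_mul]
  simpa using congrArg (K * ·) (vf_star_mul (ρ := ρ) (η i) 1).symm

theorem fi_near [Tr M] (h : IsVN ρ) {E : Type u} {S : Set (E → M →ₗ[ℂ] M)} {c : E → ℝ}
    (hS : Inv ρ S c) (hD : ∀ T ∈ S, ∀ e, ∃ K : ℝ, Dom ρ (T e) ((K : ℂ) • 1)) (E0 : Finset E)
    {δ : ℝ} (hδ : 0 < δ) :
    ∃ T ∈ S, ∀ e ∈ E0, ∀ q, IsStarProjection q → n2 (T e q - q * T e 1) ≤ 3 * δ := by
  let _ := CStarAlgebra.spectralOrder M
  have _ := CStarAlgebra.spectralOrderedRing M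
  let R : Set ℝ := {r | ∃ T ∈ S, ∃ k : E → M, (∀ e, star (k e) = k e ∧ Dom ρ (T e) (k e)) ∧
    r = ∑ e ∈ E0, tr (k e)}
  have hne : R.Nonempty := by
    obtain ⟨T, hT⟩ := hS.ne
    choose K hK using hD T hT
    exact ⟨_, T, hT, fun e => (K e : ℂ) • 1, fun e => ⟨by simp, hK e⟩, rfl⟩
  have hbd : BddBelow R := ⟨0, by
    rintro _ ⟨T, -, k, hk, rfl⟩
    exact sum_nonneg fun e _ => tr_nonneg (h.nonneg_of (hk e).1 (hk e).2.vf_nonneg)⟩
  obtain ⟨_, ⟨T, hT, k, hk, rfl⟩, hlt⟩ := Real.lt_sInf_add_pos hne (sq_pos_of_pos hδ)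
  refine ⟨T, hT, fun e he q hq => ?_⟩
  obtain ⟨g, hg⟩ : ∃ g : E → M, g = fun e => q * T e (1 - q) + (1 - q) * T e q := ⟨_, rfl⟩
  have h1 := csInf_le hbd ⟨_, hS.part Bool _ (part_bool hq) T hT,
    fun e => q * k e * q + (1 - q) * k e * (1 - q) - g e * star (g e), fun e => ⟨by
      simp only [star_sub, star_add, star_mul, star_star, star_one, hq.isSelfAdjoint.star_eq,
        (hk e).1, mul_assoc], by rw [hg]; exact (hk e).2.strict hq⟩, rfl⟩
  have e1 : ∀ e, tr (q * k e * q + (1 - q) * k e * (1 - q) - g e * star (g e)) =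
      tr (k e) - n2 (g e) ^ 2 := fun e => by
    rw [map_sub, map_add, tr_comm (g e), ← n2_sq', tr_comm _ q, tr_comm _ (1 - q), ← mul_assoc,
      ← mul_assoc, hq.isIdempotentElem.eq, hq.one_sub.isIdempotentElem.eq, ← map_add, ← add_mul,
      add_sub_cancel, one_mul]
  simp only [e1, sum_sub_distrib] at h1
  have h2 := single_le_sum (f := fun e => n2 (g e) ^ 2) (fun _ _ => sq_nonneg _) he
  have h3 : n2 (g e) ≤ δ := (sq_le_sq₀ (n2_nonneg _) hδ.le).1 (by linarith)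
  have h4 : ‖1 - q - q‖ ≤ 2 := (norm_sub_le _ _).trans (by linarith [hq.norm_le, hq.one_sub.norm_le])
  rw [eq_of_defect hq]
  refine (n2_mul_le _ _).trans ?_
  rw [hg] at h3
  exact mul_le_mul (by linarith) h3 (n2_nonneg _) (by norm_num)

theorem fix_I [Tr M] (h : IsVN ρ) (ht : Normal ρ (τ : M →ₗ[ℂ] ℂ)) {E : Type u}
    {S : Set (E → M →ₗ[ℂ] M)} {c : E → ℝ} (hS : Inv ρ S c)
    (hD : ∀ T ∈ S, ∀ e, ∃ K : ℝ, Dom ρ (T e) ((K : ℂ) • 1)) :
    ∃ T ∈ S, ∀ e q, IsStarProjection q → n2 (T e q - q * T e 1) = 0 := by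
  classical
  choose T hT hT' using fun x : Finset E × ℕ =>
    fi_near h hS hD x.1 (δ := 1 / ((x.2 : ℝ) + 1)) Nat.one_div_pos_of_nat
  let U : Ultrafilter (Finset E × ℕ) := Ultrafilter.of atTop
  have hU : (U : Filter (Finset E × ℕ)) ≤ atTop := Ultrafilter.of_le _
  obtain ⟨T', h1, h2⟩ := hS.exists_lim h U (Eventually.of_forall hT)
  refine ⟨T', h1, fun e q hq => le_antisymm ?_ (n2_nonneg _)⟩
  have h3 : Tendsto (fun x : Finset E × ℕ => x.2) atTop atTop := by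
    rw [← prod_atTop_atTop_eq]; exact tendsto_snd
  have h4 := ((tendsto_one_div_add_atTop_nhds_zero_nat (𝕜 := ℝ)).comp h3).const_mul 3
  rw [mul_zero] at h4
  refine ((h2 e q).sub ((h2 e 1).const_mul q)).n2_le ht (h4.mono_left hU) ?_
  refine hU ((eventually_ge_atTop ({e}, 0)).mono fun x hx => ?_)
  exact hT' x e (hx.1 (mem_singleton_self e)) q hq

end Vale.Agent.P082
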