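import Vale.Agent.P082.Key
import Vale.Agent.P082.Lim

/-! The fixed point theorem in the continuous finite case. -/

set_option linter.unusedSectionVars false

namespace Vale.Agent.P082

open Filter Topology Finset Vale.Agent.P104
open scoped InnerProductSpace ComplexOrder ComplexConjugate

universe u v

variable {G : Type v} [NormedAddCommGroup G] [InnerProductSpace ℂ G] [CompleteSpace G]
  {M : Type u} [CStarAlgebra M] {ρ : M →⋆ₐ[ℂ] (G →L[ℂ] G)}

theorem fx_tend : Tendsto (fun i : Finset M × ℕ => 1 / ((i.2 : ℝ) + 1)) atTop (𝓝 0) := by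
  classical
  exact tendsto_one_div_add_atTop_nhds_zero_nat.comp
    (by rw [← prod_atTop_atTop_eq]; exact tendsto_snd)

theorem fx_mem (b : M) : ∀ᶠ i : Finset M × ℕ in atTop, b ∈ i.1 := by
  classical
  filter_upwards [eventually_ge_atTop (({b}, 0) : Finset M × ℕ)] with i hi
  exact hi.1 (mem_singleton_self b)

theorem fx_inv [Tr M] (h : IsVN ρ) (ht : Normal ρ (τ : M →ₗ[ℂ] ℂ)) {E : Type u}
    {S : Set (E → M →ₗ[ℂ] M)} {c : E → ℝ} (hS : Inv ρ S c) :
    Inv ρ {T | T ∈ S ∧ ∀ e b, n2 (T e b) ≤ c e * n2 b} c where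
  ne := by
    classical
    obtain ⟨T0, h0⟩ := hS.ne
    have : ∀ i : Finset M × ℕ, ∃ T ∈ S, ∀ e, ∀ b ∈ i.1,
        n2 (T e b) ≤ c e * (n2 b + 1 / ((i.2 : ℝ) + 1)) := fun i => by
      obtain ⟨κ, _, f, hf, hb⟩ := exists_part_n2 h.isWRep.rickart i.1
        (η := 1 / ((i.2 : ℝ) + 1)) (by positivity)
      exact ⟨_, hS.part κ f hf T0 h0, fun e => hb _ _ (hS.c0 e) (hS.bd T0 h0 e)⟩
    choose T h1 h2 using this
    obtain ⟨T', h3, h4⟩ := hS.exists_lim h (Ultrafilter.of atTop) (Eventually.of_forall h1)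
    refine ⟨T', h3, fun e b => ?_⟩
    have h5 := ((fx_tend (M := M)).const_add (n2 b)).const_mul (c e)
    rw [add_zero] at h5
    exact (h4 e b).n2_le ht (h5.mono_left (Ultrafilter.of_le _))
      (((fx_mem b).filter_mono (Ultrafilter.of_le _)).mono fun i hi => h2 i e b hi)
  c0 := hS.c0
  bd := fun T hT => hS.bd T hT.1
  lim := fun U T hU hl => ⟨hS.lim U T (mem_of_superset hU fun _ h => h.1) hl, fun e b =>
    (hl e b).n2_le ht tendsto_const_nhds (mem_of_superset hU fun _ h => h.2 e b)⟩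
  conv := fun T hT T' hT' s t hs ht hst => ⟨hS.conv hT.1 hT'.1 hs ht hst, fun e b => by
    have h1 := mul_le_mul_of_nonneg_left (hT.2 e b) hs
    have h2 := mul_le_mul_of_nonneg_left (hT'.2 e b) ht
    have h3 := n2_add_le (s • T e b) (t • T' e b)
    rw [n2_rsmul, n2_rsmul, abs_of_nonneg hs, abs_of_nonneg ht] at h3
    have h4 : s * (c e * n2 b) + t * (c e * n2 b) = c e * n2 b := by rw [← add_mul, hst, one_mul]
    change n2 (s • T e b + t • T' e b) ≤ _
    linarith⟩
  part := fun ι _ p hp T hT => ⟨hS.part ι p hp T hT.1, fun e => hp.n2_avg_le (hT.2 e)⟩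

section
variable {ι C : Type} [Fintype ι] (p : C → ι → M)

theorem fx_add (w : List C) (φ ψ : M →ₗ[ℂ] M) : avgW p w (φ + ψ) = avgW p w φ + avgW p w ψ := by
  induction w generalizing φ ψ with
  | nil => rfl
  | cons j w ih => rw [avgW_cons, avg_add, ih]; rfl

theorem fx_rsmul (w : List C) (s : ℝ) (φ : M →ₗ[ℂ] M) : avgW p w (s • φ) = s • avgW p w φ := by
  induction w generalizing φ with
  | nil => rfl
  | cons j w ih => rw [avgW_cons, avg_rsmul, ih]; rfl

/-- Averaging along a word as a linear map on families. -/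
noncomputable def fxL (E : Type u) (w : List C) : (E → M →ₗ[ℂ] M) →ₗ[ℝ] (E → M →ₗ[ℂ] M) where
  toFun := fun T e => avgW p w (T e)
  map_add' := fun _ _ => funext fun _ => fx_add p w _ _
  map_smul' := fun _ _ => funext fun _ => fx_rsmul p w _ _

theorem fx_wl {κ : Type*} {l : Filter κ} (w : List C) {T : κ → M →ₗ[ℂ] M} {T' : M →ₗ[ℂ] M}
    (h : ∀ a, WL ρ l (fun i => T i a) (T' a)) (a : M) :
    WL ρ l (fun i => avgW p w (T i) a) (avgW p w T' a) := by
  induction w generalizing T T' with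
  | nil => exact h a
  | cons j w ih => exact ih fun a => WL.avg h (p j) a

theorem fx_fixed (h : IsVN ρ) {E : Type u} {S : Set (E → M →ₗ[ℂ] M)} {c : E → ℝ}
    (hS : Inv ρ S c) (hp : ∀ j, IsPart (p j)) (w : List C) :
    ∃ T ∈ S, ∀ e, avgW p w (T e) = T e := by
  have hm : ∀ T ∈ S, fxL p E w T ∈ S := by
    induction w with
    | nil => exact fun T hT => hT
    | cons j w ih => exact fun T hT => ih _ (hS.part ι (p j) (hp j) T hT)
  obtain ⟨T0, h0⟩ := hS.ne
  have hk : ∀ k : ℕ, (fxL p E w)^[k] T0 ∈ S := fun k => by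
    induction k with
    | zero => exact h0
    | succ k ih => rw [Function.iterate_succ_apply']; exact hm _ ih
  let T : ℕ → E → M →ₗ[ℂ] M := fun N =>
    ∑ k ∈ range (N + 1), (1 / ((N : ℝ) + 1)) • (fxL p E w)^[k] T0
  have hT : ∀ N, T N ∈ S := fun N => hS.conv.sum_mem (fun _ _ => by positivity)
    (by rw [sum_const, card_range, nsmul_eq_mul]; push_cast; field_simp) fun k _ => hk k
  have hd : ∀ N, fxL p E w (T N) =
      T N + (1 / ((N : ℝ) + 1)) • ((fxL p E w)^[N + 1] T0 - T0) := fun N => by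
    simp only [T, ← smul_sum, map_smul, map_sum, ← smul_add, ← Function.iterate_succ_apply']
    congr 1
    have := sum_range_succ' (fun k => (fxL p E w)^[k] T0) (N + 1)
    rw [sum_range_succ] at this
    rw [← add_sub_assoc, this]
    simp
  obtain ⟨T', h1, h2⟩ := hS.exists_lim h (hyperfilter ℕ) (Eventually.of_forall hT)
  refine ⟨T', h1, fun e => LinearMap.ext fun a => ?_⟩
  have h3 : Tendsto (fun N : ℕ => ((1 / ((N : ℝ) + 1)) • ((fxL p E w)^[N + 1] T0 - T0)) e a)
      atTop (𝓝 0) := by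
    have h4 := tendsto_one_div_add_atTop_nhds_zero_nat.mul_const (c e * ‖a‖ + c e * ‖a‖)
    rw [zero_mul] at h4
    refine squeeze_zero_norm (fun N => ?_) h4
    change ‖(1 / ((N : ℝ) + 1)) • ((fxL p E w)^[N + 1] T0 e a - T0 e a)‖ ≤ _
    rw [norm_smul, Real.norm_of_nonneg (by positivity)]
    exact mul_le_mul_of_nonneg_left ((norm_sub_le _ _).trans
      (add_le_add (hS.bd _ (hk _) e a) (hS.bd _ h0 e a))) (by positivity)
  have h5 := (h2 e a).add (WL.of_tendsto (ρ := ρ)
    (h3.mono_left (Nat.cofinite_eq_atTop ▸ hyperfilter_le_cofinite)))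
  rw [add_zero] at h5
  exact WL.unique h (fx_wl p w (h2 e) a) h5
    (Eventually.of_forall fun N => congrArg (fun T : E → M →ₗ[ℂ] M => T e a) (hd N))

end

theorem fix_II [Tr M] (h : IsVN ρ) (ht : Normal ρ (τ : M →ₗ[ℂ] ℂ)) (hH : Halv M) {E : Type u}
    {S : Set (E → M →ₗ[ℂ] M)} {c : E → ℝ} (hS : Inv ρ S c) :
    ∃ T ∈ S, ∀ e q, IsStarProjection q → n2 (T e q - q * T e 1) = 0 := by
  classical
  have hS' := fx_inv h ht hS
  have : ∀ i : Finset M × ℕ, ∃ T ∈ S, ∀ e, ∀ q ∈ i.1, IsStarProjection q →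
      n2 (T e q - q * T e 1) ≤ c e * (1 / ((i.2 : ℝ) + 1)) := fun i => by
    obtain ⟨ι, C, _, p, w, hp, hc⟩ := core h.isWRep.rickart hH (i.1.filter IsStarProjection)
      (fun q hq => (mem_filter.1 hq).2) (δ := 1 / ((i.2 : ℝ) + 1)) (by positivity)
    obtain ⟨T, hT, hf⟩ := fx_fixed p h hS' hp w
    refine ⟨T, hT.1, fun e q hq hq' => ?_⟩
    rcases (hS.c0 e).eq_or_lt with h0 | h0
    · have hz : ∀ a, T e a = 0 := fun a => by
        have := hS.bd T hT.1 e a
        rwa [← h0, zero_mul, norm_le_zero_iff] at this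
      rw [hz, hz, mul_zero, sub_zero, n2_zero, ← h0, zero_mul]
    · have hb : BB ((c e)⁻¹ • T e) := ⟨fun a => by
          rw [LinearMap.smul_apply, norm_smul, Real.norm_of_nonneg (by positivity),
            inv_mul_le_iff₀ h0]
          exact hS.bd T hT.1 e a, fun a => by
          rw [LinearMap.smul_apply, n2_rsmul, abs_of_nonneg (by positivity), inv_mul_le_iff₀ h0]
          exact hT.2 e a⟩
      have := hc _ hb (by rw [fx_rsmul, hf]) q (mem_filter.2 ⟨hq, hq'⟩)
      rwa [LinearMap.smul_apply, LinearMap.smul_apply, mul_smul_comm, ← smul_sub, n2_rsmul,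
        abs_of_nonneg (by positivity), inv_mul_le_iff₀ h0] at this
  choose T h1 h2 using this
  obtain ⟨T', h3, h4⟩ := hS.exists_lim h (Ultrafilter.of atTop) (Eventually.of_forall h1)
  refine ⟨T', h3, fun e q hq => le_antisymm ?_ (n2_nonneg _)⟩
  have h5 := (fx_tend (M := M)).const_mul (c e)
  rw [mul_zero] at h5
  exact ((h4 e q).sub ((h4 e 1).const_mul q)).n2_le ht (h5.mono_left (Ultrafilter.of_le _))
    (((fx_mem q).filter_mono (Ultrafilter.of_le _)).mono fun i hi => h2 i e q hi hq)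

end Vale.Agent.P082
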