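import Mathlib

namespace Vale.Agent.P082

/-- The Hochschild differential of a `k`-cochain, evaluated at `a 0, …, a k`. -/
def hoch {A : Type*} [Ring A] (k : ℕ) (f : (Fin k → A) → A) (a : Fin (k + 1) → A) : A :=
  a 0 * f (fun i => a i.succ)
    + ∑ j : Fin k, (-1 : ℤ) ^ (j.val + 1) • f (fun i =>
        if i < j then a i.castSucc else if i = j then a i.castSucc * a i.succ else a i.succ)
    + (-1 : ℤ) ^ (k + 1) • (f (fun i => a i.castSucc) * a (Fin.last k))

end Vale.Agent.P082
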