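import Vale.Agent.P082.Defs
import Vale.Agent.P082.HochDef

/-! The Hochschild differential on tuples. -/

set_option linter.unusedSectionVars false

namespace Vale.Agent.P082

open Filter Topology Finset Vale.Agent.P104
open scoped InnerProductSpace ComplexOrder ComplexConjugate

universe u v

variable {M : Type u} [CStarAlgebra M]

theorem hoch_dd (k : ℕ) : ∀ (F : List M → M) (a : Fin (k + 1) → M),
    dd F (a 0) (List.ofFn fun i : Fin k => a i.succ) =
      ∑ j : Fin k, (-1 : ℤ) ^ j.val • F (List.ofFn fun i =>
        if i < j then a i.castSucc else if i = j then a i.castSucc * a i.succ else a i.succ)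
      + (-1 : ℤ) ^ k • (F (List.ofFn fun i : Fin k => a i.castSucc) * a (Fin.last k)) := by
  induction k with
  | zero =>
    intro F a
    simp [dd]
  | succ k ih =>
    intro F a
    have h := ih (fun l => F (a 0 :: l)) (fun i => a i.succ)
    rw [List.ofFn_succ, dd, h, Fin.sum_univ_succ]
    have e0 : (List.ofFn fun i : Fin (k + 1) => if i < 0 then a i.castSucc else
        if i = 0 then a i.castSucc * a i.succ else a i.succ) =
        a 0 * a (Fin.succ 0) :: List.ofFn fun i : Fin k => a i.succ.succ := by
      rw [List.ofFn_succ]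
      simp
    have e1 : ∀ j : Fin k, (List.ofFn fun i : Fin (k + 1) => if i < j.succ then a i.castSucc else
        if i = j.succ then a i.castSucc * a i.succ else a i.succ) =
        a 0 :: List.ofFn fun i : Fin k => if i < j then a i.castSucc.succ else
          if i = j then a i.castSucc.succ * a i.succ.succ else a i.succ.succ := by
      intro j
      rw [List.ofFn_succ]
      simp only [Fin.succ_pos, if_true, Fin.castSucc_zero, Fin.succ_lt_succ_iff, Fin.succ_inj,
        Fin.succ_castSucc]
    have e2 : (List.ofFn fun i : Fin (k + 1) => a i.castSucc) =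
        a 0 :: List.ofFn fun i : Fin k => a i.castSucc.succ := by
      rw [List.ofFn_succ]
      simp only [Fin.castSucc_zero, Fin.succ_castSucc]
    simp only [e0, e1, e2, Fin.val_zero, pow_zero, one_smul, Fin.val_succ, pow_succ, mul_neg,
      mul_one, neg_smul, sum_neg_distrib, Fin.succ_last]
    abel

theorem hoch_ofFn (F : List M → M) (k : ℕ) (a : Fin (k + 1) → M) :
    hoch k (fun b => F (List.ofFn b)) a = dif F (a 0) (List.ofFn fun i : Fin k => a i.succ) := by
  rw [hoch, dif, hoch_dd]
  simp only [pow_succ, mul_neg, mul_one, neg_smul, sum_neg_distrib]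
  abel

theorem hoch_exists {k : ℕ} (L : List M) (h : L.length = k) : ∃ b : Fin k → M, L = List.ofFn b := by
  subst h
  exact ⟨L.get, (List.ofFn_get L).symm⟩

theorem hoch_update {k : ℕ} [DecidableEq (Fin k)] (b : Fin k → M) (i : Fin k) (x : M) :
    List.ofFn (Function.update b i x) = (List.ofFn b).set i x := by
  refine List.ext_getElem (by simp) fun m h1 h2 => ?_
  simp only [List.getElem_ofFn, List.getElem_set, Function.update_apply, Fin.ext_iff, eq_comm]

theorem hoch_nrm {k : ℕ} (b : Fin k → M) : nrm (List.ofFn b) = ∏ i, ‖b i‖ := by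
  rw [nrm, List.map_ofFn, List.prod_ofFn]
  rfl

theorem hoch_dd_zero (l : List M) : ∀ (F : List M → M) (y : M),
    (∀ l', l'.length = l.length → F l' = 0) → dd F y l = 0 := by
  induction l with
  | nil =>
    intro F y h
    rw [dd, h [] rfl, zero_mul]
  | cons x l ih =>
    intro F y h
    rw [dd, h _ (by simp), ih _ _ fun l' hl => h _ (by simp [hl]), sub_zero]

theorem vanish_of_cob (h : ∀ (F : List M → M) (C : ℝ), Coc F C → Cob F C 1) (n : ℕ)
    (f : ContinuousMultilinearMap ℂ (fun _ : Fin (n + 1) => M) M)
    (hf : ∀ a, hoch (n + 1) f a = 0) :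
    ∃ g : ContinuousMultilinearMap ℂ (fun _ : Fin n => M) M, ∀ a, f a = hoch n g a := by
  let F : List M → M := fun L =>
    if h : L.length = n + 1 then f (fun i => L.get (i.cast h.symm)) else 0
  have hF1 : ∀ b : Fin (n + 1) → M, F (List.ofFn b) = f b := by
    intro b
    simp only [F, List.length_ofFn, dite_true, List.get_ofFn, Fin.cast_cast, Fin.cast_eq_self]
  have hF0 : ∀ L : List M, L.length ≠ n + 1 → F L = 0 := fun L hL => dif_neg hL
  have hc : Coc F ‖f‖ := by
    refine ⟨norm_nonneg _, fun l₁ l₂ => ?_, fun l => ?_, fun x l => ?_⟩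
    · by_cases hl : (l₁ ++ 0 :: l₂).length = n + 1
      · obtain ⟨b, hb⟩ := hoch_exists _ hl
        have hi : l₁.length < n + 1 := by
          rw [← hl]
          simp
        have e : ∀ x, F (l₁ ++ x :: l₂) = f (Function.update b ⟨l₁.length, hi⟩ x) := by
          intro x
          rw [← hF1, hoch_update, ← hb]
          simp
        simp only [e]
        exact ⟨fun x y => f.map_update_add _ _ _ _, fun c x => f.map_update_smul _ _ _ _⟩
      · have e : ∀ x, F (l₁ ++ x :: l₂) = 0 := fun x => hF0 _ (by simpa using hl)
        simp only [e]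
        exact ⟨fun _ _ => (add_zero _).symm, fun _ _ => (smul_zero _).symm⟩
    · by_cases hl : l.length = n + 1
      · obtain ⟨b, rfl⟩ := hoch_exists _ hl
        rw [hF1, hoch_nrm]
        exact f.le_opNorm b
      · obtain ⟨b, hb⟩ := hoch_exists l rfl
        rw [hF0 l hl, norm_zero, hb, hoch_nrm]
        positivity
    · by_cases hl : l.length = n + 1
      · obtain ⟨b, rfl⟩ := hoch_exists _ hl
        have e := hoch_ofFn F (n + 1) (Fin.cons x b)
        simp only [hF1, Fin.cons_zero, Fin.cons_succ] at e
        rw [← e]
        exact hf _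
      · rw [dif, hF0 l hl, hoch_dd_zero l F x fun l' hl' => hF0 _ (by rwa [hl']), mul_zero,
          sub_zero]
  obtain ⟨K, hK1, hK2, -, hK4⟩ := h F _ hc
  have e : ∀ [DecidableEq (Fin n)] (b : Fin n → M) (i : Fin n) (x : M),
      List.ofFn (Function.update b i x) =
        (List.ofFn b).take i ++ x :: (List.ofFn b).drop (i + 1) := by
    intro _ b i x
    rw [hoch_update, List.set_eq_take_append_cons_drop, if_pos (by simp)]
  let g : MultilinearMap ℂ (fun _ : Fin n => M) M :=
    { toFun := fun b => K (List.ofFn b)
      map_update_add' := fun b i x y => by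
        simp only [e]
        exact (hK1 _ _).map_add x y
      map_update_smul' := fun b i c x => by
        simp only [e]
        exact (hK1 _ _).map_smul c x }
  refine ⟨g.mkContinuous (‖f‖ * (n + 2)) fun b => ?_, fun a => ?_⟩
  · have := hK2 (List.ofFn b)
    rwa [hoch_nrm, List.length_ofFn] at this
  · have e1 := hoch_ofFn K n a
    rw [← hK4, one_mul, ← List.ofFn_succ, hF1] at e1
    exact e1.symm

end Vale.Agent.P082
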