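import Vale.Agent.P082.Coch
import Vale.Agent.P082.FixCB

/-! Finite families of isometries with orthogonal ranges. -/

set_option linter.unusedSectionVars false

namespace Vale.Agent.P082

open Filter Topology Finset Vale.Agent.P104
open scoped InnerProductSpace ComplexOrder ComplexConjugate

universe u v

variable {G : Type v} [NormedAddCommGroup G] [InnerProductSpace ℂ G] [CompleteSpace G]
  {M : Type u} [CStarAlgebra M] {ρ : M →⋆ₐ[ℂ] (G →L[ℂ] G)}

section Fam

variable {N : Type} [Fintype N] [DecidableEq N]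

/-- Orthogonal copies of a central projection. -/
structure InfO (z : M) (u : N → M) : Prop where
  cp : IsCP z
  uu : ∀ i j, star (u i) * u j = if i = j then z else 0

/-- The amplification map of a finite family. -/
noncomputable def infA (u : N → M) : M →ₗ[ℂ] M :=
  ∑ i, LinearMap.mulLeft ℂ (u i) ∘ₗ LinearMap.mulRight ℂ (star (u i))

theorem infA_apply (u : N → M) (x : M) : infA u x = ∑ i, u i * (x * star (u i)) := by
  simp [infA, LinearMap.sum_apply]

namespace InfO

variable {z : M} {u : N → M}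

theorem self (h : InfO z u) (i : N) : star (u i) * u i = z := by rw [h.uu, if_pos rfl]

theorem mul_z (h : InfO z u) (i : N) : u i * z = u i := by
  have h1 : star (u i * (1 - z)) * (u i * (1 - z)) = 0 := by
    rw [star_mul, mul_assoc, ← mul_assoc (star (u i)), h.self, h.cp.proj.mul_one_sub_self,
      mul_zero]
  have h2 := (CStarRing.star_mul_self_eq_zero_iff _).1 h1
  rw [mul_sub, mul_one, sub_eq_zero] at h2
  exact h2.symm

theorem z_mul (h : InfO z u) (i : N) : z * u i = u i := by rw [h.cp.comm, h.mul_z]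

theorem z_star (h : InfO z u) (i : N) : z * star (u i) = star (u i) :=
  ws_flip' h.cp.star_eq (h.mul_z i)

theorem norm_le (h : InfO z u) (i : N) : ‖u i‖ ≤ 1 := by
  have h1 : ‖u i‖ * ‖u i‖ ≤ 1 := by
    rw [← CStarRing.norm_star_mul_self, h.self]; exact h.cp.proj.norm_le
  nlinarith [norm_nonneg (u i)]

theorem norm_star_le (h : InfO z u) (i : N) : ‖star (u i)‖ ≤ 1 := by
  rw [norm_star]; exact h.norm_le i

theorem uu' (h : InfO z u) (i j : N) (x : M) :
    star (u i) * (u j * x) = if i = j then z * x else 0 := by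
  rw [← mul_assoc, h.uu]; split_ifs <;> simp

theorem A_mul_u (h : InfO z u) (j : N) (x : M) : infA u x * u j = u j * x := by
  simp only [infA_apply, sum_mul, mul_assoc, h.uu, mul_ite, mul_zero, sum_ite_eq', mem_univ,
    if_true]
  rw [← h.cp.comm, ← mul_assoc, h.mul_z]

theorem star_mul_A (h : InfO z u) (j : N) (x : M) : star (u j) * infA u x = x * star (u j) := by
  simp only [infA_apply, mul_sum, h.uu', sum_ite_eq, mem_univ, if_true]
  rw [← mul_assoc, h.cp.comm, mul_assoc, h.z_star]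

theorem A_mul (h : InfO z u) (x y : M) : infA u (x * y) = infA u x * infA u y := by
  rw [infA_apply u y, mul_sum, infA_apply]
  refine sum_congr rfl fun i _ => ?_
  rw [← mul_assoc (infA u x), h.A_mul_u]; simp only [mul_assoc]

theorem A_star (x : M) : infA u (star x) = star (infA u x) := by
  simp only [infA_apply, star_sum, star_mul, star_star, mul_assoc]

theorem norm_A_le (h : InfO z u) (x : M) : ‖infA u x‖ ≤ ‖x‖ := by
  let φ : M →⋆ₙₐ[ℂ] M :=
    { toFun := infA u
      map_smul' := (infA u).map_smul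
      map_zero' := (infA u).map_zero
      map_add' := (infA u).map_add
      map_mul' := h.A_mul
      map_star' := A_star }
  exact NonUnitalStarAlgHom.norm_apply_le φ x

theorem nrm_map_le (h : InfO z u) (l : List M) : nrm (l.map (infA u)) ≤ nrm l := by
  induction l with
  | nil => exact le_rfl
  | cons x l ih =>
    rw [List.map_cons, nrm_cons, nrm_cons]
    exact mul_le_mul (h.norm_A_le x) ih (nrm_nonneg _) (norm_nonneg _)

theorem proj_sum (h : InfO z u) : IsStarProjection (∑ i, u i * star (u i)) := by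
  have e : ∑ i, u i * star (u i) = infA u 1 := by simp [infA_apply]
  rw [e]
  exact isStarProjection_iff'.2 ⟨by rw [← h.A_mul, one_mul], by rw [← A_star, star_one]⟩

theorem comp (h : InfO z u) {I : Type} [Fintype I] [DecidableEq I] {f : I → N}
    (hf : Function.Injective f) : InfO z fun i => u (f i) :=
  ⟨h.cp, fun i j => by simp only [h.uu, hf.eq_iff]⟩

theorem bessel (h : InfO z u) (ζ : G) : ∑ j, ‖ρ (star (u j)) ζ‖ ^ 2 ≤ ‖ζ‖ ^ 2 := by
  have e : ∀ j, ‖ρ (star (u j)) ζ‖ ^ 2 = vf ρ ζ (u j * star (u j)) := fun j => by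
    rw [← vf_star_mul, star_star]
  simp only [e]
  rw [← map_sum, ← h.proj_sum.isIdempotentElem.eq]
  nth_rewrite 1 [← h.proj_sum.isSelfAdjoint.star_eq]
  rw [vf_star_mul]
  refine pow_le_pow_left₀ (norm_nonneg _) ((ws_norm_le _ _).trans ?_) 2
  exact mul_le_of_le_one_left (norm_nonneg _) h.proj_sum.norm_le

theorem synth (h : InfO z u) (η : N → G) : ‖∑ i, ρ (u i) (η i)‖ ^ 2 ≤ ∑ i, ‖η i‖ ^ 2 := by
  have e : ∀ i j, ⟪ρ (u i) (η i), ρ (u j) (η j)⟫_ℂ =
      if i = j then ⟪ρ (u i) (η i), ρ (u i) (η i)⟫_ℂ else 0 := fun i j => by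
    split_ifs with hij
    · rw [hij]
    · rw [ws_inner, ← ws_mul_apply, h.uu, if_neg hij]; simp
  rw [@norm_sq_eq_re_inner ℂ, sum_inner, map_sum]
  refine sum_le_sum fun i _ => ?_
  rw [inner_sum, sum_congr rfl fun j _ => e i j, sum_ite_eq, if_pos (mem_univ i)]
  rw [← @norm_sq_eq_re_inner ℂ]
  refine pow_le_pow_left₀ (norm_nonneg _) ((ws_norm_le _ _).trans ?_) 2
  exact mul_le_of_le_one_left (norm_nonneg _) (h.norm_le i)

/-- The partition given by the ranges and the complement. -/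
noncomputable def pt (u : N → M) : Option N → M
  | none => 1 - ∑ i, u i * star (u i)
  | some i => u i * star (u i)

theorem star_pt (h : InfO z u) (i : N) (o : Option N) :
    star (u i) * pt u o = if o = some i then star (u i) else 0 := by
  cases o with
  | none =>
    simp only [pt, mul_sub, mul_one, mul_sum, h.uu', sum_ite_eq, mem_univ, if_true, h.z_star,
      sub_self, reduceCtorEq, if_false]
  | some j =>
    simp only [pt, h.uu', Option.some.injEq, h.z_star]
    by_cases hij : i = j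
    · simp [hij]
    · simp [hij, Ne.symm hij]

theorem pt_star (o : Option N) : star (pt u o) = pt u o := by
  cases o <;> simp [pt, star_sum]

theorem pt_mul (h : InfO z u) (i : N) (o : Option N) :
    pt u o * u i = if o = some i then u i else 0 := by
  have := congrArg star (h.star_pt i o)
  rw [star_mul, pt_star, star_star] at this
  rw [this]; split_ifs <;> simp

theorem part (h : InfO z u) : IsPart (pt u) := by
  have k : ∀ i o, pt u (some i) * pt u o = if o = some i then pt u (some i) else 0 := fun i o => by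
    rw [pt, mul_assoc, h.star_pt]; split_ifs <;> simp
  refine ⟨?_, ?_, by simp [Fintype.sum_option, pt]⟩
  · rintro (_ | i)
    · exact h.proj_sum.one_sub
    · exact isStarProjection_iff'.2 ⟨by rw [k, if_pos rfl], pt_star _⟩
  · rintro (_ | i) o ho
    · obtain _ | j := o
      · exact absurd rfl ho
      · change pt u none * (u j * star (u j)) = 0
        rw [← mul_assoc, h.pt_mul, if_neg ho, zero_mul]
    · rw [k, if_neg (Ne.symm ho)]

end InfO

end Fam

theorem inf_two_sided {I J : Type} [Fintype I] [Fintype J] {p : I → M} {q : J → M}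
    (hp : IsPart p) (hq : IsPart q) {φ : M →ₗ[ℂ] M} {c : ℝ} (hφ : ∀ a, ‖φ a‖ ≤ c * ‖a‖) (y : M) :
    ‖∑ a, p a * ∑ b, φ (p a * y * q b) * q b‖ ≤ c * ‖y‖ := by
  let ψ : M →ₗ[ℂ] M :=
    { toFun := fun y => star (φ (star y))
      map_add' := fun x y => by simp
      map_smul' := fun c x => by simp }
  have h1 : ∀ a, ‖ψ a‖ ≤ c * ‖a‖ := fun a => by
    change ‖star (φ (star a))‖ ≤ _
    rw [norm_star, ← norm_star a]; exact hφ _
  let χ : M →ₗ[ℂ] M :=
    ∑ b, LinearMap.mulRight ℂ (q b) ∘ₗ φ ∘ₗ LinearMap.mulRight ℂ (q b)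
  have hχ : ∀ a, χ a = ∑ b, φ (a * q b) * q b := fun a => by simp [χ, LinearMap.sum_apply]
  have h2 : ∀ a, ‖χ a‖ ≤ c * ‖a‖ := fun a => by
    have := hq.norm_avg_le h1 (star a)
    rw [hq.avg_apply, ← norm_star, norm_star a, star_sum] at this
    rw [hχ]
    refine le_of_eq_of_le (congrArg norm (sum_congr rfl fun b _ => ?_)) this
    change _ = star (q b * star (φ (star (q b * star a))))
    simp only [star_mul, star_star, hq.star_eq]
  have := hp.norm_avg_le h2 y
  rw [hp.avg_apply] at this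
  simpa only [hχ] using this

/-- The domination inequality for one placement of a matrix. -/
theorem inf_dom_one (hρ : IsVN ρ) {I J : Type} [Fintype I] [Fintype J] [DecidableEq I]
    [DecidableEq J] {z : M} {u : I → M} {w : J → M} (hu : InfO z u) (hw : InfO z w)
    {φ : M →ₗ[ℂ] M} {c : ℝ} (hc : 0 ≤ c) (hφ : ∀ a, ‖φ a‖ ≤ c * ‖a‖) {X : I → J → M}
    (hX : Contr ρ X) (η : I → G) :
    ∑ j, ‖∑ i, ρ (star (star (u i) * (φ (u i * (X i j * star (w j))) * w j))) (η i)‖ ^ 2
      ≤ c ^ 2 * ∑ i, ‖η i‖ ^ 2 := by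
  set Y : M := ∑ i, u i * ∑ j, X i j * star (w j) with hY
  have hY1 : ‖Y‖ ≤ 1 := by
    refine hρ.norm_le_of zero_le_one fun ξ => ?_
    rw [one_mul]
    refine (pow_le_pow_iff_left₀ (norm_nonneg _) (norm_nonneg _) two_ne_zero).1 ?_
    have e : ρ Y ξ = ∑ i, ρ (u i) (∑ j, ρ (X i j) (ρ (star (w j)) ξ)) := by
      simp only [hY, map_sum, _root_.sum_apply, ws_mul_apply]
    rw [e]
    exact (hu.synth _).trans ((hX _).trans (hw.bessel ξ))
  set Z : M := ∑ a, InfO.pt u a * ∑ b, φ (InfO.pt u a * Y * InfO.pt w b) * InfO.pt w b with hZ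
  have hZ1 : ‖Z‖ ≤ c :=
    (inf_two_sided hu.part hw.part hφ Y).trans (mul_le_of_le_one_right hc hY1)
  have e1 : ∀ i j, InfO.pt u (some i) * Y * InfO.pt w (some j) = u i * (X i j * star (w j)) := by
    intro i j
    simp only [hY, mul_sum, sum_mul, mul_assoc, hw.star_pt, Option.some.injEq, mul_ite, mul_zero,
      sum_ite_eq, mem_univ, if_true]
    simp only [← mul_assoc (InfO.pt u (some i)), hu.pt_mul, Option.some.injEq, ite_mul, zero_mul,
      sum_ite_eq, mem_univ, if_true]
  have e2 : ∀ i j, star (u i) * (φ (u i * (X i j * star (w j))) * w j) = star (u i) * (Z * w j) := by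
    intro i j
    simp only [hZ, sum_mul, mul_sum, mul_assoc, hw.pt_mul, mul_ite, mul_zero, sum_ite_eq',
      mem_univ, if_true]
    simp only [← mul_assoc (star (u i)), hu.star_pt, ite_mul, zero_mul, sum_ite_eq', mem_univ,
      if_true]
    rw [← e1, mul_assoc (InfO.pt u (some i))]
  have e3 : ∀ j, ∑ i, ρ (star (star (u i) * (Z * w j))) (η i)
      = ρ (star (w j)) (ρ (star Z) (∑ i, ρ (u i) (η i))) := fun j => by
    simp only [star_mul, star_star, ws_mul_apply, map_sum]
  simp only [e2, e3]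
  refine (hw.bessel _).trans ?_
  refine (pow_le_pow_left₀ (norm_nonneg _) (ws_norm_le _ _) 2).trans ?_
  rw [mul_pow, norm_star]
  exact mul_le_mul (pow_le_pow_left₀ (norm_nonneg _) hZ1 2) (hu.synth η) (by positivity)
    (by positivity)

theorem inf_sq_Ex_le {Ω : Type*} [Fintype Ω] [Nonempty Ω] (f : Ω → G) :
    ‖Ex f‖ ^ 2 ≤ Ex fun ω => ‖f ω‖ ^ 2 := by
  have h1 := norm_Ex_le f
  set m : ℝ := Ex fun ω => ‖f ω‖ with hm
  have h2 : Ex (fun ω => 2 * m * ‖f ω‖ - m ^ 2) ≤ Ex fun ω => ‖f ω‖ ^ 2 :=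
    Ex_mono fun ω => by nlinarith [sq_nonneg (‖f ω‖ - m)]
  rw [Ex_sub, Ex_mul_left, Ex_const, ← hm] at h2
  nlinarith [pow_le_pow_left₀ (norm_nonneg _) h1 2]

theorem inf_lsc {ι J : Type*} [Fintype J] {l : Filter ι} [l.NeBot] {x : ι → J → G} {y : J → G}
    (h : ∀ j ξ, Tendsto (fun n => ⟪ξ, x n j⟫_ℂ) l (𝓝 ⟪ξ, y j⟫_ℂ)) {R : ℝ}
    (hR : ∀ᶠ n in l, ∑ j, ‖x n j‖ ^ 2 ≤ R) : ∑ j, ‖y j‖ ^ 2 ≤ R := by
  have h1 : Tendsto (fun n => ∑ j, (⟪y j, x n j⟫_ℂ).re) l (𝓝 (∑ j, (⟪y j, y j⟫_ℂ).re)) :=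
    tendsto_finsetSum _ fun j _ => (Complex.continuous_re.tendsto _).comp (h j (y j))
  have h2 : ∑ j, (⟪y j, y j⟫_ℂ).re = ∑ j, ‖y j‖ ^ 2 :=
    sum_congr rfl fun j _ => (@norm_sq_eq_re_inner ℂ _ _ _ _ (y j)).symm
  rw [h2] at h1
  have h3 : ∑ j, ‖y j‖ ^ 2 ≤ (∑ j, ‖y j‖ ^ 2 + R) / 2 := by
    refine le_of_tendsto h1 ?_
    filter_upwards [hR] with n hn
    have : ∑ j, (⟪y j, x n j⟫_ℂ).re ≤ ∑ j, (‖y j‖ ^ 2 + ‖x n j‖ ^ 2) / 2 :=
      sum_le_sum fun j _ => by
        have h4 := (Complex.re_le_norm _).trans (norm_inner_le_norm (𝕜 := ℂ) (y j) (x n j))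
        nlinarith [sq_nonneg (‖y j‖ - ‖x n j‖)]
    rw [← sum_div, sum_add_distrib] at this
    linarith
  linarith

end Vale.Agent.P082
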