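import Vale.Agent.P082.Coch
import Vale.Agent.P082.FixCB
import Vale.Agent.P082.Inf1

/-! The properly infinite case. -/

set_option linter.unusedSectionVars false

namespace Vale.Agent.P082

open Filter Topology Finset Vale.Agent.P104
open scoped InnerProductSpace ComplexOrder ComplexConjugate

universe u v

variable {G : Type v} [NormedAddCommGroup G] [InnerProductSpace ℂ G] [CompleteSpace G]
  {M : Type u} [CStarAlgebra M] {ρ : M →⋆ₐ[ℂ] (G →L[ℂ] G)}

section Avg

variable {Ω : Type} [Fintype Ω]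

theorem inf_dd_Ex (F : Ω → List M → M) (y : M) (l : List M) :
    dd (fun l => Ex fun ω => F ω l) y l = Ex fun ω => dd (F ω) y l := by
  induction l generalizing F y with
  | nil => simp only [dd, Ex_mul]
  | cons x l ih =>
    simp only [dd, Ex_sub]
    rw [ih fun ω l' => F ω (y :: l')]

theorem inf_dif_Ex (F : Ω → List M → M) (y : M) (l : List M) :
    dif (fun l => Ex fun ω => F ω l) y l = Ex fun ω => dif (F ω) y l := by
  simp only [dif, Ex_sub, inf_dd_Ex, mul_Ex]

theorem inf_Ex_apply (T : Ω → M →ₗ[ℂ] M) (a : M) : Ex T a = Ex fun ω => T ω a := by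
  simp [Ex, LinearMap.sum_apply]

theorem inf_lin_Ex {F : Ω → List M → M} (h : ∀ ω, Lin (F ω)) : Lin fun l => Ex fun ω => F ω l :=
  fun l₁ l₂ =>
    ⟨fun x y => by simp only [(h _ l₁ l₂).map_add, Ex_add], fun c x => by
      simp only [(h _ l₁ l₂).map_smul]
      exact (map_Ex' (c • LinearMap.id : M →ₗ[ℂ] M) fun ω => F ω (l₁ ++ x :: l₂)).symm⟩

theorem inf_sol_Ex [Nonempty Ω] {F : Ω → List M → M} {z : M} {c : List M → ℝ}
    {T : Ω → List M → M →ₗ[ℂ] M} (h : ∀ ω, T ω ∈ Sol (F ω) z c) {F' : List M → M}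
    (hF : ∀ a l, F' (a :: l) = Ex fun ω => F ω (a :: l)) :
    (fun l => Ex fun ω => T ω l) ∈ Sol F' z c := by
  refine ⟨fun a => ?_, fun l a => ?_, fun l a => ?_, fun a b l => ?_⟩
  · simp only [inf_Ex_apply]
    exact inf_lin_Ex fun ω => (h ω).1 a
  · rw [inf_Ex_apply]
    exact (norm_Ex_le _).trans (Ex_le fun ω => (h ω).2.1 l a)
  · simp only [inf_Ex_apply, mul_Ex, (h _).2.2.1]
  · simp only [inf_Ex_apply, (h _).2.2.2, Ex_add, inf_dd_Ex, hF, mul_Ex]

end Avg

/-- A cochain corrected by a coboundary. -/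
def infTw (F H : List M → M) : List M → M
  | [] => 0
  | a :: l => F (a :: l) - dif H a l

/-- The first slot of a multilinear cochain. -/
noncomputable def infHd {F : List M → M} (hF : Lin F) (L : List M) : M →ₗ[ℂ] M :=
  IsLinearMap.mk' (fun x => F (x :: L)) (hF [] L)

section Fam

variable {N : Type} [Fintype N] [DecidableEq N] {z : M} {u : N → M} {F : List M → M} {C : ℝ}

/-- The matrix coefficients of the amplified cochain. -/
noncomputable def infT (hF : Lin F) (u : N → M) (i j : N) (l : List M) : M →ₗ[ℂ] M :=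
  LinearMap.mulLeft ℂ (star (u i)) ∘ₗ LinearMap.mulRight ℂ (u j) ∘ₗ infHd hF (l.map (infA u)) ∘ₗ
    LinearMap.mulLeft ℂ (u i) ∘ₗ LinearMap.mulRight ℂ (star (u j))

theorem infT_apply (hF : Lin F) (u : N → M) (i j : N) (l : List M) (a : M) :
    infT hF u i j l a = star (u i) * (F (u i * (a * star (u j)) :: l.map (infA u)) * u j) := rfl

/-- The homotopy. -/
noncomputable def infH (F : List M → M) (u : N → M) (j : N) (l : List M) : M :=
  star (u j) * prism (infA u) (u j) F l

theorem infHd_bd (hF : Coc F C) (h : InfO z u) (l : List M) (a : M) :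
    ‖infHd hF.lin (l.map (infA u)) a‖ ≤ C * nrm l * ‖a‖ := by
  refine (hF.bd (a :: l.map (infA u))).trans ?_
  rw [nrm_cons, mul_comm ‖a‖, ← mul_assoc]
  exact mul_le_mul_of_nonneg_right (mul_le_mul_of_nonneg_left (h.nrm_map_le l) hF.C0)
    (norm_nonneg _)

theorem inf_norm3 {x y : M} (hx : ‖x‖ ≤ 1) (hy : ‖y‖ ≤ 1) (a : M) : ‖x * (a * y)‖ ≤ ‖a‖ :=
  (norm_mul_le _ _).trans ((mul_le_of_le_one_left (norm_nonneg _) hx).trans
    ((norm_mul_le _ _).trans (mul_le_of_le_one_right (norm_nonneg _) hy)))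

theorem infT_sol (hF : Coc F C) (hz : ∀ l, z * F l = F l) (h : InfO z u) (i j : N) :
    infT hF.lin u i j ∈ Sol (infTw F (infH F u j)) z fun l => C * nrm l := by
  refine ⟨fun a l₁ l₂ => ?_, fun l a => ?_, fun l a => ?_, fun a b l => ?_⟩
  · have := hF.lin (u i * (a * star (u j)) :: l₁.map (infA u)) (l₂.map (infA u))
    simp only [infT_apply, List.map_append, List.map_cons]
    simp only [List.cons_append] at this
    exact ⟨fun x y => by rw [map_add, this.map_add, add_mul, mul_add],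
      fun c x => by rw [map_smul, this.map_smul, smul_mul_assoc, mul_smul_comm]⟩
  · refine (inf_norm3 (h.norm_star_le i) (h.norm_le j) _).trans
      ((infHd_bd hF h l _).trans ?_)
    exact mul_le_mul_of_nonneg_left (inf_norm3 (h.norm_le i) (h.norm_star_le j) a)
      (mul_nonneg hF.C0 (nrm_nonneg l))
  · rw [infT_apply, ← mul_assoc, h.z_star]
  · have h1 := hF.coc (u i * (b * star (u j))) (infA u a :: l.map (infA u))
    have h2 := prism_eq h.A_mul (h.A_mul_u j) hF.coc a l
    have h3 := dd_map h.A_mul (h.A_mul_u j) (fun l' => F (u i * (b * star (u j)) :: l')) a l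
    have h4 : u i * (b * star (u j)) * infA u a = u i * (b * a * star (u j)) := by
      simp only [mul_assoc, h.star_mul_A]
    have h5 : infTw F (infH F u j) (a :: l)
        = star (u j) * (F (infA u a :: l.map (infA u)) * u j) := by
      have h6 := congrArg (star (u j) * ·) h2
      simp only [mul_sub, ← mul_assoc, h.star_mul_A, h.self, hz] at h6
      change F (a :: l) - (a * (star (u j) * _) - dd (fun l => star (u j) * _) a l) = _
      rw [dd_mul, ← mul_assoc, h6, sub_sub_cancel, mul_assoc]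
    rw [dif, dd, h4, sub_eq_zero, eq_comm, sub_eq_iff_eq_add] at h1
    simp only [infT_apply]
    rw [dd_mul, ← h3, h1, h5, add_mul, mul_add]
    simp only [mul_assoc, h.uu', if_true]
    rw [← mul_assoc z, h.cp.comm, mul_assoc, ← mul_assoc z, h.z_star]

theorem infH_lin (hF : Lin F) (j : N) : Lin (infH F u j) := fun l₁ l₂ =>
  have := hF.prism (infA u) (u j) l₁ l₂
  ⟨fun x y => by rw [infH, infH, infH, this.map_add, mul_add],
    fun c x => by rw [infH, infH, this.map_smul, mul_smul_comm]⟩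

theorem infH_bd (hF : Coc F C) (h : InfO z u) (j : N) (l : List M) :
    ‖infH F u j l‖ ≤ C * (l.length + 1) * nrm l :=
  (norm_mul_le _ _).trans ((mul_le_of_le_one_left (norm_nonneg _) (h.norm_star_le j)).trans
    (norm_prism_le h.norm_A_le (h.norm_le j) hF.C0 hF.bd l))

theorem infT_dom [AddCommGroup N] (hρ : IsVN ρ) (hF : Coc F C) (h : InfO z u) (l : List M)
    {I J : Type} [Fintype I] [Fintype J] (f : I ↪ N) (g : J ↪ N) {X : I → J → M}
    (hX : Contr ρ X) (η : I → G) :
    ∑ j, ‖∑ i, ρ (star (Ex (fun p : N × N => infT hF.lin u p.1 p.2 l) (X i j))) (η i)‖ ^ 2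
      ≤ (C * nrm l) ^ 2 * ∑ i, ‖η i‖ ^ 2 := by
  classical
  have e : ∀ j, ∑ i, ρ (star (Ex (fun p : N × N => infT hF.lin u p.1 p.2 l) (X i j))) (η i)
      = Ex fun p : N × N =>
        ∑ i, ρ (star (infT hF.lin u (f i + p.1) (g j + p.2) l (X i j))) (η i) := fun j => by
    rw [Ex_sum]
    refine sum_congr rfl fun i _ => ?_
    rw [inf_Ex_apply, ← Ex_equiv (Equiv.addLeft (f i, g j))]
    let L : M →ₗ[ℝ] G :=
      { toFun := fun x => ρ (star x) (η i)
        map_add' := fun x y => by simp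
        map_smul' := fun r x => by
          rw [star_smul, star_trivial, ← Complex.coe_smul, map_smul, smul_apply, Complex.coe_smul]
          rfl }
    exact map_Ex L _
  simp only [e]
  refine (sum_le_sum fun j _ => inf_sq_Ex_le _).trans ?_
  rw [← Ex_sum]
  refine Ex_le fun p => ?_
  exact inf_dom_one hρ (h.comp (f := fun i => f i + p.1)
      ((add_left_injective p.1).comp f.injective))
    (h.comp (f := fun j => g j + p.2) ((add_left_injective p.2).comp g.injective))
    (mul_nonneg hF.C0 (nrm_nonneg l)) (infHd_bd hF h l) hX η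

end Fam

theorem inf_vf_one (c : ℝ) (ξ : G) : vf ρ ξ ((c : ℂ) • (1 : M)) = c * ‖ξ‖ ^ 2 := by
  rw [Complex.coe_smul, map_smul, smul_eq_mul]
  have := vf_star_mul (ρ := ρ) ξ 1
  rw [star_one, mul_one, map_one ρ, one_apply_eq_self] at this
  rw [this]

theorem inf_lin_add {F K : List M → M} (hF : Lin F) (hK : Lin K) : Lin fun l => F l + K l :=
  fun l₁ l₂ =>
    ⟨fun x y => by simp only [(hF l₁ l₂).map_add, (hK l₁ l₂).map_add]; abel,
      fun c x => by simp only [(hF l₁ l₂).map_smul, (hK l₁ l₂).map_smul, smul_add]⟩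

theorem inf_dom_avg {φ : M →ₗ[ℂ] M} {c : ℂ} (h : Dom ρ φ (c • 1)) {J : Type} [Fintype J]
    {m : J → M} (hm : ∑ j, star (m j) * m j = 1) : Dom ρ (avg m φ) (c • 1) := by
  have h1 := h.avg hm
  have h2 : ∑ j, star (m j) * (c • (1 : M)) * m j = c • 1 := by
    simp only [mul_smul_comm, smul_mul_assoc, mul_one, ← smul_sum, hm]
  rwa [h2] at h1

theorem inf_fix (h : IsVN ρ) {F : List M → M} {c : List M → ℝ} (hc : ∀ l, 0 ≤ c l) {z : M}
    (hz : IsCP z) {T' : List M → M →ₗ[ℂ] M} (s1 : T' ∈ Sol F z c)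
    (s2 : ∀ l, Dom ρ (T' l) (((c l ^ 2 : ℝ) : ℂ) • 1)) :
    ∃ S ∈ Sol F z c, ∀ a l, F (a :: l) = dif (fun l => S l 1) a l := by
  let S₀ : Set (List M → M →ₗ[ℂ] M) :=
    {T | T ∈ Sol F z c ∧ ∀ l, Dom ρ (T l) (((c l ^ 2 : ℝ) : ℂ) • 1)}
  have hlim : ∀ (V : Ultrafilter (List M → M →ₗ[ℂ] M)) (T : List M → M →ₗ[ℂ] M), S₀ ∈ V →
      (∀ e a, WL ρ (V : Filter (List M → M →ₗ[ℂ] M)) (fun T' => T' e a) (T e a)) → T ∈ S₀ := by
    intro V T hV hl
    have h1 : ∀ᶠ T in (V : Filter (List M → M →ₗ[ℂ] M)), T ∈ S₀ := hV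
    refine ⟨Sol.lim h (U := (V : Filter (List M → M →ₗ[ℂ] M))) (F := fun _ => F)
      (T := fun T => T) (fun l => WL.const _) hl (h1.mono fun T hT => hT.1), fun l => ?_⟩
    exact Dom.lim (l := (V : Filter (List M → M →ₗ[ℂ] M))) (T := fun T' => T' l)
      (k := fun _ => ((c l ^ 2 : ℝ) : ℂ) • 1) (hl l) (fun ξ => tendsto_const_nhds)
      (h1.mono fun T hT => hT.2 l)
  have havg : ∀ (J : Type) [Fintype J] (m : J → M), ∑ j, star (m j) * m j = 1 →
      ∀ T ∈ S₀, (fun e => avg m (T e)) ∈ S₀ := by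
    intro J _ m hm T hT
    have hd : ∀ l, Dom ρ (avg m (T l)) (((c l ^ 2 : ℝ) : ℂ) • 1) := fun l =>
      inf_dom_avg (hT.2 l) hm
    exact ⟨Sol.avg hz hT.1 hm fun l => (hd l).norm_le h (hc l), hd⟩
  obtain ⟨S, hS, hq⟩ := fix_cb h (S := S₀) ⟨T', s1, s2⟩ hc (fun T hT => hT.2) hlim havg
  exact ⟨S, hS.1, Sol.final h.isWRep.rickart hS.1 hq⟩

theorem inf_approx (h : IsVN ρ) {F : List M → M} {C : ℝ} (hF : Coc F C) {z : M} (hz : IsCP z)
    (hzF : ∀ l, z * F l = F l) {v : ℕ → M}
    (hv : ∀ i j, star (v i) * v j = if i = j then z else 0) (n : ℕ) :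
    ∃ (T : List M → M →ₗ[ℂ] M) (H : List M → M), T ∈ Sol (infTw F H) z (fun l => C * nrm l) ∧
      Lin H ∧ (∀ l, ‖H l‖ ≤ C * (l.length + 1) * nrm l) ∧ (∀ l, z * H l = H l) ∧
      ∀ (l : List M) (I J : Type) [Fintype I] [Fintype J], Fintype.card I ≤ n →
        Fintype.card J ≤ n → ∀ X : I → J → M, Contr ρ X → ∀ η : I → G,
          ∑ j, ‖∑ i, ρ (star (T l (X i j))) (η i)‖ ^ 2 ≤ (C * nrm l) ^ 2 * ∑ i, ‖η i‖ ^ 2 := by
  let u : Fin (n + 1) → M := fun i => v i
  have hu : InfO z u := ⟨hz, fun i j => by simp only [u, hv, Fin.val_inj]⟩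
  refine ⟨fun l => Ex fun p : Fin (n + 1) × Fin (n + 1) => infT hF.lin u p.1 p.2 l,
    fun l => Ex fun p : Fin (n + 1) × Fin (n + 1) => infH F u p.2 l, ?_,
    inf_lin_Ex fun p => infH_lin hF.lin p.2,
    fun l => (norm_Ex_le _).trans (Ex_le fun p => infH_bd hF hu p.2 l), fun l => ?_,
    fun l I J _ _ h1 h2 X hX η => ?_⟩
  · exact inf_sol_Ex (F := fun p : Fin (n + 1) × Fin (n + 1) => infTw F (infH F u p.2))
      (T := fun p => infT hF.lin u p.1 p.2)
      (fun p => infT_sol hF hzF hu p.1 p.2) fun a l => by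
      simp only [infTw, inf_dif_Ex, Ex_sub, Ex_const]
  · simp only [mul_Ex, infH, ← mul_assoc, hu.z_star]
  · obtain ⟨f⟩ : Nonempty (I ↪ Fin (n + 1)) :=
      Function.Embedding.nonempty_of_card_le (by rw [Fintype.card_fin]; exact Nat.le_succ_of_le h1)
    obtain ⟨g⟩ : Nonempty (J ↪ Fin (n + 1)) :=
      Function.Embedding.nonempty_of_card_le (by rw [Fintype.card_fin]; exact Nat.le_succ_of_le h2)
    exact infT_dom h hF hu l f g hX η

theorem cob_inf (h : IsVN ρ) {F : List M → M} {C : ℝ} (hF : Coc F C) {z : M} (hz : IsCP z)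
    {v : ℕ → M} (hv : ∀ i j, star (v i) * v j = if i = j then z else 0) : Cob F C z := by
  have hF' := hF.central hz
  obtain ⟨F', hF'd⟩ : ∃ F' : List M → M, F' = fun l => z * F l := ⟨_, rfl⟩
  rw [← hF'd] at hF'
  have hzF : ∀ l, z * F' l = F' l := fun l => by rw [hF'd]; exact hz.idem _
  choose T H hT hL hH hHz hD using inf_approx h hF' hz hzF hv
  let U := hyperfilter ℕ
  choose T' hT' using fun l => h.exists_lim_map U (T := fun n => T n l)
    (.of_forall fun n => (hT n).2.1 l)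
  choose H' hH' using fun l => h.exists_lim U (a := fun n => H n l) (.of_forall fun n => hH n l)
  have s1 : T' ∈ Sol (infTw F' H') z fun l => C * nrm l := by
    refine Sol.lim h (U := U) (F := fun n => infTw F' (H n)) ?_ hT' (.of_forall hT)
    rintro (_ | ⟨a, l⟩)
    · exact WL.const _
    · exact (WL.const _).sub (((hH' l).const_mul a).sub (WL.dd hH' a l))
  have s2 : ∀ l, Dom ρ (T' l) ((((C * nrm l) ^ 2 : ℝ) : ℂ) • 1) := by
    intro l I J _ _ X hX η
    simp only [inf_vf_one, ← mul_sum]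
    refine inf_lsc (l := (U : Filter ℕ)) (x := fun n j => ∑ i, ρ (star (T n l (X i j))) (η i))
      (fun j ξ => ?_) ?_
    · simp only [inner_sum]
      exact tendsto_finsetSum _ fun i _ => (hT' l (X i j)).star ξ (η i)
    · have hU : (U : Filter ℕ) ≤ atTop := Nat.hyperfilter_le_atTop
      filter_upwards [hU (eventually_ge_atTop (Fintype.card I)),
        hU (eventually_ge_atTop (Fintype.card J))] with n h1 h2
      exact hD n l I J h1 h2 X hX η
  obtain ⟨S, hS, hq⟩ := inf_fix h (fun l => mul_nonneg hF.C0 (nrm_nonneg l)) hz s1 s2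
  have hl : Lin H' := Lin.lim h hH' (.of_forall hL)
  refine ⟨fun l => S l 1 + H' l, inf_lin_add (hS.1 1) hl, fun l => ?_, fun l => ?_,
    fun a l => ?_⟩
  · have h1 := (hS.2.1 l 1).trans (mul_le_of_le_one_right (mul_nonneg hF.C0 (nrm_nonneg l))
      (IsStarProjection.one M).norm_le)
    have h2 := (hH' l).norm_le h (.of_forall fun n => hH n l)
    refine (norm_add_le _ _).trans ((add_le_add h1 h2).trans_eq ?_)
    ring
  · change z * (S l 1 + H' l) = S l 1 + H' l
    rw [mul_add, hS.2.2.1, ((hH' l).const_mul z).unique h (hH' l) (.of_forall fun n => hHz n l)]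
  · have h1 := hq a l
    rw [infTw, sub_eq_iff_eq_add, hF'd] at h1
    refine h1.trans ?_
    simp only [dif, dd_add, mul_add]
    abel

end Vale.Agent.P082
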