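import Vale.Agent.P082.LQ

/-! Powers of a unitary. -/

set_option linter.unusedSectionVars false

namespace Vale.Agent.P082

open Filter Topology Finset Vale.Agent.P104
open scoped InnerProductSpace ComplexOrder ComplexConjugate

universe u v

variable {A : Type u} [CStarAlgebra A] {ι κ : Type} [Fintype ι] [Fintype κ]

theorem st_pow_sub {z : ℂ} (hz : ‖z‖ = 1) (k : ℕ) : ‖z ^ k - 1‖ ≤ k * ‖1 - z‖ := by
  induction k with
  | zero => simp
  | succ k ih =>
    have e : z ^ (k + 1) - 1 = (z ^ k - 1) * z - (1 - z) := by ring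
    rw [e]
    calc _ ≤ ‖(z ^ k - 1) * z‖ + ‖1 - z‖ := norm_sub_le _ _
      _ ≤ k * ‖1 - z‖ + ‖1 - z‖ := by rw [norm_mul, hz, mul_one]; linarith
      _ = _ := by push_cast; ring

theorem st_geom {z : ℂ} (hz : ‖z‖ = 1) (L : ℕ) :
    ‖∑ k ∈ range L, z ^ (k + 1)‖ * ‖1 - z‖ ≤ 2 := by
  have e : (∑ k ∈ range L, z ^ (k + 1)) * (1 - z) = z - z ^ (L + 1) := by
    induction L with
    | zero => simp
    | succ L ih => rw [sum_range_succ, add_mul, ih]; ring
  rw [← norm_mul, e]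
  calc _ ≤ ‖z‖ + ‖z ^ (L + 1)‖ := norm_sub_le _ _
    _ = 2 := by rw [norm_pow, hz]; norm_num

theorem st_scale {z : ℂ} (hz : ‖z‖ = 1) (L : ℕ) (hL : 0 < L) :
    ‖∑ k ∈ range L, (z ^ (k + 1) - conj z ^ (k + 1))‖ / L ≤
      24 * (2 * (L * ‖1 - z‖) / (1 + 2 * (L * ‖1 - z‖)) - L * ‖1 - z‖ / (1 + L * ‖1 - z‖)) := by
  have hz' : ‖conj z‖ = 1 := by rw [Complex.norm_conj, hz]
  have ht : ‖1 - conj z‖ = ‖1 - z‖ := by
    rw [← Complex.norm_conj (1 - z), map_sub, map_one]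
  have hL' : (0 : ℝ) < L := by exact_mod_cast hL
  set S := ‖∑ k ∈ range L, (z ^ (k + 1) - conj z ^ (k + 1))‖ with hS
  set t := ‖1 - z‖ with htd
  have t0 : 0 ≤ t := norm_nonneg _
  have S0 : 0 ≤ S := norm_nonneg _
  have h1 : S ≤ L * (2 * (L * t)) := by
    calc S ≤ ∑ k ∈ range L, ‖z ^ (k + 1) - conj z ^ (k + 1)‖ := norm_sum_le _ _
      _ ≤ ∑ _k ∈ range L, 2 * (L * t) := by
        refine sum_le_sum fun k hk => ?_
        have hk' : ((k + 1 : ℕ) : ℝ) ≤ L := by exact_mod_cast mem_range.1 hk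
        have e : z ^ (k + 1) - conj z ^ (k + 1) = (z ^ (k + 1) - 1) - (conj z ^ (k + 1) - 1) := by
          ring
        have a1 := st_pow_sub hz (k + 1)
        have a2 := st_pow_sub hz' (k + 1)
        rw [ht] at a2
        have a3 : ((k + 1 : ℕ) : ℝ) * t ≤ L * t := mul_le_mul_of_nonneg_right hk' t0
        rw [e]
        exact (norm_sub_le _ _).trans (by linarith)
      _ = _ := by rw [sum_const, card_range, nsmul_eq_mul]
  have h2 : S * t ≤ 4 := by
    have a1 := st_geom hz L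
    have a2 := st_geom hz' L
    rw [ht] at a2
    have a3 : S ≤ ‖∑ k ∈ range L, z ^ (k + 1)‖ + ‖∑ k ∈ range L, conj z ^ (k + 1)‖ := by
      rw [hS, sum_sub_distrib]; exact norm_sub_le _ _
    nlinarith [mul_le_mul_of_nonneg_right a3 t0]
  set x := (L : ℝ) * t with hx
  have x0 : 0 ≤ x := mul_nonneg hL'.le t0
  set β := S / L with hβ
  have β0 : 0 ≤ β := div_nonneg S0 hL'.le
  have b1 : β ≤ 2 * x := by rw [hβ, div_le_iff₀ hL']; linarith
  have b2 : β * x ≤ 4 := by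
    have : β * x = S * t := by rw [hβ, hx]; field_simp
    linarith
  have e : 24 * (2 * x / (1 + 2 * x) - x / (1 + x)) = 24 * x / ((1 + x) * (1 + 2 * x)) := by
    field_simp; ring
  rw [e, le_div_iff₀ (by positivity)]
  have b3 : β * x * x ≤ 4 * x := mul_le_mul_of_nonneg_right b2 x0
  nlinarith [mul_nonneg β0 (sq_nonneg (x - 1))]

theorem st_tele {t : ℝ} (t0 : 0 ≤ t) (J : ℕ) :
    ∑ j ∈ range J, (2 * (((2 ^ j : ℕ) : ℝ) * t) / (1 + 2 * (((2 ^ j : ℕ) : ℝ) * t))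
      - ((2 ^ j : ℕ) : ℝ) * t / (1 + ((2 ^ j : ℕ) : ℝ) * t)) ≤ 1 := by
  have e := sum_range_sub (fun j => ((2 ^ j : ℕ) : ℝ) * t / (1 + ((2 ^ j : ℕ) : ℝ) * t)) J
  have e2 : ∀ j : ℕ, ((2 ^ (j + 1) : ℕ) : ℝ) * t = 2 * (((2 ^ j : ℕ) : ℝ) * t) := fun j => by
    push_cast; ring
  simp only [e2] at e
  rw [e]
  have a1 : 0 ≤ ((2 ^ 0 : ℕ) : ℝ) * t / (1 + ((2 ^ 0 : ℕ) : ℝ) * t) := by positivity
  have a2 : ((2 ^ J : ℕ) : ℝ) * t / (1 + ((2 ^ J : ℕ) : ℝ) * t) ≤ 1 := by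
    rw [div_le_one (by positivity)]; linarith
  linarith

theorem st_sum (J : ℕ) (F : ℕ → ℂ) :
    ∑ k ∈ range (2 ^ J), ((∑ j ∈ range J, (if k < 2 ^ j then (1 : ℝ) / (2 ^ j : ℕ) else 0) / J : ℝ) : ℂ)
      * F k = ∑ j ∈ range J, (∑ k ∈ range (2 ^ j), F k) / (2 ^ j : ℕ) / J := by
  simp only [Complex.ofReal_sum, sum_mul]
  rw [sum_comm]
  refine sum_congr rfl fun j hj => ?_
  have hsub : range (2 ^ j) ⊆ range (2 ^ J) :=
    range_subset_range.2 (Nat.pow_le_pow_right (by norm_num) (mem_range.1 hj).le)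
  rw [sum_div, sum_div, ← sum_subset hsub]
  · refine sum_congr rfl fun k hk => ?_
    rw [if_pos (mem_range.1 hk)]
    push_cast; ring
  · intro k _ hk
    rw [if_neg (fun h => hk (mem_range.2 h))]
    simp

theorem exists_weights {δ : ℝ} (hδ : 0 < δ) : ∃ (N : ℕ) (c : ℕ → ℝ), (∀ k, 0 ≤ c k) ∧
    ∑ k ∈ range N, c k = 1 ∧ ∀ z : ℂ, ‖z‖ = 1 →
      ‖∑ k ∈ range N, (c k : ℂ) * (z ^ (k + 1) - conj z ^ (k + 1))‖ ≤ δ := by
  obtain ⟨J, hJ⟩ := exists_nat_gt (24 / δ)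
  have J0 : (0 : ℝ) < J := lt_trans (by positivity) hJ
  have J0' : (J : ℂ) ≠ 0 := by exact_mod_cast J0.ne'
  refine ⟨2 ^ J, fun k => ∑ j ∈ range J, (if k < 2 ^ j then (1 : ℝ) / (2 ^ j : ℕ) else 0) / J,
    fun k => sum_nonneg fun j _ => div_nonneg (by split_ifs <;> positivity) J0.le, ?_,
    fun z hz => ?_⟩
  · have h := st_sum J fun _ => 1
    simp only [mul_one] at h
    rw [← Complex.ofReal_sum] at h
    have e : ∀ j : ℕ, (∑ _k ∈ range (2 ^ j), (1 : ℂ)) / (2 ^ j : ℕ) = 1 := fun j => by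
      rw [sum_const, card_range, nsmul_eq_mul, mul_one, div_self]
      exact_mod_cast (by positivity : (2 ^ j : ℕ) ≠ 0)
    simp only [e] at h
    rw [sum_const, card_range, nsmul_eq_mul, mul_one_div_cancel J0'] at h
    exact_mod_cast h
  · rw [st_sum J fun k => z ^ (k + 1) - conj z ^ (k + 1)]
    calc _ ≤ ∑ j ∈ range J, ‖(∑ k ∈ range (2 ^ j), (z ^ (k + 1) - conj z ^ (k + 1)))
          / (2 ^ j : ℕ) / (J : ℂ)‖ := norm_sum_le _ _
      _ ≤ ∑ j ∈ range J, 24 * (2 * (((2 ^ j : ℕ) : ℝ) * ‖1 - z‖)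
            / (1 + 2 * (((2 ^ j : ℕ) : ℝ) * ‖1 - z‖))
          - ((2 ^ j : ℕ) : ℝ) * ‖1 - z‖ / (1 + ((2 ^ j : ℕ) : ℝ) * ‖1 - z‖)) / J := by
        refine sum_le_sum fun j _ => ?_
        rw [norm_div, norm_div, Complex.norm_natCast, Complex.norm_natCast]
        exact div_le_div_of_nonneg_right (st_scale hz _ (by positivity)) J0.le
      _ ≤ 24 * 1 / J := by
        rw [← sum_div, ← mul_sum]
        exact div_le_div_of_nonneg_right
          (mul_le_mul_of_nonneg_left (st_tele (norm_nonneg _) J) (by norm_num)) J0.le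
      _ ≤ δ := by
        rw [div_lt_iff₀ hδ] at hJ
        rw [div_le_iff₀ J0]; linarith

theorem st_pow_eig {f w : A} {μ : ℂ} {η : ℝ} (hw : ‖w‖ ≤ 1) (hμ : ‖μ‖ = 1)
    (h : ‖f * w - μ • f‖ ≤ η) (k : ℕ) : ‖f * w ^ k - μ ^ k • f‖ ≤ k * η := by
  induction k with
  | zero => simp
  | succ k ih =>
    have e : f * w ^ (k + 1) - μ ^ (k + 1) • f
        = (f * w ^ k - μ ^ k • f) * w + μ ^ k • (f * w - μ • f) := by
      rw [pow_succ, pow_succ, sub_mul, smul_sub, smul_mul_assoc, smul_smul, mul_assoc]; abel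
    rw [e]
    have a1 : ‖(f * w ^ k - μ ^ k • f) * w‖ ≤ k * η :=
      (norm_mul_le _ _).trans ((mul_le_of_le_one_right (norm_nonneg _) hw).trans ih)
    have a2 : ‖μ ^ k • (f * w - μ • f)‖ ≤ η := by
      rw [norm_smul, norm_pow, hμ, one_pow, one_mul]; exact h
    calc _ ≤ _ := norm_add_le _ _
      _ ≤ k * η + η := add_le_add a1 a2
      _ = _ := by push_cast; ring

theorem st_poly {u : A} (hu : u ∈ unitary A) {N : ℕ} {c : ℕ → ℝ} {δ : ℝ}
    (h : ∀ z : ℂ, ‖z‖ = 1 → ‖∑ k ∈ range N, (c k : ℂ) * (z ^ (k + 1) - conj z ^ (k + 1))‖ ≤ δ) :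
    ‖∑ k ∈ range N, (c k : ℂ) • (u ^ (k + 1) - star u ^ (k + 1))‖ ≤ δ := by
  have δ0 : 0 ≤ δ := (norm_nonneg _).trans (h 1 norm_one)
  have : IsStarNormal u := ⟨by
    change star u * u = u * star u
    rw [hu.1, hu.2]⟩
  have e : ∑ k ∈ range N, (c k : ℂ) • (u ^ (k + 1) - star u ^ (k + 1))
      = cfc (fun z : ℂ => ∑ k ∈ range N, (c k : ℂ) * (z ^ (k + 1) - star z ^ (k + 1))) u := by
    have e1 : (fun z : ℂ => ∑ k ∈ range N, (c k : ℂ) * (z ^ (k + 1) - star z ^ (k + 1)))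
        = ∑ k ∈ range N, fun z : ℂ => (c k : ℂ) * (z ^ (k + 1) - star z ^ (k + 1)) := by
      ext z; simp only [Finset.sum_apply]
    rw [e1, cfc_sum _ _ _ (fun k _ => by fun_prop)]
    refine sum_congr rfl fun k _ => ?_
    rw [cfc_const_mul _ _ _ (by fun_prop), cfc_sub _ _ _ (by fun_prop) (by fun_prop),
      cfc_pow_id u (k + 1), cfc_pow (fun z : ℂ => star z) (k + 1) u (by fun_prop), cfc_star_id u]
  rw [e]
  refine norm_cfc_le δ0 fun z hz => h z ?_
  have := spectrum.subset_circle_of_unitary hu hz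
  simpa using this

theorem st_n2_part [Tr A] {f : κ → A} (hf : IsPart f) (x : A) :
    n2 x ^ 2 = ∑ j, n2 (f j * x) ^ 2 := by
  simp only [n2_sq']
  rw [← map_sum]
  congr 1
  have : ∀ j, star (f j * x) * (f j * x) = star x * f j * x := fun j => by
    rw [star_mul, hf.star_eq]
    calc _ = star x * (f j * f j) * x := by simp only [mul_assoc]
      _ = _ := by rw [hf.idem]
  simp only [this]
  rw [← sum_mul, ← mul_sum, hf.sum, mul_one]

theorem st_n2_le [Tr A] {f : κ → A} (hf : IsPart f) {x : A} {r : ℝ} (r0 : 0 ≤ r)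
    (h : ∀ j, ‖f j * x‖ ≤ r) : n2 x ≤ r := by
  refine (sq_le_sq₀ (n2_nonneg _) r0).1 ?_
  rw [st_n2_part hf]
  calc _ ≤ ∑ j, tr (f j) * r ^ 2 := by
        refine sum_le_sum fun j _ => ?_
        have e : f j * x = f j * (f j * x) := by rw [← mul_assoc, hf.idem]
        have a1 : n2 (f j * x) ≤ n2 (f j) * r := by
          rw [e]
          exact (n2_mul_le' _ _).trans (mul_le_mul_of_nonneg_left (h j) (n2_nonneg _))
        rw [← n2_proj (hf.proj j), ← mul_pow]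
        exact pow_le_pow_left₀ (n2_nonneg _) a1 2
    _ = r ^ 2 := by rw [← sum_mul, ← map_sum, hf.sum, tr_one, one_mul]

theorem star_bound [Tr A] (hR : Rickart A) {s : A} (hs : s ∈ unitary A) {φ : A →ₗ[ℂ] A}
    (hφ : ∀ a, ‖φ a‖ ≤ ‖a‖) {N : ℕ} {c : ℕ → ℝ} {δ : ℝ}
    (h : ∀ z : ℂ, ‖z‖ = 1 → ‖∑ k ∈ range N, (c k : ℂ) * (z ^ (k + 1) - conj z ^ (k + 1))‖ ≤ δ)
    {a : A} (ha : ‖a‖ ≤ 1) :
    n2 (∑ k ∈ range N, (c k : ℂ) • (star s ^ (k + 1) * φ (s ^ (k + 1) * a)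
      - s ^ (k + 1) * φ (star s ^ (k + 1) * a))) ≤ δ := by
  have δ0 : 0 ≤ δ := (norm_nonneg _).trans (h 1 norm_one)
  set C : ℝ := ∑ k ∈ range N, |c k| * (2 * ((k + 1 : ℕ) : ℝ)) with hC
  have C0 : 0 ≤ C := sum_nonneg fun k _ => by positivity
  have hs1 : ∀ {u : A}, u ∈ unitary A → ‖u‖ ≤ 1 := fun {u} hu => by
    have := CStarRing.norm_star_mul_self (x := u)
    rw [hu.1] at this
    have h1 : ‖(1 : A)‖ ≤ 1 := by
      rcases subsingleton_or_nontrivial A with hA | hA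
      · simp [Subsingleton.elim (1 : A) 0]
      · simp
    nlinarith [norm_nonneg u]
  have hss : star s ∈ unitary A := Unitary.star_mem hs
  have key : ∀ η : ℝ, 0 < η → n2 (∑ k ∈ range N, (c k : ℂ) • (star s ^ (k + 1) * φ (s ^ (k + 1) * a)
      - s ^ (k + 1) * φ (star s ^ (k + 1) * a))) ≤ δ + C * η := by
    intro η hη
    obtain ⟨κ, _, f, hf, hc, hθ⟩ := exists_spec hR hs hη
    refine st_n2_le hf (by positivity) fun j => ?_
    obtain ⟨θ, hθ1, hθ2⟩ := hθ j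
    have hθ1' : ‖conj θ‖ = 1 := by rw [Complex.norm_conj, hθ1]
    have hθθ : conj θ * θ = 1 := by
      rw [Complex.conj_mul', hθ1]; simp
    have b1 : ‖f j * s - θ • f j‖ ≤ η := by rw [← hc]; exact hθ2
    have b2 : ‖f j * star s - conj θ • f j‖ ≤ η := by
      rw [← norm_star, star_sub, star_mul, star_star, hf.star_eq, star_smul, hf.star_eq]
      simpa using hθ2
    have hu : conj θ • s ∈ unitary A := by
      constructor
      · rw [star_smul, smul_mul_smul_comm, hs.1]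
        simp [mul_comm θ, hθθ]
      · rw [star_smul, smul_mul_smul_comm, hs.2]
        simp [hθθ]
    have hP := st_poly hu h
    set P := ∑ k ∈ range N, (c k : ℂ) • ((conj θ • s) ^ (k + 1) - star (conj θ • s) ^ (k + 1))
      with hPd
    have e : f j * ∑ k ∈ range N, (c k : ℂ) • (star s ^ (k + 1) * φ (s ^ (k + 1) * a)
        - s ^ (k + 1) * φ (star s ^ (k + 1) * a)) = f j * φ (P * a) +
        ∑ k ∈ range N, (c k : ℂ) • ((f j * star s ^ (k + 1) - conj θ ^ (k + 1) • f j)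
          * φ (s ^ (k + 1) * a)
        - (f j * s ^ (k + 1) - θ ^ (k + 1) • f j) * φ (star s ^ (k + 1) * a)) := by
      rw [hPd, sum_mul, map_sum, mul_sum, mul_sum, ← sum_add_distrib]
      refine sum_congr rfl fun k _ => ?_
      have e1 : star (conj θ • s) = θ • star s := by rw [star_smul]; simp
      rw [e1, smul_pow, smul_pow]
      simp only [smul_mul_assoc, map_smul, sub_mul, map_sub, mul_smul_comm, mul_sub, smul_sub,
        mul_assoc]
      abel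
    rw [e]
    refine (norm_add_le _ _).trans (add_le_add ?_ ?_)
    · calc _ ≤ ‖f j‖ * ‖φ (P * a)‖ := norm_mul_le _ _
        _ ≤ ‖φ (P * a)‖ := mul_le_of_le_one_left (norm_nonneg _) (hf.norm_le j)
        _ ≤ ‖P‖ * ‖a‖ := (hφ _).trans (norm_mul_le _ _)
        _ ≤ ‖P‖ := mul_le_of_le_one_right (norm_nonneg _) ha
        _ ≤ δ := hP
    · rw [hC, sum_mul]
      refine (norm_sum_le _ _).trans (sum_le_sum fun k _ => ?_)
      have c1 : ∀ {u : A}, u ∈ unitary A → ‖φ (u ^ (k + 1) * a)‖ ≤ 1 := fun {u} hu =>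
        (hφ _).trans ((norm_mul_le _ _).trans (mul_le_one₀ (hs1 (pow_mem hu _)) (norm_nonneg _) ha))
      have d1 := st_pow_eig (hs1 hss) hθ1' b2 (k + 1)
      have d2 := st_pow_eig (hs1 hs) hθ1 b1 (k + 1)
      have g1 := (norm_mul_le _ _).trans
        ((mul_le_of_le_one_right (norm_nonneg _) (c1 hs)).trans d1)
      have g2 := (norm_mul_le _ _).trans
        ((mul_le_of_le_one_right (norm_nonneg _) (c1 hss)).trans d2)
      rw [norm_smul, Complex.norm_real, Real.norm_eq_abs, mul_assoc]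
      refine mul_le_mul_of_nonneg_left ((norm_sub_le _ _).trans ?_) (abs_nonneg _)
      linarith
  refine le_of_forall_pos_le_add fun ε hε => ?_
  refine (key (ε / (C + 1)) (by positivity)).trans ?_
  have : C * (ε / (C + 1)) ≤ ε := by
    rw [← mul_div_assoc, div_le_iff₀ (by positivity)]; nlinarith
  linarith

end Vale.Agent.P082
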