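import Vale.Agent.P082.Wick
import Vale.Agent.P082.Star

/-! Fixed points of products of averages are almost modular. -/

set_option linter.unusedSectionVars false

namespace Vale.Agent.P082

open Filter Topology Finset Vale.Agent.P104
open scoped InnerProductSpace ComplexOrder ComplexConjugate

universe u v

variable {A : Type u} [CStarAlgebra A] {ι κ : Type} [Fintype ι] [Fintype κ]
variable [Tr A]

section

variable {C : Type} {e : C → ι → A} {p : ℕ} [NeZero p]

/-- Repetition of a word. -/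
def kyRp (k : ℕ) (L : List C) : List C := (List.replicate k L).flatten

theorem ky_succ (k : ℕ) (L : List C) : kyRp (k + 1) L = L ++ kyRp k L := rfl

theorem ky_length (k : ℕ) (L : List C) : (kyRp k L).length = k * L.length := by
  simp [kyRp]

theorem ky_pr (k : ℕ) (L : List C) (ϖ : C → ι → ZMod p) :
    pr e id (kyRp k L) ϖ = pr e id L ϖ ^ k := by
  induction k with
  | zero => simp [kyRp, pr_nil]
  | succ k ih => rw [ky_succ, pr_append, ih, pow_succ']

theorem ky_star (he : ∀ j, IsPart (e j)) (L : List C) (ϖ : C → ι → ZMod p) :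
    star (pr e id L ϖ) = pr e id L.reverse (-ϖ) := by
  induction L with
  | nil => simp [pr_nil]
  | cons j L ih =>
    rw [pr_cons, star_mul, ih, List.reverse_cons, pr_append, pr_cons, pr_nil, mul_one,
      (he _).star_Lam]
    rfl

theorem ky_fix {L : List C} {φ : A →ₗ[ℂ] A} (h : avgW e L φ = φ) (k : ℕ) :
    avgW e (kyRp k L) φ = φ := by
  induction k with
  | zero => rfl
  | succ k ih => rw [ky_succ, avgW_append, h, ih]

theorem ky_chain {x t : C} {M : List C} (h : (x :: (M ++ [t])).Nodup) (k : ℕ) :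
    List.IsChain (· ≠ ·) (t :: kyRp k (x :: (M ++ [t]))) := by
  induction k with
  | zero => simp [kyRp]
  | succ k ih =>
    have h1 : t ≠ x := fun h' => (List.nodup_cons.1 h).1 (by simp [h'])
    have h2 : List.IsChain (· ≠ ·) (t :: x :: (M ++ [t])) :=
      List.isChain_cons_cons.2 ⟨h1, List.Pairwise.isChain h⟩
    have := List.isChain_split (R := (· ≠ ·)) (l₁ := t :: x :: M) (c := t)
      (l₂ := kyRp k (x :: (M ++ [t])))
    simpa [ky_succ] using this.2 ⟨by simpa using h2, ih⟩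

theorem ky_mod (he : ∀ j, IsPart (e j)) (x : C) (M L : List C) (k : ℕ) (φ : A →ₗ[ℂ] A) :
    Mod (e x) (avgW e (M ++ [x] ++ kyRp k (L ++ [x])) φ) := by
  induction k generalizing M with
  | zero =>
    rw [show kyRp 0 (L ++ [x]) = [] from rfl, List.append_nil, avgW_append]
    exact (he x).mod_avg _
  | succ k ih =>
    have := ih (M ++ [x] ++ L)
    simpa only [ky_succ, List.append_assoc] using this

theorem ky_scale {Δ : A →ₗ[ℂ] A} {r : ℝ} (h : ∀ a, ‖a‖ ≤ 1 → n2 (Δ a) ≤ r) (a : A) :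
    n2 (Δ a) ≤ r * ‖a‖ := by
  rcases eq_or_ne a 0 with rfl | ha
  · simp [n2_zero]
  · have h0 : 0 < ‖a‖ := norm_pos_iff.2 ha
    have := h (((‖a‖⁻¹ : ℝ) : ℂ) • a) (by
      rw [norm_smul, Complex.norm_real, Real.norm_of_nonneg (by positivity), inv_mul_cancel₀ h0.ne'])
    rwa [map_smul, n2_smul, Complex.norm_real, Real.norm_of_nonneg (by positivity),
      inv_mul_le_iff₀ h0, mul_comm] at this

end

theorem key (hR : Rickart A) (m : ℕ) {δ : ℝ} (hδ : 0 < δ) : ∃ ε : ℝ, 0 < ε ∧
    ∀ (ι C : Type) [Fintype ι] [Fintype C] (e : C → ι → A), (∀ j, IsPart (e j)) →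
      (∀ j j', j ≠ j' → mix (e j) (e j') ≤ ε) → ∀ (j : C) (w : List C), (j :: w).Nodup → w ≠ [] →
      w.length ≤ m → ∀ φ : A →ₗ[ℂ] A, BB φ → avgW e (j :: w) φ = φ →
      ∀ a, n2 (φ a - avg (e j) φ a) ≤ δ * ‖a‖ := by
  classical
  have hd : 0 < δ ^ 2 / 24 := by positivity
  obtain ⟨N, c, c0, c1, hc⟩ := exists_weights hd
  obtain ⟨ε, hε, hdec⟩ := decouple hR (N * (m + 1)) hd
  refine ⟨ε, hε, ?_⟩
  intro ι C _ _ e he hmix j w hnd hw hlen φ hφ hfix
  obtain ⟨M, t, rfl⟩ : ∃ M t, w = M ++ [t] := ⟨_, _, (List.dropLast_append_getLast hw).symm⟩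
  have hdec' := hdec ι C (N * (m + 1) + 3) e (by omega) (by omega) he hmix
  have hm : Mod (e t) φ := by
    rw [← hfix, ← List.cons_append, avgW_append]
    exact (he t).mod_avg _
  have hrev : (j :: (M ++ [t])).reverse = t :: (M.reverse ++ [j]) := by simp
  have hnd' : (t :: (M.reverse ++ [j])).Nodup := by rw [← hrev]; exact List.nodup_reverse.2 hnd
  let w' : ℕ → List C := fun k => M.reverse ++ [j] ++ kyRp k (t :: M.reverse ++ [j])
  let ψ : ℕ → A →ₗ[ℂ] A := fun k => avgW e (w' k) φ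
  have hlen' : ∀ k ∈ range N, (k + 1) * (j :: (M ++ [t])).length ≤ N * (m + 1) := fun k hk =>
    Nat.mul_le_mul (mem_range.1 hk) (by simpa using hlen)
  let Δ : A →ₗ[ℂ] A := φ - ∑ k ∈ range N, (c k : ℂ) • ψ k
  have c2 : ∑ k ∈ range N, (c k : ℂ) = 1 := by exact_mod_cast c1
  have h1 : ∀ y a : A, ‖y‖ ≤ 1 → ‖a‖ ≤ 1 → ‖τ (y * Δ a)‖ ≤ δ ^ 2 / 8 := fun y a hy ha => by
    let s : (C → ι → ZMod (N * (m + 1) + 3)) → A := pr e id (j :: (M ++ [t]))
    let P : ℕ → ℂ := fun k => Ex fun ϖ => τ (y * (star (s ϖ) ^ (k + 1) * φ (s ϖ ^ (k + 1) * a)))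
    let Q : ℕ → ℂ := fun k => Ex fun ϖ => τ (y * (s ϖ ^ (k + 1) * φ (star (s ϖ) ^ (k + 1) * a)))
    have hP : ∀ k ∈ range N, ‖P k - τ (y * φ a)‖ ≤ δ ^ 2 / 24 := fun k hk => by
      have := hdec' (kyRp (k + 1) (j :: (M ++ [t]))) t (by rw [ky_length]; exact hlen' k hk)
        (ky_chain hnd _) φ hφ hm y a hy ha
      simpa only [ky_fix hfix, ky_pr, star_pow, mul_assoc] using this
    have hQ : ∀ k ∈ range N, ‖Q k - τ (y * ψ k a)‖ ≤ δ ^ 2 / 24 := fun k hk => by
      have h2 := (ky_chain hnd' (k + 1)).tail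
      have h3 : (w' k).length ≤ N * (m + 1) := by
        refine le_trans ?_ (hlen' k hk)
        simp only [w', List.length_append, ky_length, List.length_cons, List.length_reverse,
          List.length_nil]
        nlinarith
      have := hdec' (w' k) t h3 h2 φ hφ hm y a hy ha
      rw [← Ex_equiv (Equiv.neg _)] at this
      refine le_trans (le_of_eq ?_) this
      refine congrArg (fun z => ‖z - _‖) (congrArg Ex (funext fun ϖ => ?_))
      have h4 : star (s ϖ) ^ (k + 1) = Lam (e t) ((-ϖ) t) * pr e id (w' k) (-ϖ) := by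
        rw [ky_star he, hrev, ← ky_pr]
        rfl
      have h5 : s ϖ ^ (k + 1) = star (pr e id (w' k) (-ϖ)) * star (Lam (e t) ((-ϖ) t)) := by
        rw [← star_mul, ← h4, ← star_pow, star_star]
      rw [h4, h5, mul_assoc (Lam _ _), hm.Lam, mul_assoc (star _), ← mul_assoc (star (Lam _ _)),
        ((he t).Lam_mem _).1, one_mul, ← mul_assoc]
      rfl
    have hG : ‖∑ k ∈ range N, (c k : ℂ) * (P k - Q k)‖ ≤ δ ^ 2 / 24 := by
      have h2 : ∑ k ∈ range N, (c k : ℂ) * (P k - Q k) = Ex fun ϖ => τ (y * ∑ k ∈ range N,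
          (c k : ℂ) • (star (s ϖ) ^ (k + 1) * φ (s ϖ ^ (k + 1) * a)
            - s ϖ ^ (k + 1) * φ (star (s ϖ) ^ (k + 1) * a))) := by
        simp only [mul_sum, map_sum, Ex_sum, mul_smul_comm, map_smul, smul_eq_mul, ← mul_Ex,
          mul_sub y, map_sub, Ex_sub, P, Q]
      rw [h2]
      refine (norm_Ex_le _).trans (Ex_le fun ϖ => (norm_τ_mul_le _ _).trans ?_)
      have h3 := star_bound hR (pr_mem (c := id) he (j :: (M ++ [t])) ϖ) hφ.b1 hc ha
      exact (mul_le_mul ((n2_le_norm y).trans hy) h3 (n2_nonneg _) zero_le_one).trans_eq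
        (one_mul _)
    have h6 : τ (y * Δ a) = ∑ k ∈ range N, (c k : ℂ) * (P k - Q k) + ∑ k ∈ range N,
        (c k : ℂ) * ((Q k - τ (y * ψ k a)) - (P k - τ (y * φ a))) := by
      rw [← sum_add_distrib]
      simp only [Δ, LinearMap.sub_apply, LinearMap.sum_apply, LinearMap.smul_apply, mul_sub,
        mul_sum, map_sub, map_sum, mul_smul_comm, map_smul, smul_eq_mul]
      have h8 : τ (y * φ a) = ∑ k ∈ range N, (c k : ℂ) * τ (y * φ a) := by
        rw [← sum_mul, c2, one_mul]
      refine (congrArg (· - _) h8).trans ?_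
      rw [← sum_sub_distrib]
      exact sum_congr rfl fun k _ => by ring
    have h7 : ‖∑ k ∈ range N, (c k : ℂ) * ((Q k - τ (y * ψ k a)) - (P k - τ (y * φ a)))‖
        ≤ ∑ k ∈ range N, c k * (δ ^ 2 / 12) := by
      refine (norm_sum_le _ _).trans (sum_le_sum fun k hk => ?_)
      rw [norm_mul, Complex.norm_real, Real.norm_of_nonneg (c0 k)]
      refine mul_le_mul_of_nonneg_left ((norm_sub_le _ _).trans ?_) (c0 k)
      linarith [hP k hk, hQ k hk]
    rw [← sum_mul, c1, one_mul] at h7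
    rw [h6]
    refine (norm_add_le _ _).trans ?_
    linarith
  have h2 : ∀ a, n2 (Δ a) ≤ δ / 2 * ‖a‖ := ky_scale fun a ha => by
    have a1 : ‖Δ a‖ ≤ 2 := by
      have a2 : ‖∑ k ∈ range N, (c k : ℂ) • ψ k a‖ ≤ ∑ k ∈ range N, c k := by
        refine (norm_sum_le _ _).trans (sum_le_sum fun k _ => ?_)
        rw [norm_smul, Complex.norm_real, Real.norm_of_nonneg (c0 k)]
        exact mul_le_of_le_one_right (c0 k) (((hφ.avgW he _).b1 a).trans ha)
      simp only [Δ, LinearMap.sub_apply, LinearMap.sum_apply, LinearMap.smul_apply]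
      linarith [norm_sub_le (φ a) (∑ k ∈ range N, (c k : ℂ) • ψ k a), hφ.b1 a]
    have a3 := h1 ((1 / 2 : ℂ) • star (Δ a)) a (by
      rw [norm_smul, norm_star]; norm_num; linarith) ha
    rw [smul_mul_assoc, map_smul, τ_star_mul_self, norm_smul, Complex.norm_real,
      Real.norm_of_nonneg (by positivity)] at a3
    norm_num at a3
    exact (pow_le_pow_iff_left₀ (n2_nonneg _) (by positivity) two_ne_zero).1 (by linarith)
  intro a
  have h3 : φ a - avg (e j) φ a = Δ a - avg (e j) Δ a := by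
    have h4 : Mod (e j) (∑ k ∈ range N, (c k : ℂ) • ψ k) := fun i b => by
      simp only [LinearMap.sum_apply, LinearMap.smul_apply, mul_sum, mul_smul_comm]
      exact sum_congr rfl fun k _ => by rw [ky_mod he j M.reverse (t :: M.reverse) k φ i b]
    simp only [Δ, avg_sub, h4.avg_eq (he j), LinearMap.sub_apply]
    abel
  rw [h3]
  linarith [n2_sub_le (Δ a) (avg (e j) Δ a), h2 a, (he j).n2_avg_le' h2 a]

theorem core (hR : Rickart A) (hH : Halv A) (Q : Finset A) (hQ : ∀ q ∈ Q, IsStarProjection q)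
    {δ : ℝ} (hδ : 0 < δ) : ∃ (ι C : Type) (_ : Fintype ι) (e : C → ι → A) (w : List C),
      (∀ j, IsPart (e j)) ∧ ∀ φ : A →ₗ[ℂ] A, BB φ → avgW e w φ = φ →
        ∀ q ∈ Q, n2 (φ q - q * φ 1) ≤ δ := by
  classical
  let n := Q.card + 2
  let q : Fin n → A := fun j => if h : j.1 < Q.card then (Q.equivFin.symm ⟨j, h⟩ : Q) else 0
  have hq : ∀ j, IsStarProjection (q j) := fun j => by
    simp only [q]
    split_ifs
    exacts [hQ _ (Subtype.prop _), IsStarProjection.zero A]
  have hd : 0 < δ / (2 * n) := by positivity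
  obtain ⟨ε, hε, hk⟩ := key hR n hd
  obtain ⟨ι, _, e, he, h1, h2⟩ := exists_mix_family hR hH q hq hε
  refine ⟨ι, Fin n, inferInstance, e, List.finRange n, he, fun φ hφ hfix x hx => ?_⟩
  have h3 : ∀ L1 L2, List.finRange n = L1 ++ L2 → avgW e (L2 ++ L1) (avgW e L1 φ) = avgW e L1 φ :=
    fun L1 L2 h => by rw [avgW_append, ← avgW_append e L1, ← h, hfix]
  have h4 : ∀ L1 L2, List.finRange n = L1 ++ L2 →
      ∀ a, n2 (φ a - avgW e L1 φ a) ≤ L1.length * (δ / (2 * n)) * ‖a‖ := fun L1 => by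
    induction L1 using List.reverseRecOn with
    | nil => intro L2 _ a; simp [avgW_nil, n2_zero]
    | append_singleton L1 j ih =>
      intro L2 h a
      rw [List.append_assoc, List.singleton_append] at h
      have a1 : (j :: (L2 ++ L1)).Nodup := by
        have := List.nodup_finRange n
        rw [h] at this
        exact List.perm_append_comm.nodup_iff.1 this
      have a2 : (L2 ++ L1).length + 1 = n := by
        have := congrArg List.length h
        simp only [List.length_finRange, List.length_append, List.length_cons] at this ⊢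
        omega
      have a3 := hk ι (Fin n) e he h2 j (L2 ++ L1) a1
        (fun h0 => by rw [h0] at a2; simp [n] at a2) (by omega) _ (hφ.avgW he L1) (h3 _ _ h) a
      have a4 := n2_triangle (φ a) (avgW e L1 φ a) (avg (e j) (avgW e L1 φ) a)
      rw [avgW_append, List.length_append, List.length_singleton]
      push_cast
      change n2 (φ a - avg (e j) (avgW e L1 φ) a) ≤ _
      linarith [ih _ h a]
  let j : Fin n := ⟨Q.equivFin ⟨x, hx⟩, (Q.equivFin ⟨x, hx⟩).2.trans (by omega)⟩
  have hj : q j = x := by simp [q, j]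
  obtain ⟨L1, L2, h⟩ := List.append_of_mem (List.mem_finRange j)
  have a1 := h4 (L1 ++ [j]) L2 (by simpa using h)
  have a2 : Mod (e j) (avgW e (L1 ++ [j]) φ) := by
    rw [avgW_append]; exact (he j).mod_avg _
  have a3 : ((L1 ++ [j]).length : ℝ) * (δ / (2 * n)) ≤ δ / 2 := by
    have a4 : (L1 ++ [j]).length ≤ n := by
      have := congrArg List.length h
      simp only [List.length_finRange, List.length_append, List.length_cons,
        List.length_nil] at this ⊢
      omega
    calc _ ≤ (n : ℝ) * (δ / (2 * n)) := mul_le_mul_of_nonneg_right (by exact_mod_cast a4) hd.le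
      _ = δ / 2 := by
        have : (n : ℝ) ≠ 0 := by positivity
        field_simp
  generalize avgW e (L1 ++ [j]) φ = ψ at a1 a2
  have a5 : ψ x = x * ψ 1 := by
    calc ψ x = ∑ i, ψ (x * e j i) := by rw [← map_sum, ← mul_sum, (he j).sum, mul_one]
      _ = ∑ i, x * e j i * ψ 1 := sum_congr rfl fun i _ => by
          rcases h1 j i with h5 | h5 <;> rw [hj] at h5 <;> rw [h5]
          · rw [← a2, mul_one]
          · simp
      _ = _ := by rw [← sum_mul, ← mul_sum, (he j).sum, mul_one]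
  have a6 : φ x - x * φ 1 = (φ x - ψ x) - x * (φ 1 - ψ 1) := by rw [a5, mul_sub]; abel
  have a7 : ‖x‖ ≤ 1 := (hQ x hx).norm_le
  have a8 : ‖(1 : A)‖ ≤ 1 := (IsStarProjection.one A).norm_le
  have a9 : ∀ b : A, ‖b‖ ≤ 1 → n2 (φ b - ψ b) ≤ δ / 2 := fun b hb =>
    (a1 b).trans ((mul_le_of_le_one_right (by positivity) hb).trans a3)
  rw [a6]
  linarith [n2_sub_le (φ x - ψ x) (x * (φ 1 - ψ 1)), n2_mul_le_of a7 (φ 1 - ψ 1), a9 x a7,
    a9 1 a8]

end Vale.Agent.P082
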