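import Vale.Agent.P082.Quasi
import Vale.Agent.P082.LQ

/-! Type decomposition. -/

set_option linter.unusedSectionVars false

namespace Vale.Agent.P082

open Filter Topology Finset Vale.Agent.P104
open scoped InnerProductSpace ComplexOrder ComplexConjugate

universe u v

variable {G : Type v} [NormedAddCommGroup G] [InnerProductSpace ℂ G] [CompleteSpace G]
  {M : Type u} [CStarAlgebra M] {ρ : M →⋆ₐ[ℂ] (G →L[ℂ] G)}

theorem IsVN.exists_quasi (h : IsVN ρ) {z : M} (hz : IsCP z) (z0 : z ≠ 0) (hf : ¬ InfSeq z) :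
    ∃ (J : Type) (_ : Fintype J) (ζ : J → G), (∃ j, ζ j ≠ 0) ∧ (∀ j, ρ z (ζ j) = ζ j) ∧
      ∀ x, ∑ j, ‖ρ x (ζ j)‖ ^ 2 ≤ 2 * ∑ j, ‖ρ (star x) (ζ j)‖ ^ 2 := by
  let _ := CStarAlgebra.spectralOrder M
  have _ := CStarAlgebra.spectralOrderedRing M
  have h := h.isWRep
  have hp := hz.proj
  obtain ⟨ξ, e₁, he₁, e0, a1, a2, a3⟩ := h.corner_PI hp z0 hf one_pos
  obtain ⟨y, J, _, w, hy, b1, b2, ww⟩ := ws_cover h.comparison hp he₁ e0 hf
  have hyz : IsCP (y * z) := ⟨hy.mul_proj hz.proj, fun a => by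
    rw [mul_assoc, hz.comm, ← mul_assoc, hy.comm, mul_assoc]⟩
  have zw : ∀ α, z * w α = w α := fun α => (b2 α).2.2.2
  have yw : ∀ α, y * z * w α = w α := fun α => by rw [mul_assoc, zw, (b2 _).2.2.1]
  have we : ∀ α, w α * e₁ = w α := fun α => (b2 α).2.1
  have hη : ∀ α x, ‖ρ x (ρ (w α) ξ)‖ ^ 2 = vf ρ ξ (star (w α) * (star x * x) * w α) :=
    fun α x => by
      rw [← ws_mul_apply, ← vf_star_mul]
      simp only [star_mul, mul_assoc]
  have hsplit : ∀ x α, vf ρ ξ (star (w α) * (star x * x) * w α) =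
      ∑ β, vf ρ ξ (star (star (w β) * x * w α) * (star (w β) * x * w α)) := fun x α => by
    rw [← map_sum]
    congr 1
    calc _ = star (w α) * star x * (∑ β, w β * star (w β)) * (x * w α) := by
          rw [ww, mul_assoc _ (y * z), ← mul_assoc (y * z), hyz.comm, mul_assoc x, yw]
          simp only [mul_assoc]
      _ = _ := by simp only [Finset.mul_sum, Finset.sum_mul, star_mul, star_star, mul_assoc]
  refine ⟨J, inferInstance, fun α => ρ (w α) ξ, ?_, fun α => by rw [← ws_mul_apply, zw],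
    fun x => ?_⟩
  · obtain ⟨α, hα⟩ : ∃ α, w α ≠ 0 := by
      by_contra hc
      push Not at hc
      refine b1 ?_
      rw [← a1, ← mul_assoc y, ← ww]
      simp [hc]
    refine ⟨α, fun h0 => ?_⟩
    have := a2 _ (b2 α).1 hα (we α)
    rw [vf_star_mul, show ρ (w α) ξ = 0 from h0] at this
    simp at this
  · simp only [hη, hsplit]
    rw [Finset.sum_comm, Finset.mul_sum]
    refine Finset.sum_le_sum fun β _ => ?_
    rw [Finset.mul_sum]
    refine Finset.sum_le_sum fun α _ => ?_
    have := h.rickart.corner (ρ := ρ) ξ (K := 1 + 1) (by norm_num) a3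
      (x := star (w β) * x * w α) (by rw [mul_assoc, we])
      (by rw [← mul_assoc e₁, ← mul_assoc e₁, ws_flip' he₁.isSelfAdjoint.star_eq (we β)])
    rw [one_add_one_eq_two] at this
    simpa only [star_mul, star_star, mul_assoc] using this

theorem pc_null_central (h : IsWRep ρ) [Tr M] {J : Type} (ζ : J → G)
    (hN : ∀ a : M, n2 a = 0 ↔ ∀ j, ρ a (ζ j) = 0) :
    ∃ r : M, IsCP r ∧ n2 r = 0 ∧ ∀ a, n2 a = 0 → (1 - r) * a = 0 := by
  obtain ⟨m, ⟨h1, h2, h3⟩, -, h5⟩ := h.zorn (κ := Unit) (fun v => star (v ()) = v () ∧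
    v () * v () = v () ∧ ∀ j, ρ (v ()) (ζ j) = 0) (by simp) fun ι l _ a x ha hx =>
    ⟨(hx ()).star.eq h (hx ()) (.of_forall fun i => (ha i).1),
      ((hx ()).mul (hx ())).eq h (hx ()) (.of_forall fun i => (ha i).2.1),
      fun j => tendsto_nhds_unique ((hx ()).lim (ζ j))
        (by simp only [(ha _).2.2 j]; exact tendsto_const_nhds)⟩
  set r := m () with hr
  have hrp : IsStarProjection r := isStarProjection_iff'.2 ⟨h2, h1⟩
  have r0 : n2 r = 0 := (hN r).2 h3
  have nl : ∀ a x : M, n2 x = 0 → n2 (a * x) = 0 := fun a x hx =>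
    le_antisymm (by simpa [hx] using n2_mul_le a x) (n2_nonneg _)
  have nr : ∀ x a : M, n2 x = 0 → n2 (x * a) = 0 := fun x a hx =>
    le_antisymm (by simpa [hx] using n2_mul_le' x a) (n2_nonneg _)
  have key : ∀ a, n2 a = 0 → a * (1 - r) = 0 := fun a ha => by
    by_contra hne
    obtain ⟨t, ht, t0, ⟨b, hb⟩, ⟨c, hc⟩⟩ := h.rickart.exists_PI hne
    have tr0 : t * r = 0 := by rw [hc, mul_assoc, mul_assoc, hrp.one_sub_mul_self]; simp
    have rt0 : r * star t = 0 := by simpa [h1] using congrArg star tr0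
    have u1 : star t * t * r = 0 := by rw [mul_assoc, tr0, mul_zero]
    have u2 : r * (star t * t) = 0 := by rw [← mul_assoc, rt0, zero_mul]
    have u0 : n2 (star t * t) = 0 := nl _ _ (by rw [hb]; exact nr _ _ (nr _ _ ha))
    have := congrFun (h5 (fun _ => star t * t) ⟨?_, ?_, fun j => ?_⟩
      (fun _ => PI.ofProj ht.proj) fun _ => ⟨?_, ?_⟩) ()
    · exact t0 ((CStarRing.star_mul_self_eq_zero_iff t).1 this)
    · change star (r + star t * t) = r + star t * t
      rw [star_add, h1, ht.proj.isSelfAdjoint.star_eq]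
    · change (r + star t * t) * (r + star t * t) = r + star t * t
      rw [add_mul, mul_add, mul_add, h2, u1, u2, ht.proj.isIdempotentElem.eq, add_zero, zero_add]
    · change ρ (r + star t * t) (ζ j) = 0
      rw [map_add, add_apply, h3, (hN _).1 u0, add_zero]
    · change star r * (star t * t) = 0
      rw [h1, u2]
    · change star t * t * star r = 0
      rw [h1, u1]
  have hc : ∀ a, r * a = a * r := fun a => by
    have e1 := key (r * a) (nr _ _ r0)
    have e2 := congrArg star (key (r * star a) (nr _ _ r0))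
    rw [mul_sub, mul_one, sub_eq_zero] at e1
    simp only [star_mul, star_sub, star_one, h1, star_star, star_zero, sub_mul, one_mul,
      sub_eq_zero] at e2
    rw [e1, e2, mul_assoc, ← e2]
  have hcp : IsCP r := ⟨hrp, hc⟩
  exact ⟨r, hcp, r0, fun a ha => by rw [hcp.one_sub.comm, key a ha]⟩

theorem IsVN.exists_normal_trace (h : IsVN ρ) {z : M} (hz : IsCP z) (z0 : z ≠ 0)
    (hf : ¬ InfSeq z) : ∃ (y : M) (t : M →ₗ[ℂ] ℂ), IsCP y ∧ y ≠ 0 ∧ z * y = y ∧ IsTr t ∧
      Normal ρ t ∧ t y = 1 ∧ ∀ a, t (star a * a) = 0 → y * a = 0 := by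
  obtain ⟨J, _, ζ, ⟨j₀, hj₀⟩, hζ, hq⟩ := h.exists_quasi hz z0 hf
  let ψ : M →ₗ[ℂ] ℂ :=
    { toFun x := ∑ α, ⟪ζ α, ρ x (ζ α)⟫_ℂ
      map_add' x y := by simp [Finset.sum_add_distrib]
      map_smul' c x := by
        simp only [map_smul, smul_apply, inner_smul_right, ← Finset.mul_sum,
          RingHom.id_apply, smul_eq_mul] }
  have hψ : ∀ x, ψ (star x * x) = ((∑ j, ‖ρ x (ζ j)‖ ^ 2 : ℝ) : ℂ) := fun x => by
    change ∑ α, ⟪ζ α, ρ (star x * x) (ζ α)⟫_ℂ = _
    rw [Complex.ofReal_sum]
    refine Finset.sum_congr rfl fun α _ => ?_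
    rw [ws_mul_apply, ← ws_inner, inner_self_eq_norm_sq_to_K]
    simp
  obtain ⟨t₀, p0, c0, e0⟩ := exists_trace_of_quasi ψ (fun x => by
      rw [hψ]; exact Complex.zero_le_real.2 (by positivity)) (k := 2) one_le_two (fun x => by
      have := hψ (star x)
      rw [star_star] at this
      rw [hψ, this, Complex.ofReal_re, Complex.ofReal_re]
      exact hq x)
  simp only [hψ, Complex.ofReal_re] at e0
  have c1 : t₀ 1 = ((t₀ 1).re : ℂ) := by
    have := (Complex.nonneg_iff.1 (p0 1)).2
    rw [star_one, one_mul] at this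
    exact Complex.ext rfl this.symm
  have cpos : 0 < (t₀ 1).re := by
    have h1 := (e0 1).2
    rw [star_one, one_mul] at h1
    have h2 : 0 < ∑ j, ‖ρ 1 (ζ j)‖ ^ 2 :=
      Finset.sum_pos' (fun _ _ => by positivity) ⟨j₀, Finset.mem_univ _, by
        rw [map_one]
        exact pow_pos (norm_pos_iff.2 hj₀) 2⟩
    linarith
  set c := (t₀ 1).re with hc
  let t : M →ₗ[ℂ] ℂ := ((c⁻¹ : ℝ) : ℂ) • t₀
  have ht : ∀ x, t x = ((c⁻¹ : ℝ) : ℂ) * t₀ x := fun x => rfl
  have htr : IsTr t := ⟨by
      rw [ht, c1, ← Complex.ofReal_mul, inv_mul_cancel₀ cpos.ne', Complex.ofReal_one],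
    fun x => by
      rw [ht]; exact mul_nonneg (Complex.zero_le_real.2 (inv_pos.2 cpos).le) (p0 x),
    fun x y => by rw [ht, ht, c0]⟩
  let T : Tr M := ⟨t, htr⟩
  have hn : ∀ x : M, n2 x ^ 2 = c⁻¹ * (t₀ (star x * x)).re := fun x => by
    rw [n2_sq]
    change (t _).re = _
    rw [ht, Complex.re_ofReal_mul]
  have hN : ∀ a : M, n2 a = 0 ↔ ∀ j, ρ a (ζ j) = 0 := fun a => by
    constructor
    · intro ha j
      have h1 := hn a
      rw [ha, zero_pow two_ne_zero, eq_comm, mul_eq_zero, or_iff_right (inv_pos.2 cpos).ne'] at h1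
      have h2 := (e0 a).2
      rw [h1, mul_zero] at h2
      have h3 := (Finset.single_le_sum (f := fun j => ‖ρ a (ζ j)‖ ^ 2)
        (fun _ _ => by positivity) (Finset.mem_univ j)).trans h2
      simpa using le_antisymm h3 (by positivity)
    · intro ha
      have h2 := (e0 a).1
      simp only [ha, norm_zero, ne_eq, OfNat.ofNat_ne_zero, not_false_eq_true, zero_pow,
        Finset.sum_const_zero, mul_zero] at h2
      have h3 : n2 a ^ 2 ≤ 0 := by
        rw [hn]; exact mul_nonpos_of_nonneg_of_nonpos (inv_pos.2 cpos).le h2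
      simpa using le_antisymm h3 (by positivity)
  obtain ⟨r, hr, r0, hr2⟩ := pc_null_central h.isWRep ζ hN
  have ty : t (1 - r) = 1 := by
    have : τ (1 * r) = 0 := τ_mul_eq_zero 1 r0
    rw [one_mul] at this
    rw [map_sub, htr.one]
    change 1 - τ r = 1
    rw [this, sub_zero]
  refine ⟨1 - r, t, hr.one_sub, fun h0 => ?_, ?_, htr,
    normal_of_le ζ t (k := c⁻¹ * 2) fun x => ?_, ty, fun a ha => hr2 a ?_⟩
  · rw [h0, map_zero] at ty
    exact zero_ne_one ty
  · have := hr2 (1 - z) ((hN _).2 fun j => by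
      rw [map_sub, map_one, sub_apply, hζ]; simp)
    rw [hr.one_sub.comm, sub_mul, one_mul, sub_eq_zero] at this
    exact this.symm
  · have h1 : ‖t x‖ ≤ n2 x := norm_τ_le_n2 x
    refine (pow_le_pow_left₀ (norm_nonneg _) h1 2).trans ?_
    rw [hn, mul_assoc]
    exact mul_le_mul_of_nonneg_left (e0 x).1 (inv_pos.2 cpos).le
  · have h1 := n2_sq a
    change _ = (t _).re at h1
    rw [ha] at h1
    simpa using h1

theorem pc_infinite (h : IsWRep ρ) {z : M} (hz : IsCP z) (hi : InfSeq z) :
    ∃ y, IsCP y ∧ y ≠ 0 ∧ z * y = y ∧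
      ∃ v : ℕ → M, ∀ i j, star (v i) * v j = if i = j then y else 0 := by
  have he := hz.proj
  obtain ⟨a, b, f, hf, fe, a1, a2, a3, a4, a5, a6⟩ := h.exists_pair he
  have f0 : f ≠ 0 := fun h0 => a6 (by rwa [h0, sub_zero])
  have ef : z * f = f := by rw [hz.comm, fe]
  have hr := hf.sub_of_mul_eq_left he fe
  obtain ⟨y, s, s', hy, b1, b2, b3, b4⟩ := h.comparison _ _ hr hf
  obtain ⟨V1, V2⟩ := ws_shift a2 a4 a3 a5
  rw [a1] at V2
  have af : a * f = a := by rw [← a1]; exact PI.of_proj hf a1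
  have yf : (1 - y) * f = 0 := by
    by_contra hne
    refine a6 ⟨fun n => s' * (b ^ n * a) * (1 - y), _, hne, fun n k => ?_, fun n => ?_, fun n => ?_⟩
    · calc _ = (1 - y) * (star (b ^ n * a) * (star s' * s') * (b ^ k * a) * (1 - y)) := by
            simp only [star_mul, hy.one_sub.star_eq, mul_assoc]
        _ = (1 - y) * (star (b ^ n * a) * (b ^ k * a)) := by
            rw [b3, ← hy.one_sub.comm, hy.one_sub.idem, mul_assoc (star _), mul_assoc (1 - y) f,
              V1, ← mul_assoc (star _), ← hy.one_sub.comm, mul_assoc (1 - y), hy.one_sub.idem]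
        _ = _ := by rw [V2]; split_ifs <;> simp
    · rw [mul_assoc, hy.one_sub.idem, hy.one_sub.comm, ← mul_assoc, mul_assoc s', mul_assoc _ a, af]
    · rw [← mul_assoc, ← mul_assoc, b4]
  have yf' : y * f = f := by rw [sub_mul, one_mul, sub_eq_zero] at yf; exact yf.symm
  have a5' : star b * a = 0 := by simpa using congrArg star a5
  have T1 : star (a * s + b * y) * (a * s + b * y) = y * z := by
    calc _ = star s * (star a * a * s) + star s * (star a * b) * y + y * (star b * a) * s +
          y * (star b * b * y) := by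
          simp only [star_add, star_mul, hy.star_eq, add_mul, mul_add, mul_assoc]
          abel
      _ = _ := by
          rw [a1, a2, a5, a5', b2, b1, ← hy.comm f, hy.idem, mul_sub]
          simp
  have T2 : f * (a * s + b * y) = a * s + b * y := by
    rw [mul_add, ← mul_assoc, ← mul_assoc, a3, a4]
  generalize a * s + b * y = T at T1 T2
  have V3 : ∀ n k : ℕ, star (b ^ n * a * T) * (b ^ k * a * T) =
      star T * ((if n = k then f else 0) * T) := fun n k => by
    rw [← V2]
    generalize b ^ n * a = X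
    generalize b ^ k * a = Y
    simp only [star_mul, mul_assoc]
  refine ⟨y * z, ⟨hy.mul_proj hz.proj, fun a => by
    rw [mul_assoc, hz.comm, ← mul_assoc, hy.comm, mul_assoc]⟩, fun h0 => f0 ?_, ?_,
    fun n => b ^ n * a * T, fun n k => ?_⟩
  · rw [← yf', ← ef, ← mul_assoc, h0, zero_mul]
  · rw [hy.comm, hz.idem]
  · rw [V3]
    split_ifs
    · rw [T2, T1]
    · simp

theorem pc_abelian (h : IsWRep ρ) {p : M} (hp : IsStarProjection p)
    (H : ∀ g b, IsStarProjection g → p * g = g → (p - g) * b * g = 0) (a b : M) :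
    p * a * p * (p * b * p) = p * b * p * (p * a * p) := by
  let _ := CStarAlgebra.spectralOrder M
  have _ := CStarAlgebra.spectralOrderedRing M
  have ps := hp.isSelfAdjoint.star_eq
  set c := p * b * p with hc
  have h1 : ∀ g, IsStarProjection g → p * g = g → g * c = c * g := fun g hg pg => by
    have gs := hg.isSelfAdjoint.star_eq
    have gp : g * p = g := by simpa only [star_mul, ps, gs] using congrArg star pg
    have e1 := H g b hg pg
    have e2 := congrArg star (H g (star b) hg pg)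
    simp only [star_mul, star_sub, ps, gs, star_star, star_zero, mul_sub, sub_eq_zero] at e2
    rw [sub_mul, sub_mul, sub_eq_zero] at e1
    rw [hc, mul_assoc (p * b), pg, e1, ← mul_assoc, ← mul_assoc, gp, mul_assoc, e2, mul_assoc]
  have h2 : ∀ x, 0 ≤ x → x ≤ 1 → p * x = x → x * c = c * x := fun x x0 x1 px => by
    rw [← sub_eq_zero]
    refine h.inj (ContinuousLinearMap.ext fun η => ?_)
    rw [map_zero, zero_apply]
    set ξ := ρ (x * c - c * x) η with hξ
    let ψ : M →ₗ[ℝ] ℝ :=
      { toFun w := (⟪ξ, ρ (w * c - c * w) η⟫_ℂ).re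
        map_add' u w := by
          rw [← Complex.add_re, ← inner_add_right, ← add_apply, ← map_add]
          congr 4
          noncomm_ring
        map_smul' r w := by
          rw [smul_mul_assoc, mul_smul_comm, ← smul_sub, ← Complex.coe_smul, map_smul,
            smul_apply, inner_smul_right, Complex.re_ofReal_mul]
          rfl }
    have hψ : ∀ w, ψ w = (⟪ξ, ρ (w * c - c * w) η⟫_ℂ).re := fun w => rfl
    have key := h.rickart.halving ψ (C := ‖ξ‖ * ((‖c‖ + ‖c‖) * ‖η‖)) (r := p)
      (fun w w0 w1 => by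
        have hw : ‖w‖ ≤ 1 := (CStarAlgebra.norm_le_one_iff_of_nonneg _ w0).2 w1
        rw [hψ]
        refine (Complex.re_le_norm _).trans ((norm_inner_le_norm _ _).trans ?_)
        refine mul_le_mul_of_nonneg_left ((ws_norm_le _ _).trans
          (mul_le_mul_of_nonneg_right ((norm_sub_le _ _).trans (add_le_add ?_ ?_))
            (norm_nonneg _))) (norm_nonneg _)
        · exact (norm_mul_le _ _).trans (mul_le_of_le_one_left (norm_nonneg _) hw)
        · exact (norm_mul_le _ _).trans (mul_le_of_le_one_right (norm_nonneg _) hw))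
      (fun g hg pg => by rw [hψ, h1 g hg pg]; simp) x0 x1 px
    rw [hψ, ← hξ, inner_self_eq_norm_sq_to_K] at key
    have k2 : ‖ξ‖ ^ 2 ≤ 0 := by exact_mod_cast key
    simpa using le_antisymm k2 (by positivity)
  have h3 : ∀ x, 0 ≤ x → p * x * p * c = c * (p * x * p) := fun x x0 => by
    have b0 : 0 ≤ p * x * p := hp.isSelfAdjoint.conjugate_nonneg x0
    set N := ‖p * x * p‖ + 1 with hN
    have N0 : 0 < N := by positivity
    have b1 : 0 ≤ N⁻¹ • (p * x * p) := smul_nonneg (by positivity) b0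
    have := h2 _ b1 (by
      rw [← CStarAlgebra.norm_le_one_iff_of_nonneg _ b1, norm_smul, Real.norm_eq_abs,
        abs_of_pos (by positivity), inv_mul_le_iff₀ N0]
      linarith) (by rw [mul_smul_comm, ← mul_assoc, ← mul_assoc, hp.isIdempotentElem.eq])
    rw [smul_mul_assoc, mul_smul_comm] at this
    exact smul_right_injective M (inv_pos.2 N0).ne' this
  have ha : a ∈ Submodule.span ℂ {x : M | 0 ≤ x} := by
    rw [CStarAlgebra.span_nonneg]; trivial
  induction ha using Submodule.span_induction with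
  | mem x hx => exact h3 x hx
  | zero => simp
  | add x y _ _ hx hy => simp only [mul_add, add_mul, hx, hy]
  | smul r x _ hx => simp only [mul_smul_comm, smul_mul_assoc, hx]

theorem pc_halves (h : IsWRep ρ) {e : M} (he : IsStarProjection e)
    (H : ∀ p, IsStarProjection p → e * p = p →
      (∀ a b, p * a * p * (p * b * p) = p * b * p * (p * a * p)) → p = 0) :
    ∃ m, e * m = m ∧ m * e = m ∧ m * m = 0 ∧ star m * m + m * star m = e := by
  obtain ⟨m', ⟨h1, h2, h3⟩, h4, h5⟩ := h.zorn (κ := Unit) (fun v => e * v () = v () ∧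
    v () * e = v () ∧ v () * v () = 0) (by simp) fun ι l _ a x ha hx =>
    ⟨((BS.const e).mul (hx ())).eq h (hx ()) (.of_forall fun i => (ha i).1),
      ((hx ()).mul (BS.const e)).eq h (hx ()) (.of_forall fun i => (ha i).2.1),
      ((hx ()).mul (hx ())).eq h (BS.const 0) (.of_forall fun i => (ha i).2.2)⟩
  set m := m' () with hm
  have hpi : PI m := h4 ()
  have es := he.isSelfAdjoint.star_eq
  have hq : IsStarProjection (star m * m + m * star m) :=
    hpi.proj.add hpi.proj' (by rw [mul_assoc, ← mul_assoc m, h3, zero_mul, mul_zero])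
  have qe : (star m * m + m * star m) * e = star m * m + m * star m := by
    rw [add_mul, mul_assoc, mul_assoc, h2, ws_flip es h1]
  have eq : e * (star m * m + m * star m) = star m * m + m * star m := by
    rw [mul_add, ← mul_assoc, ← mul_assoc, h1, ws_flip' es h2]
  have hp := hq.sub_of_mul_eq_left he qe
  set p := e - (star m * m + m * star m) with hpd
  have ps := hp.isSelfAdjoint.star_eq
  have ep : e * p = p := by rw [hpd, mul_sub, he.isIdempotentElem.eq, eq]
  have pe : p * e = p := by rw [hpd, sub_mul, he.isIdempotentElem.eq, qe]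
  have mp : m * p = 0 := by
    rw [hpd, mul_sub, h2, mul_add, hpi, ← mul_assoc, h3, zero_mul, add_zero, sub_self]
  have pm : p * m = 0 := by
    rw [hpd, sub_mul, h1, add_mul, hpi.left, mul_assoc, h3, mul_zero, zero_add, sub_self]
  have mp' : star m * p = 0 := by simpa only [star_mul, ps, star_zero] using congrArg star pm
  have pm' : p * star m = 0 := by simpa only [star_mul, ps, star_zero] using congrArg star mp
  refine ⟨m, h1, h2, h3, (sub_eq_zero.1 (H p hp ep (pc_abelian h hp fun g b hg pg => ?_))).symm⟩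
  by_contra hne
  obtain ⟨t, ht, t0, ⟨a, ha⟩, ⟨c, hc⟩⟩ := h.rickart.exists_PI hne
  have gs := hg.isSelfAdjoint.star_eq
  have gp : g * p = g := by simpa only [star_mul, ps, gs] using congrArg star pg
  have tg : t * g = t := by rw [hc, mul_assoc, mul_assoc _ g, hg.isIdempotentElem.eq]
  have gt : g * t = 0 := by
    rw [ha, ← mul_assoc, ← mul_assoc, ← mul_assoc, mul_sub, gp, hg.isIdempotentElem.eq]
    simp
  have pt : p * t = t := by
    rw [ha, ← mul_assoc, ← mul_assoc, ← mul_assoc, mul_sub, pg, hp.isIdempotentElem.eq]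
  have tp : t * p = t := by rw [← tg, mul_assoc, gp]
  refine t0 (congrFun (h5 (fun _ => t) ⟨?_, ?_, ?_⟩ (fun _ => ht) fun _ => ⟨?_, ?_⟩) ())
  · change e * (m + t) = m + t
    rw [mul_add, h1, ← pt, ← mul_assoc, ep]
  · change (m + t) * e = m + t
    rw [add_mul, h2, ← tp, mul_assoc, pe]
  · change (m + t) * (m + t) = 0
    have e1 : m * t = 0 := by rw [← pt, ← mul_assoc, mp, zero_mul]
    have e2 : t * m = 0 := by rw [← tp, mul_assoc, pm, mul_zero]
    have e3 : t * t = 0 := by
      calc t * t = t * g * t := by rw [tg]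
        _ = 0 := by rw [mul_assoc, gt, mul_zero]
    rw [add_mul, mul_add, mul_add, h3, e1, e2, e3]
    simp
  · change star m * t = 0
    rw [← pt, ← mul_assoc, mp', zero_mul]
  · change t * star m = 0
    rw [← tp, mul_assoc, pm', mul_zero]

theorem pc_halv (h : IsWRep ρ) [Tr M] {y : M} (hy : IsCP y) (ty : τ y = 1)
    (H : ∀ p, IsStarProjection p → y * p = p →
      (∀ a b, p * a * p * (p * b * p) = p * b * p * (p * a * p)) → p = 0) : Halv M := by
  intro e he
  obtain ⟨m, h1, h2, h3, h4⟩ := pc_halves h (hy.mul_proj he) fun p hp yp =>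
    H p hp (by rw [← yp, mul_assoc, hy.idem])
  have hq := hy.one_sub.mul_proj he
  have o1 : (1 - y) * e * (y * e) = 0 := by
    rw [hy.one_sub.comm, mul_assoc, ← mul_assoc (1 - y), hy.proj.one_sub_mul_self]; simp
  have o2 : y * e * ((1 - y) * e) = 0 := by
    rw [hy.comm, mul_assoc, ← mul_assoc y, hy.proj.mul_one_sub_self]; simp
  have s1 : y * e + (1 - y) * e = e := by rw [sub_mul, one_mul, add_sub_cancel]
  have ee : e * (y * e) = y * e := by
    rw [← mul_assoc, ← hy.comm, mul_assoc, he.isIdempotentElem.eq]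
  have eq : e * ((1 - y) * e) = (1 - y) * e := by
    rw [← mul_assoc, ← hy.one_sub.comm, mul_assoc, he.isIdempotentElem.eq]
  have n0 : n2 ((1 - y) * e) = 0 := by
    have : n2 (1 - y) = 0 := n2_proj_eq_zero hy.one_sub.proj (by
      rw [tr_apply, map_sub, τ_one, ty, sub_self, Complex.zero_re])
    exact le_antisymm (by simpa [this] using n2_mul_le' (1 - y) e) (n2_nonneg _)
  have ys := (hy.mul_proj he).isSelfAdjoint.star_eq
  have h1' := ws_flip ys h1
  have h2' := ws_flip' ys h2
  generalize (1 - y) * e = q at *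
  generalize y * e = d at *
  have qs := hq.isSelfAdjoint.star_eq
  have qq := hq.isIdempotentElem.eq
  have mq : m * q = 0 := by rw [← h2, mul_assoc, o2, mul_zero]
  have qm : q * m = 0 := by rw [← h1, ← mul_assoc, o1, zero_mul]
  have mq' : star m * q = 0 := by rw [← h1', mul_assoc, o2, mul_zero]
  have qm' : q * star m = 0 := by rw [← h2', ← mul_assoc, o1, zero_mul]
  have h3' : star m * star m = 0 := by rw [← star_mul, h3, star_zero]
  have em : e * m = m := by rw [← h1, ← mul_assoc, ee]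
  have em' : e * star m = star m := by rw [← h2', ← mul_assoc, ee]
  refine ⟨m + star m + q, Complex.I • (m - star m) + q, ?_, ?_, ?_, ?_, ?_, ?_, ?_⟩
  · rw [star_add, star_add, star_star, qs, add_comm (star m)]
  · rw [star_add, star_smul, star_sub, star_star, qs, Complex.star_def, Complex.conj_I, neg_smul,
      ← smul_neg, neg_sub]
  · rw [mul_add, mul_add, em, em', eq]
  · rw [mul_add, mul_smul_comm, mul_sub, em, em', eq]
  · rw [← s1, ← h4]
    simp only [add_mul, mul_add, h3, h3', mq, qm, mq', qm', qq]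
    abel
  · rw [← s1, ← h4]
    simp only [add_mul, mul_add, smul_mul_assoc, mul_smul_comm, sub_mul, mul_sub, h3, h3', mq, qm,
      mq', qm', qq]
    match_scalars <;> simp
  · have : (m + star m + q) * (Complex.I • (m - star m) + q) +
        (Complex.I • (m - star m) + q) * (m + star m + q) = (2 : ℂ) • q := by
      simp only [add_mul, mul_add, smul_mul_assoc, mul_smul_comm, sub_mul, mul_sub, h3, h3', mq, qm,
        mq', qm', qq]
      module
    rw [this, n2_smul, n0, mul_zero]

theorem IsVN.pieces (h : IsVN ρ) {z : M} (hz : IsCP z) (z0 : z ≠ 0) :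
    ∃ y, IsCP y ∧ y ≠ 0 ∧ z * y = y ∧
      ((∃ v : ℕ → M, ∀ i j, star (v i) * v j = if i = j then y else 0) ∨
        ∃ T : Tr M, Normal ρ T.τ ∧ (∀ a, @n2 M _ T a = 0 → y * a = 0) ∧
          (AbCover y ∨ @Halv M _ T)) := by
  by_cases hf : InfSeq z
  · obtain ⟨y, h1, h2, h3, h4⟩ := pc_infinite h.isWRep hz hf
    exact ⟨y, h1, h2, h3, Or.inl h4⟩
  obtain ⟨y, t, hy, y0, zy, ht, hn, ty, hN⟩ := h.exists_normal_trace hz z0 hf
  let T : Tr M := ⟨t, ht⟩
  have hN' : ∀ a : M, n2 a = 0 → y * a = 0 := fun a ha => hN a (by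
    have := τ_star_mul_self a
    rw [ha] at this
    exact this.trans (by simp))
  by_cases H : ∀ p, IsStarProjection p → y * p = p →
      (∀ a b, p * a * p * (p * b * p) = p * b * p * (p * a * p)) → p = 0
  · exact ⟨y, hy, y0, zy, Or.inr ⟨T, hn, hN', Or.inr (pc_halv h.isWRep hy ty H)⟩⟩
  push Not at H
  obtain ⟨p, hp, yp, hab, p0⟩ := H
  obtain ⟨y', J, _, u, hy', b1, b2, b3⟩ :=
    ws_cover h.isWRep.comparison hy.proj hp p0 fun hi => hf (hi.mono zy)
  refine ⟨y' * y, ⟨hy'.mul_proj hy.proj, fun a => by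
    rw [mul_assoc, hy.comm, ← mul_assoc, hy'.comm, mul_assoc]⟩, fun h0 => b1 ?_, ?_,
    Or.inr ⟨T, hn, fun a ha => ?_, Or.inl ⟨p, J, inferInstance, u, hp, hab,
      fun i => ⟨(b2 i).2.1, (b2 i).1.norm_le⟩, b3⟩⟩⟩
  · rw [← yp, ← mul_assoc, h0, zero_mul]
  · rw [← mul_assoc, ← hy'.comm, mul_assoc, zy]
  · rw [mul_assoc, hN' a ha, mul_zero]

end Vale.Agent.P082
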