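import Vale.Agent.P082.Inf
import Vale.Agent.P082.FixI
import Vale.Agent.P082.FixII
import Vale.Agent.P082.Pieces

/-! Vanishing of the cohomology. -/

set_option linter.unusedSectionVars false

namespace Vale.Agent.P082

open Filter Topology Finset Vale.Agent.P104
open scoped InnerProductSpace ComplexOrder ComplexConjugate

universe u v

variable {G : Type v} [NormedAddCommGroup G] [InnerProductSpace ℂ G] [CompleteSpace G]
  {M : Type u} [CStarAlgebra M] {ρ : M →⋆ₐ[ℂ] (G →L[ℂ] G)}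

theorem cob_piece (h : IsVN ρ) {F : List M → M} {C : ℝ} (hF : Coc F C) {z : M} (hz : IsCP z)
    (z0 : z ≠ 0) : ∃ y, IsCP y ∧ y ≠ 0 ∧ z * y = y ∧ Cob F C y := by
  obtain ⟨y, hy, y0, zy, H⟩ := h.pieces hz z0
  refine ⟨y, hy, y0, zy, ?_⟩
  rcases H with ⟨v, hv⟩ | ⟨T, t1, t2, t3⟩
  · exact cob_inf h hF hy hv
  let _ := T
  have hS := Coc.inv h hF hy
  obtain ⟨S, h1, h2⟩ : ∃ S ∈ Sol (fun l => y * F l) y fun l => C * nrm l,
      ∀ e q, IsStarProjection q → n2 (S e q - q * S e 1) = 0 :=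
    t3.elim (fun t3 => fix_I h t1 hS fun S hS e => t3.dom h hy (hS.2.1 e) (hS.2.2.1 e))
      fun t3 => fix_II h t1 t3 hS
  refine ⟨fun l => S l 1, h1.1 1, fun l => (h1.2.1 l 1).trans ?_, fun l => h1.2.2.1 l 1,
    Sol.final h.isWRep.rickart h1 fun l q hq => ?_⟩
  · have h3 := mul_nonneg hF.C0 (nrm_nonneg l)
    have h4 := (IsStarProjection.one M).norm_le
    have h5 : (0 : ℝ) ≤ l.length := Nat.cast_nonneg _
    nlinarith
  · have := t2 _ (h2 l q hq)
    rwa [mul_sub, h1.2.2.1, ← mul_assoc, hy.comm, mul_assoc, h1.2.2.1, sub_eq_zero] at this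

theorem mn_norm_add {a b : M} {R : ℝ} (h : star a * b = 0) (h' : a * star b = 0) (ha : ‖a‖ ≤ R)
    (hb : ‖b‖ ≤ R) : ‖a + b‖ ≤ R := by
  have h1 : star b * a = 0 := by simpa using congrArg star h
  have h2 := (IsSelfAdjoint.star_mul_self a).norm_add_eq_max (IsSelfAdjoint.star_mul_self b)
    (by rw [mul_assoc, ← mul_assoc a, h', zero_mul, mul_zero])
  have h3 : star (a + b) * (a + b) = star a * a + star b * b := by
    simp only [star_add, add_mul, mul_add, h, h1, add_zero, zero_add]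
  rw [← h3, CStarRing.norm_star_mul_self, CStarRing.norm_star_mul_self,
    CStarRing.norm_star_mul_self] at h2
  refine (mul_self_le_mul_self_iff (norm_nonneg _) ((norm_nonneg _).trans ha)).2 ?_
  rw [h2]
  exact max_le (mul_self_le_mul_self (norm_nonneg _) ha) (mul_self_le_mul_self (norm_nonneg _) hb)

theorem mn_of {F K : List M → M} {C : ℝ} {z : M} (hz : IsCP z) (h1 : Lin K)
    (h2 : ∀ l, ‖K l‖ ≤ C * (l.length + 2) * nrm l) (h3 : ∀ a l, z * F (a :: l) = dif K a l) :
    Cob F C z := by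
  refine ⟨fun l => z * K l, fun l₁ l₂ => ⟨fun x y => ?_, fun c x => ?_⟩, fun l => ?_,
    fun l => hz.idem _, fun a l => ?_⟩
  · simp only [(h1 l₁ l₂).map_add, mul_add]
  · simp only [(h1 l₁ l₂).map_smul, mul_smul_comm]
  · exact (norm_mul_le _ _).trans ((mul_le_of_le_one_left (norm_nonneg _) hz.proj.norm_le).trans
      (h2 l))
  · rw [← hz.idem, h3, dif, dif, dd_mul, mul_sub, ← mul_assoc, hz.comm a, mul_assoc]

theorem mn_add {F : List M → M} {C : ℝ} {m y : M} (hm : IsCP m) (hy : IsCP y) (h : m * y = 0)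
    (h1 : Cob F C m) (h2 : Cob F C y) : Cob F C (m + y) := by
  obtain ⟨K, a1, a2, a3, a4⟩ := h1
  obtain ⟨L, b1, b2, b3, b4⟩ := h2
  refine mn_of (K := fun l => K l + L l) ⟨hm.proj.add hy.proj h, fun a => by
    rw [add_mul, mul_add, hm.comm, hy.comm]⟩ (fun l₁ l₂ => ⟨fun x x' => ?_, fun c x => ?_⟩)
    (fun l => mn_norm_add ?_ ?_ (a2 l) (b2 l)) fun a l => ?_
  · simp only [(a1 l₁ l₂).map_add, (b1 l₁ l₂).map_add]
    exact add_add_add_comm _ _ _ _
  · simp only [(a1 l₁ l₂).map_smul, (b1 l₁ l₂).map_smul, smul_add]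
  · rw [← a3, ← b3, star_mul, hm.star_eq, mul_assoc, ← mul_assoc m, h, zero_mul, mul_zero]
  · rw [← a3, ← b3, hm.comm, hy.comm, star_mul, hy.star_eq, mul_assoc, ← mul_assoc m, h, zero_mul,
      mul_zero]
  · rw [add_mul, a4, b4, dif, dif, dif, dd_add, mul_add, add_sub_add_comm]

theorem cob_one (h : IsVN ρ) {F : List M → M} {C : ℝ} (hF : Coc F C) : Cob F C 1 := by
  have hW := h.isWRep
  obtain ⟨m, ⟨h1, h2⟩, -, h3⟩ := hW.zorn (κ := Unit) (fun v => IsCP (v ()) ∧ Cob F C (v ()))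
    ⟨⟨.zero M, fun a => by simp⟩, fun l => 0 * F l,
      fun _ _ => ⟨fun _ _ => by simp, fun _ _ => by simp⟩,
      fun l => by
        simp only [zero_mul, norm_zero]
        exact mul_nonneg (mul_nonneg hF.C0 (by positivity)) (nrm_nonneg l),
      fun l => by simp, fun a l => by rw [dif, dd_mul]; simp⟩ (by
    intro ι l _ a x ha hx
    have hx := hx ()
    have hc : IsCP (x ()) := ⟨isStarProjection_iff'.2
      ⟨(hx.mul hx).eq hW hx (.of_forall fun i => (ha i).1.proj.isIdempotentElem.eq),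
        hx.star.eq hW hx (.of_forall fun i => (ha i).1.star_eq)⟩,
      fun b => (hx.mul (.const b)).eq hW ((BS.const b).mul hx) (.of_forall fun i => (ha i).1.comm b)⟩
    choose K k1 k2 _ k4 using fun i => (ha i).2
    choose K' hK using fun L => h.exists_lim (Ultrafilter.of l) (a := fun i => K i L)
      (.of_forall fun i => k2 i L)
    exact ⟨hc, mn_of hc (Lin.lim h hK (.of_forall k1))
      (fun L => (hK L).norm_le h (.of_forall fun i => k2 i L)) fun b L =>
      WL.unique h (((BS.wl hx).mono (Ultrafilter.of_le l)).mul_const _)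
        (((hK L).const_mul b).sub (WL.dd hK b L)) (.of_forall fun i => k4 i b L)⟩)
  by_cases h4 : 1 - m () = 0
  · rwa [← sub_eq_zero.1 h4] at h2
  obtain ⟨y, hy, y0, y1, y2⟩ := cob_piece h hF h1.one_sub h4
  have h5 : m () * y = 0 := by rwa [sub_mul, one_mul, sub_eq_self] at y1
  exact (y0 (congrFun (h3 (fun _ => y) ⟨⟨h1.proj.add hy.proj h5, fun a => by
    simp only [Pi.add_apply, add_mul, mul_add, h1.comm, hy.comm]⟩, mn_add h1 hy h5 h2 y2⟩
    (fun _ => .ofProj hy.proj) fun _ => by rw [h1.star_eq, hy.comm]; exact ⟨h5, h5⟩) ())).elim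

end Vale.Agent.P082
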