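import Vale.Agent.P082.LQ

/-! Partitions in general position. -/

set_option linter.unusedSectionVars false

namespace Vale.Agent.P082

open Filter Topology Finset Vale.Agent.P104
open scoped InnerProductSpace ComplexOrder ComplexConjugate

universe u v

variable {A : Type u} [CStarAlgebra A] {ι κ : Type} [Fintype ι] [Fintype κ]
variable [Tr A]

theorem tr_mul_nonneg (x y : A) : 0 ≤ tr (star x * x * (star y * y)) := by
  have h := sq_nonneg (n2 (x * star y))
  rw [n2_sq', star_mul, star_star, mul_assoc, tr_comm] at h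
  simpa only [mul_assoc] using h

theorem mix_nonneg (e : ι → A) (f : κ → A) : 0 ≤ mix e f :=
  sum_nonneg fun _ _ => sum_nonneg fun _ _ => sq_nonneg _

theorem mx_sq {g x : A} (hg : IsStarProjection g) (hx : star x = x) :
    n2 (g * x * g) ^ 2 = tr (g * x * (g * x)) := by
  have h : ∀ y, g * (g * y) = g * y := fun y => by rw [← mul_assoc, hg.isIdempotentElem]
  rw [n2_sq', star_mul, star_mul, hg.isSelfAdjoint.star_eq, hx, ← mul_assoc, tr_comm]
  simp only [mul_assoc, h]

theorem mx_tr {g : A} (hg : IsStarProjection g) (x : A) : tr (g * x * g) = tr (g * x) := by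
  rw [tr_comm, ← mul_assoc, hg.isIdempotentElem]

theorem mx_n2_mul {e g : A} (he : IsStarProjection e) (hg : IsStarProjection g) :
    n2 (e * g) ^ 2 = tr (g * e) := by
  rw [n2_sq', star_mul, hg.isSelfAdjoint.star_eq, he.isSelfAdjoint.star_eq, ← mul_assoc,
    mul_assoc g, he.isIdempotentElem, mx_tr hg]

theorem mix_comm {e : ι → A} {f : κ → A} (he : IsPart e) (hf : IsPart f) : mix e f = mix f e := by
  rw [mix, mix, sum_comm]
  refine sum_congr rfl fun j _ => sum_congr rfl fun i _ => ?_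
  rw [mx_sq (hf.proj j) (he.star_eq i), mx_sq (he.proj i) (hf.star_eq j), mul_assoc, tr_comm]
  simp only [mul_assoc]

theorem mix_conj {e : ι → A} {f : κ → A} {u : A} (hu : u ∈ unitary A) :
    mix (fun i => star u * e i * u) (fun j => star u * f j * u) = mix e f := by
  refine sum_congr rfl fun i _ => sum_congr rfl fun j _ => ?_
  have h : ∀ y, u * (star u * y) = y := fun y => by rw [← mul_assoc, hu.2, one_mul]
  have : star u * f j * u * (star u * e i * u) * (star u * f j * u) =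
      star u * (f j * e i * f j * u) := by simp only [mul_assoc, h]
  rw [this, n2_unitary_mul (Unitary.star_mem hu), n2_mul_unitary _ hu]

theorem mix_le_one {e : ι → A} {f : κ → A} (he : IsPart e) (hf : IsPart f) : mix e f ≤ 1 := by
  have h : ∑ i, ∑ j, tr (f j * e i) = 1 := by
    simp only [← map_sum, ← sum_mul, hf.sum, one_mul, he.sum, tr_one]
  rw [← h]
  refine sum_le_sum fun i _ => sum_le_sum fun j _ => ?_
  rw [← mx_n2_mul (he.proj i) (hf.proj j), mul_assoc]
  exact pow_le_pow_left₀ (n2_nonneg _) (n2_mul_le_of (hf.norm_le j) _) 2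

theorem mx_sum_le {J : Type} (s : Finset J) (y : J → A)
    (h : ∀ a b, 0 ≤ tr (star (y a) * y b)) : ∑ a ∈ s, n2 (y a) ^ 2 ≤ n2 (∑ a ∈ s, y a) ^ 2 := by
  rw [n2_sq', star_sum, sum_mul, map_sum]
  refine sum_le_sum fun a ha => ?_
  rw [mul_sum, map_sum, n2_sq']
  exact single_le_sum (f := fun b => tr (star (y a) * y b)) (fun b _ => h a b) ha

theorem mix_mono {ι' : Type} [Fintype ι'] {e : ι → A} {e' : ι' → A} {f : κ → A} (he : IsPart e)
    (he' : IsPart e') (hf : IsPart f) (h : Ref e' e) : mix e' f ≤ mix e f := by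
  classical
  choose r hr using h
  have h1 : ∀ i, e i = ∑ a with r a = i, e' a := by
    intro i
    rw [sum_filter, ← mul_one (e i), ← he'.sum, mul_sum]
    refine sum_congr rfl fun a _ => ?_
    split_ifs with ha
    · rw [← ha, hr]
    · rw [← hr a, ← mul_assoc, he.orth _ _ (Ne.symm ha), zero_mul]
  have h2 : ∀ j a, f j * e' a * f j = star (e' a * f j) * (e' a * f j) := fun j a => by
    rw [star_mul, hf.star_eq, he'.star_eq, ← mul_assoc, mul_assoc (f j) (e' a) (e' a), he'.idem]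
  rw [mix, mix, ← sum_fiberwise univ r]
  refine sum_le_sum fun i _ => ?_
  rw [sum_comm]
  refine sum_le_sum fun j _ => ?_
  rw [h1 i, mul_sum, sum_mul]
  refine mx_sum_le _ (fun a => f j * e' a * f j) fun a b => ?_
  rw [h2 j a, h2 j b, star_mul, star_star]
  exact tr_mul_nonneg _ _

theorem mx_A {g x : A} (hg : IsStarProjection g) {c η : ℝ}
    (h : ‖g * x * g - (c : ℂ) • g‖ ≤ η) :
    tr g * n2 (g * x * g) ^ 2 ≤ tr (g * x) ^ 2 + η ^ 2 * tr g ^ 2 := by
  have hgg : g * g = g := hg.isIdempotentElem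
  have h1 : n2 (c • g - g * x * g) ≤ η * n2 g := by
    have : c • g - g * x * g = -(g * x * g - (c : ℂ) • g) * g := by
      rw [neg_sub, sub_mul, smul_mul_assoc, mul_assoc _ g g, hgg, Complex.coe_smul]
    rw [this]
    refine (n2_mul_le _ _).trans (mul_le_mul_of_nonneg_right ?_ (n2_nonneg _))
    rwa [norm_neg]
  have h2 := pow_le_pow_left₀ (n2_nonneg _) h1 2
  have h3 : (τ (star (c • g) * (g * x * g))).re = c * tr (g * x) := by
    rw [← tr_apply, star_smul, star_trivial, hg.isSelfAdjoint.star_eq, smul_mul_assoc, map_smul,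
      ← mul_assoc, ← mul_assoc, hgg, mx_tr hg, smul_eq_mul]
  rw [n2_sub_sq, h3, n2_rsmul, mul_pow, mul_pow, sq_abs, n2_proj hg] at h2
  have h4 : 0 ≤ tr g := n2_proj hg ▸ sq_nonneg _
  nlinarith [mul_le_mul_of_nonneg_left h2 h4, sq_nonneg (tr (g * x) - c * tr g)]

theorem mx_B {g e X Y : A} (hg : IsStarProjection g) (he : IsStarProjection e) (hX : star X = X)
    (hY : star Y = Y) (h1 : e * X = X) (h2 : e * Y = Y) (h3 : X * X = e) (h4 : Y * Y = e)
    (h5 : n2 (X * Y + Y * X) = 0) : tr (g * X) ^ 2 + tr (g * Y) ^ 2 ≤ tr (g * e) ^ 2 := by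
  set a := tr (g * X) with ha
  set b := tr (g * Y) with hb
  have h6 : tr (g * e * ((a • X + b • Y) * g)) = a ^ 2 + b ^ 2 := by
    rw [← mul_assoc, mul_assoc g, mx_tr hg, mul_add, mul_smul_comm, mul_smul_comm, h1, h2, mul_add,
      mul_smul_comm, mul_smul_comm, map_add, map_smul, map_smul, smul_eq_mul, smul_eq_mul, sq, sq]
  have h7 : n2 ((a • X + b • Y) * g) ^ 2 = (a ^ 2 + b ^ 2) * tr (g * e) := by
    have h8 : star (a • X + b • Y) * (a • X + b • Y) =
        (a ^ 2 + b ^ 2) • e + (a * b) • (X * Y + Y * X) := by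
      simp only [star_add, star_smul, star_trivial, hX, hY, add_mul, mul_add, smul_mul_assoc,
        mul_smul_comm, h3, h4]
      module
    rw [n2_sq', star_mul, hg.isSelfAdjoint.star_eq, ← mul_assoc, mul_assoc g, mx_tr hg, h8, mul_add,
      mul_smul_comm, mul_smul_comm, map_add, map_smul, map_smul, tr_apply (g * (X * Y + Y * X)),
      τ_mul_eq_zero g h5]
    simp
  have h8 : n2 (g * e) ^ 2 = tr (g * e) := by rw [mx_n2_mul hg he, tr_comm]
  have h9 := pow_le_pow_left₀ (abs_nonneg _) (abs_tr_mul_le (g * e) ((a • X + b • Y) * g)) 2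
  rw [sq_abs, h6, mul_pow, h7, h8] at h9
  by_contra h10
  have h11 := not_le.1 h10
  have h12 : 0 < a ^ 2 + b ^ 2 := (sq_nonneg _).trans_lt h11
  nlinarith [mul_lt_mul_of_pos_left h11 h12]

theorem mx_C {g : A} (hg : IsStarProjection g) (x : A) :
    tr (g * x) ^ 2 ≤ tr g * n2 (g * x * g) ^ 2 := by
  have h := pow_le_pow_left₀ (abs_nonneg _) (abs_tr_mul_le g (g * x * g)) 2
  rwa [sq_abs, mul_pow, n2_proj hg, ← mul_assoc, ← mul_assoc, hg.isIdempotentElem, mx_tr hg] at h

theorem mx_D {g e X Y : A} (hg : IsStarProjection g) (he : IsStarProjection e) (hX : star X = X)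
    (hY : star Y = Y) (h1 : e * X = X) (h2 : e * Y = Y) (h3 : X * X = e) (h4 : Y * Y = e)
    (h5 : n2 (X * Y + Y * X) = 0) {c c' η : ℝ} (h6 : ‖g * X * g - (c : ℂ) • g‖ ≤ η)
    (h7 : ‖g * Y * g - (c' : ℂ) • g‖ ≤ η) :
    n2 (g * X * g) ^ 2 + n2 (g * Y * g) ^ 2 ≤ n2 (g * e * g) ^ 2 + 2 * η ^ 2 * tr g := by
  have h8 : 0 ≤ tr g := n2_proj hg ▸ sq_nonneg _
  rcases h8.eq_or_lt with h9 | h9
  · have h10 : ∀ x, n2 (g * x * g) = 0 := fun x => le_antisymm
      ((n2_mul_le _ _).trans_eq (by rw [n2_proj_eq_zero hg h9.symm, mul_zero])) (n2_nonneg _)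
    simp [h10, ← h9]
  · refine le_of_mul_le_mul_left ?_ h9
    nlinarith [mx_A hg h6, mx_A hg h7, mx_B hg he hX hY h1 h2 h3 h4 h5, mx_C hg e]

theorem mx_split {e V : ι → A} (he : IsPart e) (h1 : ∀ i, star (V i) = V i)
    (h2 : ∀ i, e i * V i = V i) (h3 : ∀ i, V i * V i = e i) :
    IsPart (fun x : ι × Bool => (1 / 2 : ℝ) • (e x.1 + (cond x.2 1 (-1) : ℝ) • V x.1)) ∧
      Ref (fun x : ι × Bool => (1 / 2 : ℝ) • (e x.1 + (cond x.2 1 (-1) : ℝ) • V x.1)) e := by
  have h4 : ∀ i, V i * e i = V i := fun i => by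
    simpa only [star_mul, h1, he.star_eq] using congrArg star (h2 i)
  have h5 : ∀ i (c : ℝ), e i * ((1 / 2 : ℝ) • (e i + c • V i)) = (1 / 2 : ℝ) • (e i + c • V i) :=
    fun i c => by rw [mul_smul_comm, mul_add, mul_smul_comm, he.idem, h2]
  have h6 : ∀ i (c : ℝ), ((1 / 2 : ℝ) • (e i + c • V i)) * e i = (1 / 2 : ℝ) • (e i + c • V i) :=
    fun i c => by rw [smul_mul_assoc, add_mul, smul_mul_assoc, he.idem, h4]
  have h7 : ∀ i (c d : ℝ), ((1 / 2 : ℝ) • (e i + c • V i)) * ((1 / 2 : ℝ) • (e i + d • V i)) =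
      (1 / 4 : ℝ) • ((1 + c * d) • e i + (c + d) • V i) := fun i c d => by
    simp only [add_mul, mul_add, smul_mul_assoc, mul_smul_comm, he.idem, h2, h3, h4]
    module
  refine ⟨⟨fun x => isStarProjection_iff'.2 ⟨?_, ?_⟩, ?_, ?_⟩, fun x => ⟨x.1, h5 _ _⟩⟩
  · obtain ⟨i, _ | _⟩ := x <;> rw [h7] <;> simp only [cond] <;> module
  · simp only [star_smul, star_add, star_trivial, h1, he.star_eq]
  · rintro ⟨i, b⟩ ⟨j, b'⟩ h
    by_cases hij : i = j
    · subst hij
      rw [h7]
      rcases b with _ | _ <;> rcases b' with _ | _ <;> simp at h ⊢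
    · rw [← h6, ← h5 j, mul_assoc, ← mul_assoc (e i), he.orth i j hij, zero_mul, mul_zero]
  · rw [Fintype.sum_prod_type, ← he.sum]
    refine sum_congr rfl fun i _ => ?_
    simp only [Fintype.sum_bool, cond]
    module

omit [Tr A] in
theorem mx_ref_trans {μ : Type} {e : ι → A} {f : κ → A} {g : μ → A} (h : ∀ j, ∃ i, f i * g j = g j)
    (h' : Ref f e) : ∀ j, ∃ i, e i * g j = g j := fun k => by
  obtain ⟨j, hj⟩ := h k
  obtain ⟨i, hi⟩ := h' j
  exact ⟨i, by rw [← hj, ← mul_assoc, hi]⟩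

theorem mx_step (hR : Rickart A) (hH : Halv A) {e : ι → A} {f : κ → A} (he : IsPart e)
    (hf : IsPart f) {ε : ℝ} (hε : 0 < ε) :
    ∃ (ι' κ' : Type) (_ : Fintype ι') (_ : Fintype κ') (e' : ι' → A) (f' : κ' → A),
      IsPart e' ∧ IsPart f' ∧ Ref e' e ∧ Ref f' f ∧ mix e' f' ≤ 3 / 4 * mix e f + ε := by
  choose X Y hX hY h1 h2 h3 h4 h5 using fun i => hH (e i) (he.proj i)
  obtain ⟨η, hη, hη2⟩ : ∃ η : ℝ, 0 < η ∧ Fintype.card ι * η ^ 2 ≤ ε := by
    refine ⟨√(ε / (Fintype.card ι + 1)), by positivity, ?_⟩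
    rw [Real.sq_sqrt (by positivity), mul_div_assoc', div_le_iff₀ (by positivity)]
    nlinarith
  obtain ⟨κ', _, g, hg, hgf, -, hc⟩ := exists_refine hR hf (one_mem _) (by simp)
    (fun x : ι × Bool => cond x.2 (X x.1) (Y x.1)) (by rintro ⟨i, _ | _⟩; exacts [hY i, hX i])
    (by simp) hη
  have h6 : ∀ i, ∃ V : A, star V = V ∧ e i * V = V ∧ V * V = e i ∧
      ∑ j, n2 (g j * V * g j) ^ 2 ≤ 1 / 2 * ∑ j, n2 (g j * e i * g j) ^ 2 + η ^ 2 := by
    intro i
    have h7 : ∑ j, (n2 (g j * X i * g j) ^ 2 + n2 (g j * Y i * g j) ^ 2) ≤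
        ∑ j, (n2 (g j * e i * g j) ^ 2 + 2 * η ^ 2 * tr (g j)) := sum_le_sum fun j _ => by
      obtain ⟨c, hc1⟩ := hc (i, true) j
      obtain ⟨c', hc2⟩ := hc (i, false) j
      exact mx_D (hg.proj j) (he.proj i) (hX i) (hY i) (h1 i) (h2 i) (h3 i) (h4 i) (h5 i) hc1 hc2
    rw [sum_add_distrib, sum_add_distrib, ← mul_sum, ← map_sum, hg.sum, tr_one] at h7
    rcases le_total (∑ j, n2 (g j * X i * g j) ^ 2) (∑ j, n2 (g j * Y i * g j) ^ 2) with h | h
    · exact ⟨X i, hX i, h1 i, h3 i, by linarith⟩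
    · exact ⟨Y i, hY i, h2 i, h4 i, by linarith⟩
  choose V h7 h8 h9 h10 using h6
  obtain ⟨h11, h12⟩ := mx_split he h7 h8 h9
  refine ⟨ι × Bool, κ', inferInstance, inferInstance, _, g, h11, hg, h12, hgf, ?_⟩
  have h13 : mix e g ≤ mix e f := by
    rw [mix_comm he hg, mix_comm he hf]
    exact mix_mono hf hg he hgf
  have h14 : ∀ i, ∑ b : Bool, ∑ j, n2 (g j * ((1 / 2 : ℝ) • (e i + (cond b 1 (-1) : ℝ) • V i))
      * g j) ^ 2 ≤ 3 / 4 * ∑ j, n2 (g j * e i * g j) ^ 2 + η ^ 2 := by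
    intro i
    have h15 : ∀ j, ∑ b : Bool, n2 (g j * ((1 / 2 : ℝ) • (e i + (cond b 1 (-1) : ℝ) • V i))
        * g j) ^ 2 = 1 / 2 * (n2 (g j * e i * g j) ^ 2 + n2 (g j * V i * g j) ^ 2) := by
      intro j
      simp only [Fintype.sum_bool, cond, one_smul, neg_smul, mul_smul_comm, smul_mul_assoc,
        n2_rsmul, mul_pow, sq_abs, mul_add, add_mul, mul_neg, n2_add_sq, map_neg,
        Complex.neg_re]
      ring
    rw [sum_comm, sum_congr rfl fun j _ => h15 j, ← mul_sum, sum_add_distrib]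
    nlinarith [h10 i, sq_nonneg η]
  rw [mix, Fintype.sum_prod_type]
  refine (sum_le_sum fun i _ => h14 i).trans ?_
  rw [sum_add_distrib, ← mul_sum, sum_const, card_univ, nsmul_eq_mul]
  change 3 / 4 * mix e g + _ ≤ _
  linarith

theorem exists_mix (hR : Rickart A) (hH : Halv A) {e : ι → A} {f : κ → A} (he : IsPart e)
    (hf : IsPart f) {ε : ℝ} (hε : 0 < ε) :
    ∃ (ι' κ' : Type) (_ : Fintype ι') (_ : Fintype κ') (e' : ι' → A) (f' : κ' → A),
      IsPart e' ∧ IsPart f' ∧ Ref e' e ∧ Ref f' f ∧ mix e' f' ≤ ε := by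
  have key : ∀ n : ℕ, ∃ (ι' κ' : Type) (_ : Fintype ι') (_ : Fintype κ') (e' : ι' → A)
      (f' : κ' → A), IsPart e' ∧ IsPart f' ∧ Ref e' e ∧ Ref f' f ∧
        mix e' f' ≤ (3 / 4) ^ n + ε / 2 := by
    intro n
    induction n with
    | zero =>
      exact ⟨ι, κ, inferInstance, inferInstance, e, f, he, hf, fun i => ⟨i, he.idem i⟩,
        fun j => ⟨j, hf.idem j⟩, (mix_le_one he hf).trans (by rw [pow_zero]; linarith)⟩
    | succ n ih =>
      obtain ⟨ι', κ', _, _, e', f', h1, h2, h3, h4, h5⟩ := ih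
      obtain ⟨ι'', κ'', _, _, e'', f'', h6, h7, h8, h9, h10⟩ :=
        mx_step hR hH h1 h2 (ε := ε / 8) (by positivity)
      exact ⟨ι'', κ'', inferInstance, inferInstance, e'', f'', h6, h7, mx_ref_trans h8 h3,
        mx_ref_trans h9 h4, by rw [pow_succ]; linarith⟩
  obtain ⟨n, hn⟩ := exists_pow_lt_of_lt_one (half_pos hε) (show (3 / 4 : ℝ) < 1 by norm_num)
  obtain ⟨ι', κ', _, _, e', f', h1, h2, h3, h4, h5⟩ := key n
  exact ⟨ι', κ', inferInstance, inferInstance, e', f', h1, h2, h3, h4, by linarith⟩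

/-- A partition together with its index type. -/
structure mx_Pt (A : Type u) [CStarAlgebra A] where
  ι : Type
  [fin : Fintype ι]
  e : ι → A
  part : IsPart e

instance (P : mx_Pt A) : Fintype P.ι := P.fin

theorem mx_family (hR : Rickart A) (hH : Halv A) {C : Type} (Q : C → mx_Pt A) {ε : ℝ}
    (hε : 0 < ε) (S : Finset (C × C)) : ∃ P : C → mx_Pt A, (∀ j, Ref (P j).e (Q j).e) ∧
      ∀ x ∈ S, x.1 ≠ x.2 → mix (P x.1).e (P x.2).e ≤ ε := by
  classical
  induction S using Finset.induction_on with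
  | empty => exact ⟨Q, fun j i => ⟨i, (Q j).part.idem i⟩, by simp⟩
  | insert x S _ ih =>
    obtain ⟨P, h1, h2⟩ := ih
    obtain ⟨j, j'⟩ := x
    by_cases hj : j = j'
    · refine ⟨P, h1, fun y hy hy' => ?_⟩
      rcases mem_insert.1 hy with rfl | hy
      · exact absurd hj hy'
      · exact h2 y hy hy'
    obtain ⟨ι', κ', _, _, e', f', h3, h4, h5, h6, h7⟩ := exists_mix hR hH (P j).part (P j').part hε
    obtain ⟨P', h8, h9⟩ : ∃ P' : C → mx_Pt A, (∀ k, Ref (P' k).e (P k).e) ∧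
        mix (P' j).e (P' j').e ≤ ε := by
      refine ⟨Function.update (Function.update P j ⟨ι', e', h3⟩) j' ⟨κ', f', h4⟩, fun k => ?_, ?_⟩
      · by_cases hk : k = j'
        · subst hk
          rw [Function.update_self]
          exact h6
        · rw [Function.update_of_ne hk]
          by_cases hk' : k = j
          · subst hk'
            rw [Function.update_self]
            exact h5
          · rw [Function.update_of_ne hk']
            exact fun i => ⟨i, (P k).part.idem i⟩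
      · rw [Function.update_self, Function.update_of_ne hj, Function.update_self]
        exact h7
    refine ⟨P', fun k => mx_ref_trans (h8 k) (h1 k), fun y hy hy' => ?_⟩
    rcases mem_insert.1 hy with rfl | hy
    · exact h9
    · refine le_trans ?_ (h2 y hy hy')
      refine (mix_mono (P y.1).part (P' y.1).part (P' y.2).part (h8 _)).trans ?_
      rw [mix_comm (P y.1).part (P' y.2).part, mix_comm (P y.1).part (P y.2).part]
      exact mix_mono (P y.2).part (P' y.2).part (P y.1).part (h8 _)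

theorem exists_mix_family (hR : Rickart A) (hH : Halv A) {C : Type} [Fintype C] (q : C → A)
    (hq : ∀ j, IsStarProjection (q j)) {ε : ℝ} (hε : 0 < ε) :
    ∃ (ι : Type) (_ : Fintype ι) (e : C → ι → A), (∀ j, IsPart (e j)) ∧
      (∀ j i, q j * e j i = e j i ∨ q j * e j i = 0) ∧
      ∀ j j', j ≠ j' → mix (e j) (e j') ≤ ε := by
  classical
  obtain ⟨P, h1, h2⟩ := mx_family hR hH (fun j => ⟨Bool, _, part_bool (hq j)⟩) hε univ
  have hs : ∀ {V : Type u} [AddCommMonoid V] (F : A → V), F 0 = 0 → ∀ j,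
      ∑ x : Σ a, (P a).ι, F (if x.1 = j then (P x.1).e x.2 else 0) = ∑ i, F ((P j).e i) := by
    intro V _ F hF j
    rw [Fintype.sum_sigma, sum_eq_single j]
    · simp
    · intro a _ ha
      simp [ha, hF]
    · simp
  have hs' : ∀ F : A → ℝ, F 0 = 0 → ∀ j,
      ∑ x : Σ a, (P a).ι, F (if x.1 = j then (P x.1).e x.2 else 0) = ∑ i, F ((P j).e i) := by
    intro F hF j
    rw [Fintype.sum_sigma, sum_eq_single j]
    · simp
    · intro a _ ha
      simp [ha, hF]
    · simp
  refine ⟨Σ a, (P a).ι, inferInstance, fun j x => if x.1 = j then (P x.1).e x.2 else 0,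
    fun j => ⟨fun x => ?_, ?_, ?_⟩, ?_, fun j j' hj => ?_⟩
  · dsimp only
    split_ifs
    exacts [(P x.1).part.proj x.2, IsStarProjection.zero A]
  · rintro ⟨a, x⟩ ⟨b, y⟩ h
    dsimp only
    split_ifs with ha hb
    · subst ha hb
      exact (P _).part.orth x y fun hxy => h (by rw [hxy])
    all_goals simp
  · exact (hs id rfl j).trans (P j).part.sum
  · rintro j ⟨a, x⟩
    dsimp only
    split_ifs with ha
    · subst ha
      obtain ⟨_ | _, hb⟩ := h1 a x
      · refine Or.inr ?_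
        change (1 - q a) * _ = _ at hb
        rw [← hb, ← mul_assoc, (hq a).mul_one_sub_self, zero_mul]
      · exact Or.inl hb
    · exact Or.inr (mul_zero _)
  · refine le_trans (le_of_eq ?_) (h2 (j, j') (mem_univ _) hj)
    refine (hs' (fun z => ∑ y : Σ a, (P a).ι, n2 ((if y.1 = j' then (P y.1).e y.2 else 0) * z *
      (if y.1 = j' then (P y.1).e y.2 else 0)) ^ 2) (by simp [n2_zero]) j).trans ?_
    exact sum_congr rfl fun i _ => hs' (fun z => n2 (z * (P j).e i * z) ^ 2) (by simp [n2_zero]) j'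

end Vale.Agent.P082
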