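import Vale.Agent.P082.Lim
import Vale.Agent.P104.Final

/-! Traces from approximate traces. -/

set_option linter.unusedSectionVars false

namespace Vale.Agent.P082

open Filter Topology Finset Vale.Agent.P104
open scoped InnerProductSpace ComplexOrder ComplexConjugate

universe u v

variable {G : Type v} [NormedAddCommGroup G] [InnerProductSpace ℂ G] [CompleteSpace G]
  {M : Type u} [CStarAlgebra M] {ρ : M →⋆ₐ[ℂ] (G →L[ℂ] G)}

section
variable [PartialOrder M] [StarOrderedRing M]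

/-- Approximate subequivalence of positive elements. -/
def qs_R (a a' : M) : Prop :=
  ∀ η : ℝ, 0 < η → ∃ (ι : Type) (_ : Fintype ι) (w : ι → M),
    ∑ i, w i * star (w i) ≤ a ∧ a' ≤ ∑ i, star (w i) * w i + η • (1 : M)

theorem qs_sq {a : M} (ha : 0 ≤ a) : ∃ s : M, star s = s ∧ s * s = a :=
  ⟨CFC.sqrt a, (IsSelfAdjoint.of_nonneg (CFC.sqrt_nonneg a)).star_eq,
    CFC.sqrt_mul_sqrt_self a ha⟩

theorem qs_one {η : ℝ} (hη : 0 ≤ η) : (0 : M) ≤ η • (1 : M) := smul_nonneg hη zero_le_one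

theorem qs_refl {a : M} (ha : 0 ≤ a) : qs_R a a := by
  intro η hη
  obtain ⟨s, h1, h2⟩ := qs_sq ha
  refine ⟨Unit, inferInstance, fun _ => s, by simp [h1, h2], ?_⟩
  simpa [h1, h2] using qs_one (M := M) hη.le

theorem qs_inv {a : M} (ha : 0 ≤ a) {ε : ℝ} (hε : 0 < ε) :
    ∃ s : M, star s = s ∧ s * (a + ε • (1 : M)) * s = 1 := by
  have h1 : IsStrictlyPositive (ε • (1 : M)) := IsStrictlyPositive.smul hε isStrictlyPositive_one
  have h2 : IsStrictlyPositive (a + ε • (1 : M)) := IsStrictlyPositive.nonneg_add ha h1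
  exact ⟨(a + ε • (1 : M)) ^ (-(1 / 2) : ℝ),
    (IsSelfAdjoint.of_nonneg CFC.rpow_nonneg).star_eq, CFC.conjugate_rpow_neg_one_half _ h2⟩

theorem qs_swap {x : M} (h : x * star x ≤ 1) : star x * x ≤ 1 := by
  rw [← CStarAlgebra.norm_le_one_iff_of_nonneg _ (mul_star_self_nonneg x)] at h
  rw [← CStarAlgebra.norm_le_one_iff_of_nonneg _ (star_mul_self_nonneg x)]
  rwa [CStarRing.norm_self_mul_star, ← CStarRing.norm_star_mul_self] at h

theorem qs_step {a : M} {J : Type} [Fintype J] (y : J → M)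
    (h : qs_R a (∑ j, y j * star (y j))) : qs_R a (∑ j, star (y j) * y j) := by
  intro η hη
  set n : ℝ := (Fintype.card J : ℝ) with hn
  have hn0 : 0 ≤ n := Nat.cast_nonneg _
  set ε : ℝ := η / (2 * (n + 1)) with hε
  have hε0 : 0 < ε := by positivity
  obtain ⟨ι, _, w, h1, h2⟩ := h ε hε0
  have ha1 : 0 ≤ ∑ j, y j * star (y j) := sum_nonneg fun j _ => mul_star_self_nonneg _
  obtain ⟨s, hs, hs1⟩ := qs_inv ha1 hε0
  have hs2 : s * (∑ j, y j * star (y j)) * s ≤ 1 := by
    exact le_trans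
      (IsSelfAdjoint.conjugate_le_conjugate (le_add_of_nonneg_right (qs_one hε0.le)) hs) hs1.le
  have hy : ∀ j, star (s * y j) * (s * y j) ≤ 1 := fun j => by
    refine qs_swap (le_trans ?_ hs2)
    have := IsSelfAdjoint.conjugate_le_conjugate
      (single_le_sum (fun j _ => mul_star_self_nonneg (y j)) (mem_univ j)) (c := s) hs
    simpa only [star_mul, hs, mul_assoc] using this
  refine ⟨ι × J, inferInstance, fun p => w p.1 * (s * y p.2), le_trans ?_ h1, ?_⟩
  · rw [Fintype.sum_prod_type]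
    refine sum_le_sum fun i _ => ?_
    have := star_right_conjugate_le_conjugate hs2 (w i)
    simpa only [star_mul, hs, mul_assoc, mul_sum, sum_mul, mul_one, one_mul] using this
  · have h3 : (1 : M) ≤ s * (∑ i, star (w i) * w i + (2 * ε) • (1 : M)) * s := by
      refine le_trans hs1.ge (IsSelfAdjoint.conjugate_le_conjugate ?_ hs)
      rw [two_mul, add_smul, ← add_assoc]
      exact add_le_add_left h2 _
    have h4 : ∀ j, star (y j) * y j ≤
        ∑ i, star (w i * (s * y j)) * (w i * (s * y j)) + (2 * ε) • (1 : M) := fun j => by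
      have h5 := star_left_conjugate_le_conjugate h3 (y j)
      have h6 := smul_le_smul_of_nonneg_left (hy j) (by positivity : 0 ≤ 2 * ε)
      refine le_trans ?_ (add_le_add_right h6 _)
      simpa only [star_mul, hs, mul_assoc, mul_sum, sum_mul, mul_one, one_mul, mul_add, add_mul,
        mul_smul_comm, smul_mul_assoc] using h5
    refine le_trans (sum_le_sum fun j _ => h4 j) ?_
    rw [sum_add_distrib, Fintype.sum_prod_type_right]
    refine add_le_add_right ?_ _
    rw [sum_const, card_univ, ← Nat.cast_smul_eq_nsmul ℝ, smul_smul, ← sub_nonneg, ← sub_smul]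
    refine qs_one ?_
    rw [← hn, hε, sub_nonneg, ← mul_div_assoc, ← mul_div_assoc, div_le_iff₀ (by positivity)]
    nlinarith

theorem qs_iter {a b c : M} (hb : 0 ≤ b) (hc : 0 ≤ c) {J : Type} [Fintype J] (z : J → M)
    (e : b + ∑ j, star (z j) * z j = c + ∑ j, z j * star (z j)) (m : ℕ) :
    ∀ d, 0 ≤ d → qs_R a (d + m • b + ∑ j, star (z j) * z j) →
      qs_R a (d + m • c + ∑ j, star (z j) * z j) := by
  induction m with
  | zero => intro d _ h; simpa using h
  | succ m ih =>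
    intro d hd h
    have hp : 0 ≤ d + c + m • b := add_nonneg (add_nonneg hd hc) (nsmul_nonneg hb m)
    obtain ⟨s, h1, h2⟩ := qs_sq hp
    have := qs_step (a := a) (fun o : Option J => o.elim s z) (by
      have e' : d + (m + 1) • b + ∑ j, star (z j) * z j =
          d + c + m • b + ∑ j, z j * star (z j) := by
        rw [succ_nsmul, add_assoc, add_assoc, e]; abel
      rw [e'] at h
      simpa [Fintype.sum_option, h1, h2] using h)
    have h3 := ih (d + c) (add_nonneg hd hc) (by simpa [Fintype.sum_option, h1, h2] using this)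
    have e' : d + (m + 1) • c = d + c + m • c := by rw [succ_nsmul]; abel
    rwa [e']

theorem qs_pos (ψ : M →ₗ[ℂ] ℂ) (h0 : ∀ x, 0 ≤ ψ (star x * x)) {a : M} (ha : 0 ≤ a) :
    0 ≤ (ψ a).re := by
  obtain ⟨s, rfl⟩ := CStarAlgebra.nonneg_iff_eq_star_mul_self.1 ha
  exact (Complex.nonneg_iff.1 (h0 s)).1

theorem qs_mono (ψ : M →ₗ[ℂ] ℂ) (h0 : ∀ x, 0 ≤ ψ (star x * x)) {a b : M} (ha : a ≤ b) :
    (ψ a).re ≤ (ψ b).re := by
  have := qs_pos ψ h0 (sub_nonneg.2 ha)
  rwa [map_sub, Complex.sub_re, sub_nonneg] at this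

theorem qs_smul (ψ : M →ₗ[ℂ] ℂ) (c : ℝ) (a : M) : (ψ (c • a)).re = c * (ψ a).re := by
  rw [← Complex.coe_smul, map_smul, smul_eq_mul, Complex.re_ofReal_mul]

theorem qs_bound (ψ : M →ₗ[ℂ] ℂ) (h0 : ∀ x, 0 ≤ ψ (star x * x)) {k : ℝ} (hk : 1 ≤ k)
    (h : ∀ x, (ψ (star x * x)).re ≤ k * (ψ (x * star x)).re) {a a' : M} (r : qs_R a a') :
    (ψ a').re ≤ k * (ψ a).re := by
  have h1 : 0 ≤ (ψ 1).re := qs_pos ψ h0 zero_le_one
  refine le_of_forall_pos_le_add fun ε hε => ?_
  obtain ⟨ι, _, w, e1, e2⟩ := r (ε / ((ψ 1).re + 1)) (by positivity)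
  have f1 := qs_mono ψ h0 e1
  have f2 := qs_mono ψ h0 e2
  rw [map_add, Complex.add_re, qs_smul, map_sum, Complex.re_sum] at f2
  rw [map_sum, Complex.re_sum] at f1
  have f3 : ∑ i, (ψ (star (w i) * w i)).re ≤ k * ∑ i, (ψ (w i * star (w i))).re := by
    rw [mul_sum]
    exact sum_le_sum fun i _ => h _
  have f4 : ε / ((ψ 1).re + 1) * (ψ 1).re ≤ ε := by
    rw [div_mul_eq_mul_div, div_le_iff₀ (by positivity)]
    nlinarith
  have f5 := mul_le_mul_of_nonneg_left f1 (by linarith : 0 ≤ k)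
  linarith

theorem qs_key (ψ : M →ₗ[ℂ] ℂ) (h0 : ∀ x, 0 ≤ ψ (star x * x)) {k : ℝ} (hk : 1 ≤ k)
    (h : ∀ x, (ψ (star x * x)).re ≤ k * (ψ (x * star x)).re) {b c : M} (hb : 0 ≤ b) (hc : 0 ≤ c)
    {J : Type} [Fintype J] (z : J → M)
    (e : b + ∑ j, star (z j) * z j = c + ∑ j, z j * star (z j)) :
    (ψ c).re ≤ k * (ψ b).re := by
  have hZ : 0 ≤ ∑ j, star (z j) * z j := sum_nonneg fun j _ => star_mul_self_nonneg _
  have hZ' := qs_pos ψ h0 hZ
  by_contra hn
  rw [not_le, ← sub_pos] at hn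
  obtain ⟨m, hm⟩ := exists_nat_gt (k * (ψ (∑ j, star (z j) * z j)).re / ((ψ c).re - k * (ψ b).re))
  rw [div_lt_iff₀ hn] at hm
  have := qs_bound ψ h0 hk h (qs_iter hb hc z e m 0 le_rfl
    (qs_refl (add_nonneg (add_nonneg le_rfl (nsmul_nonneg hb m)) hZ)))
  simp only [zero_add, map_add, Complex.add_re, ← Nat.cast_smul_eq_nsmul ℝ, qs_smul] at this
  nlinarith

theorem qs_real (ψ : M →ₗ[ℂ] ℂ) (h0 : ∀ x, 0 ≤ ψ (star x * x)) {k : ℝ} (hk : 1 ≤ k)
    (h : ∀ x, (ψ (star x * x)).re ≤ k * (ψ (x * star x)).re) :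
    ∃ l : M →ₗ[ℝ] ℝ, (∀ x, l (star x * x) = l (x * star x)) ∧
      ∀ a, 0 ≤ a → l a ≤ k * (ψ a).re ∧ (ψ a).re ≤ k * l a := by
  have hk0 : 0 < k := by linarith
  let P : M → ℝ → Prop := fun a t => ∃ (b c : M) (J : Type) (_ : Fintype J) (z : J → M),
    0 ≤ b ∧ 0 ≤ c ∧ a + c + ∑ j, z j * star (z j) = b + ∑ j, star (z j) * z j ∧
      k * (ψ b).re - (ψ c).re / k ≤ t
  have p0 : ∀ b c, 0 ≤ b → 0 ≤ c → P (b - c) (k * (ψ b).re - (ψ c).re / k) := fun b c hb hc =>
    ⟨b, c, Empty, inferInstance, fun _ => 0, hb, hc, by simp, le_rfl⟩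
  obtain ⟨l, hl⟩ := exists_linear_le P (selfAdjoint.submodule ℝ M)
    (by simpa using p0 0 0 le_rfl le_rfl)
    (by
      rintro a s a' t ⟨b, c, J, _, z, hb, hc, e, m⟩ ⟨b', c', J', _, z', hb', hc', e', m'⟩
      refine ⟨b + b', c + c', J ⊕ J', inferInstance, Sum.elim z z', add_nonneg hb hb',
        add_nonneg hc hc', ?_, ?_⟩
      · simp only [Fintype.sum_sum_type, Sum.elim_inl, Sum.elim_inr]
        linear_combination (norm := abel1) e + e'
      · simp only [map_add, Complex.add_re, add_div, mul_add]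
        linarith)
    (by
      rintro r a s hr ⟨b, c, J, _, z, hb, hc, e, m⟩
      refine ⟨r • b, r • c, J, inferInstance, fun j => √r • z j, smul_nonneg hr hb,
        smul_nonneg hr hc, ?_, ?_⟩
      · simp only [star_smul, star_trivial, smul_mul_smul_comm, Real.mul_self_sqrt hr,
          ← smul_sum, ← smul_add, e]
      · rw [qs_smul, qs_smul]
        have := mul_le_mul_of_nonneg_left m hr
        calc _ = r * (k * (ψ b).re - (ψ c).re / k) := by ring
          _ ≤ _ := this)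
    (by
      rintro t ⟨b, c, J, _, z, hb, hc, e, m⟩
      have h1 := qs_key ψ h0 hk h hb hc z (by rw [← e, zero_add])
      have h2 := qs_pos ψ h0 hb
      have h3 : (ψ c).re / k ≤ (ψ b).re := by rw [div_le_iff₀ hk0]; linarith
      nlinarith)
    (fun a ha s => by
      have := p0 _ _ (CFC.posPart_nonneg a) (CFC.negPart_nonneg a)
      rw [CFC.posPart_sub_negPart a ha] at this
      exact ⟨_ - s, by rwa [sub_add_cancel]⟩)
  have hW : ∀ a : M, 0 ≤ a → a ∈ selfAdjoint.submodule ℝ M := fun a ha =>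
    IsSelfAdjoint.of_nonneg ha
  have t1 : ∀ x, l (star x * x) ≤ l (x * star x) := fun x => by
    have := hl _ (Submodule.sub_mem _ (hW _ (star_mul_self_nonneg x))
      (hW _ (mul_star_self_nonneg x))) 0
      ⟨0, 0, Unit, inferInstance, fun _ => x, le_rfl, le_rfl, by simp, by simp⟩
    rwa [map_sub, sub_nonpos] at this
  refine ⟨l, fun x => le_antisymm (t1 x) (by simpa using t1 (star x)), fun a ha => ⟨?_, ?_⟩⟩
  · simpa using hl _ (hW a ha) _ (by simpa using p0 a 0 ha le_rfl)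
  · have := hl _ (Submodule.neg_mem _ (hW a ha)) _ (by simpa using p0 0 a le_rfl ha)
    rw [map_neg, neg_le_neg_iff, div_le_iff₀ hk0] at this
    linarith

end

theorem exists_trace_of_quasi (ψ : M →ₗ[ℂ] ℂ) (h0 : ∀ x, 0 ≤ ψ (star x * x)) {k : ℝ} (hk : 1 ≤ k)
    (h : ∀ x, (ψ (star x * x)).re ≤ k * (ψ (x * star x)).re) :
    ∃ t : M →ₗ[ℂ] ℂ, (∀ x, 0 ≤ t (star x * x)) ∧ (∀ x y, t (x * y) = t (y * x)) ∧
      ∀ x, (t (star x * x)).re ≤ k * (ψ (star x * x)).re ∧
        (ψ (star x * x)).re ≤ k * (t (star x * x)).re := by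
  let := CStarAlgebra.spectralOrder M
  have := CStarAlgebra.spectralOrderedRing M
  obtain ⟨l, l1, l2⟩ := qs_real ψ h0 hk h
  let τ : M →ₗ[ℂ] ℂ :=
    { toFun := fun x => (l (realPart x) : ℂ) + Complex.I * (l (imaginaryPart x) : ℂ)
      map_add' := fun x y => by
        simp only [map_add, AddSubgroup.coe_add, Complex.ofReal_add]
        ring
      map_smul' := fun c x => by
        simp only [realPart_smul, imaginaryPart_smul, AddSubgroup.coe_add, AddSubgroup.coe_sub,
          selfAdjoint.val_smul, map_add, map_sub, map_smul, smul_eq_mul, RingHom.id_apply,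
          Complex.ofReal_add, Complex.ofReal_sub, Complex.ofReal_mul]
        linear_combination ((l (realPart x) : ℂ) + Complex.I * (l (imaginaryPart x) : ℂ)) *
          Complex.re_add_im c - (c.im : ℂ) * (l (imaginaryPart x) : ℂ) * Complex.I_sq }
  have hτ : ∀ a, IsSelfAdjoint a → τ a = l a := fun a ha => by
    change (l (realPart a) : ℂ) + Complex.I * (l (imaginaryPart a) : ℂ) = _
    rw [ha.coe_realPart, ha.imaginaryPart]
    simp
  have t2 : ∀ x, τ (star x * x) = τ (x * star x) := fun x => by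
    rw [hτ _ (IsSelfAdjoint.star_mul_self x), hτ _ (IsSelfAdjoint.mul_star_self x), l1]
  refine ⟨τ, fun x => ?_, fun a b => ?_, fun x => ?_⟩
  · rw [hτ _ (IsSelfAdjoint.star_mul_self x), Complex.zero_le_real]
    have h1 := (l2 _ (star_mul_self_nonneg x)).2
    have h2 := qs_pos ψ h0 (star_mul_self_nonneg x)
    by_contra hn
    rw [not_le] at hn
    nlinarith
  · have e1 := t2 (star a + b)
    have e2 := t2 (star a + Complex.I • b)
    have e3 := t2 (star a)
    have e4 := t2 b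
    simp only [star_add, star_smul, star_star, add_mul, mul_add, map_add, smul_mul_assoc,
      mul_smul_comm, map_smul, smul_eq_mul, Complex.star_def, Complex.conj_I] at e1 e2 e3
    linear_combination (1 / 2 : ℂ) * (e1 - e3 - e4) - (Complex.I / 2) * (e2 - e3) +
      (Complex.I / 2) * e4 * (-Complex.I ^ 2) + (1 / 2 : ℂ) *
        (τ (a * b) - τ (b * a) - τ (star b * star a) + τ (star a * star b)) * Complex.I_sq
  · rw [hτ _ (IsSelfAdjoint.star_mul_self x), Complex.ofReal_re]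
    exact l2 _ (star_mul_self_nonneg x)

theorem normal_of_le {J : Type} [Fintype J] (ζ : J → G) (t : M →ₗ[ℂ] ℂ) {k : ℝ}
    (h : ∀ x, ‖t x‖ ^ 2 ≤ k * ∑ j, ‖ρ x (ζ j)‖ ^ 2) : Normal ρ t := by
  let T : M →ₗ[ℂ] PiLp 2 (fun _ : J => G) :=
    { toFun := fun x => WithLp.toLp 2 fun j => ρ x (ζ j)
      map_add' := fun x y => by ext j; simp
      map_smul' := fun c x => by ext j; simp }
  have hT : ∀ x, ‖t x‖ ≤ √k * ‖T x‖ := fun x => by
    have h1 : ‖T x‖ ^ 2 = ∑ j, ‖ρ x (ζ j)‖ ^ 2 := PiLp.norm_sq_eq_of_L2 _ _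
    have h2 := Real.le_sqrt_of_sq_le (h x)
    rwa [← h1, Real.sqrt_mul' _ (sq_nonneg _), Real.sqrt_sq (norm_nonneg _)] at h2
  have hker : LinearMap.ker T ≤ LinearMap.ker t := fun x hx => by
    have := hT x
    rw [LinearMap.mem_ker.1 hx, norm_zero, mul_zero] at this
    exact norm_le_zero_iff.1 this
  let s : LinearMap.range T →ₗ[ℂ] ℂ :=
    ((LinearMap.ker T).liftQ t hker).comp T.quotKerEquivRange.symm.toLinearMap
  have hs : ∀ x, s ⟨T x, LinearMap.mem_range_self T x⟩ = t x := fun x => by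
    simp [s, LinearMap.quotKerEquivRange_symm_apply_image]
  let s' : LinearMap.range T →L[ℂ] ℂ := s.mkContinuous √k (by
    rintro ⟨_, x, rfl⟩
    rw [hs]
    exact hT x)
  obtain ⟨g, hg, -⟩ := exists_extension_norm_eq (LinearMap.range T) s'
  refine ⟨J, inferInstance, ζ, fun j => ((InnerProductSpace.toDual ℂ _).symm g) j, fun y => ?_⟩
  rw [← hs]
  have h1 := hg ⟨T y, LinearMap.mem_range_self T y⟩
  rw [← InnerProductSpace.toDual_symm_apply, PiLp.inner_apply] at h1
  exact h1.symm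

end Vale.Agent.P082
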