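import Vale.Agent.P082.Swap1

/-! Crossing terms are small. -/

set_option linter.unusedSectionVars false

namespace Vale.Agent.P082

open Filter Topology Finset Vale.Agent.P104
open scoped InnerProductSpace ComplexOrder ComplexConjugate

universe u v

variable {A : Type u} [CStarAlgebra A] {ι κ : Type} [Fintype ι] [Fintype κ]
variable [Tr A] {p : ℕ} [NeZero p]

theorem exists_trunc (hR : Rickart A) (x : A) {η : ℝ} (hη : 0 < η) :
    ∃ x₁ x₂ : A, x = x₁ + x₂ ∧ ‖x₁‖ ≤ η ∧ η ^ 2 * n2 x₂ ^ 2 ≤ n2 (star x * x) ^ 2 :=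
  sw_trunc hR x hη

theorem mix_phase {μ : Type} [Fintype μ] [DecidableEq μ] (hp : 2 < p) {e : ι → A} {g : κ → A}
    {h : μ → A} (he : IsPart e) (hg : IsPart g) (hh : IsPart h) :
    Ex (fun α : μ → ZMod p => mix (fun i => star (Lam h α) * e i * Lam h α) g)
      ≤ mix e h + mix h g :=
  sw_mix_phase hp he hg hh

theorem sw_Ex_one {Ω V : Type*} [Fintype Ω] [Nonempty Ω] [AddCommGroup V] [Module ℝ V]
    [DecidableEq κ] (z : κ) (G : Ω → V) : Ex (fun ϖ : κ → Ω => G (ϖ z)) = Ex G := by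
  rw [Ex_update z]
  simp only [Function.update_self]
  exact Ex_const _

theorem sw_Ex_two {Ω V : Type*} [Fintype Ω] [Nonempty Ω] [AddCommGroup V] [Module ℝ V]
    [DecidableEq κ] {z z' : κ} (h : z ≠ z') (F : Ω → Ω → V) :
    Ex (fun ϖ : κ → Ω => F (ϖ z) (ϖ z')) = Ex fun β => Ex fun α => F α β := by
  rw [Ex_update z]
  simp only [Function.update_self, Function.update_of_ne h.symm]
  exact sw_Ex_one z' fun β => Ex fun α => F α β

theorem sw_P [DecidableEq ι] (hp : 1 < p) {e : ι → A} (he : IsPart e) (x : A) :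
    Ex (fun α : ι → ZMod p => star (Lam e α) * x * Lam e α) = ∑ i, e i * x * e i := by
  have h := he.avg_eq_Ex hp (LinearMap.mulLeft ℂ x) 1
  simp only [he.avg_apply, LinearMap.mulLeft_apply, mul_one, ← mul_assoc] at h
  exact h.symm

theorem sw_moment [DecidableEq ι] [DecidableEq κ] (hp : 1 < p) {e : ι → A} {f : κ → A}
    (he : IsPart e) (hf : IsPart f) (c : A) :
    Ex (fun α : κ → ι → ZMod p => n2 (star (∑ z, f z * c * Lam e (α z)) *
      ∑ z, f z * c * Lam e (α z)) ^ 2) ≤
      ∑ z, n2 (f z * (c * star c) * f z) ^ 2 + ∑ i, n2 (e i * (star c * c) * e i) ^ 2 := by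
  set a : κ → A := fun z => star c * f z * c with ha
  have as : ∀ z, star (a z) = a z := fun z => by
    simp only [ha, star_mul, star_star, hf.star_eq, mul_assoc]
  have h1 : ∀ α : κ → ι → ZMod p, star (∑ z, f z * c * Lam e (α z)) *
      ∑ z, f z * c * Lam e (α z) = ∑ z, star (Lam e (α z)) * a z * Lam e (α z) := by
    intro α
    rw [star_sum, sum_mul]
    refine sum_congr rfl fun z _ => ?_
    rw [mul_sum, sum_eq_single z (fun z' _ hz => ?_) (by simp)]
    · calc _ = star (Lam e (α z)) * (star c * (f z * f z) * c) * Lam e (α z) := by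
            simp only [star_mul, hf.star_eq, mul_assoc]
        _ = _ := by rw [hf.idem]
    · calc _ = star (Lam e (α z)) * (star c * (f z * f z') * c) * Lam e (α z') := by
            simp only [star_mul, hf.star_eq, mul_assoc]
        _ = _ := by rw [hf.orth z z' (Ne.symm hz)]; simp
  have h2 : ∀ α : κ → ι → ZMod p, n2 (∑ z, star (Lam e (α z)) * a z * Lam e (α z)) ^ 2 =
      ∑ z, ∑ z', tr (star (Lam e (α z)) * a z * Lam e (α z) *
        (star (Lam e (α z')) * a z' * Lam e (α z'))) := by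
    intro α
    rw [n2_sq', star_sum, sum_mul, map_sum]
    refine sum_congr rfl fun z _ => ?_
    rw [mul_sum, map_sum]
    simp only [star_mul, star_star, as, mul_assoc]
  set P : κ → A := fun z => ∑ i, e i * a z * e i with hP
  have Ps : ∀ z, star (P z) = P z := fun z => by
    simp only [hP, star_sum, star_mul, he.star_eq, as, mul_assoc]
  have h3 : ∀ z z', Ex (fun α : κ → ι → ZMod p => tr (star (Lam e (α z)) * a z * Lam e (α z) *
      (star (Lam e (α z')) * a z' * Lam e (α z')))) ≤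
      (if z = z' then n2 (f z * (c * star c) * f z) ^ 2 else 0) + tr (P z * P z') := by
    intro z z'
    split_ifs with hz
    · subst hz
      refine Ex_le fun α => ?_
      have hu := he.Lam_mem (α z)
      have e1 : tr (star (Lam e (α z)) * a z * Lam e (α z) *
          (star (Lam e (α z)) * a z * Lam e (α z))) = n2 (f z * (c * star c) * f z) ^ 2 := by
        rw [sw_n2_conj (hf.proj z) (by rw [star_mul, star_star])]
        calc _ = tr (star (Lam e (α z)) * (a z * (Lam e (α z) * star (Lam e (α z))) * a z *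
              Lam e (α z))) := by simp only [mul_assoc]
          _ = tr (a z * a z * (Lam e (α z) * star (Lam e (α z)))) := by
              rw [hu.2, tr_comm]; simp only [mul_assoc, mul_one, hu.2]
          _ = tr (star c * (f z * c * star c * f z * c)) := by
              rw [hu.2]; simp only [ha, mul_assoc, mul_one]
          _ = _ := by rw [tr_comm]; simp only [mul_assoc]
      have e2 : tr (P z * P z) = n2 (P z) ^ 2 := by rw [n2_sq', Ps]
      rw [e1, e2]
      exact le_add_of_nonneg_right (sq_nonneg _)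
    · rw [zero_add, sw_Ex_two hz fun β γ : ι → ZMod p => tr (star (Lam e β) * a z * Lam e β *
        (star (Lam e γ) * a z' * Lam e γ))]
      simp only [← map_Ex tr, ← Ex_mul, ← mul_Ex, sw_P hp he]
      exact le_rfl
  simp only [h1, h2, Ex_sum]
  refine (sum_le_sum fun z _ => sum_le_sum fun z' _ => h3 z z').trans (le_of_eq ?_)
  simp only [sum_add_distrib, sum_ite_eq, mem_univ, if_true]
  congr 1
  have h4 : ∑ z, P z = ∑ i, e i * (star c * c) * e i := by
    simp only [hP]
    rw [sum_comm]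
    refine sum_congr rfl fun i _ => ?_
    simp only [ha, ← sum_mul, ← mul_sum, hf.sum, mul_one]
  rw [← sw_pinch he, ← h4, n2_sq', star_sum, sum_mul, map_sum]
  refine sum_congr rfl fun z _ => ?_
  rw [mul_sum, map_sum, Ps]

theorem sw_ident [DecidableEq ι] [DecidableEq κ] (hp : 1 < p) {φ : A →ₗ[ℂ] A} {e : ι → A}
    {f : κ → A} (he : IsPart e) (hf : IsPart f) (hm : Mod f φ) (w c b : A) :
    Ex (fun α : κ → ι → ZMod p => τ (w * (∑ z, star (Lam e (α z)) * f z) *
      φ ((∑ z, f z * c * Lam e (α z)) * b))) = ∑ i, τ (w * e i * φ (c * e i * b)) := by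
  have h1 : ∀ α : κ → ι → ZMod p, w * (∑ z, star (Lam e (α z)) * f z) *
      φ ((∑ z, f z * c * Lam e (α z)) * b) =
      w * ∑ z, star (Lam e (α z)) * φ (f z * c * (Lam e (α z) * b)) := by
    intro α
    rw [mul_assoc, sum_mul]
    congr 1
    refine sum_congr rfl fun z _ => ?_
    rw [mul_assoc, ← hm z, sum_mul, mul_sum, sum_eq_single z (fun z' _ hz => ?_) (by simp)]
    · simp only [← mul_assoc, hf.idem]
    · simp only [← mul_assoc, hf.orth z z' (Ne.symm hz), zero_mul]
  have h2 : ∀ z, Ex (fun α : κ → ι → ZMod p =>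
      star (Lam e (α z)) * φ (f z * c * (Lam e (α z) * b))) =
      ∑ i, e i * φ (f z * c * (e i * b)) := by
    intro z
    rw [sw_Ex_one z fun β : ι → ZMod p => star (Lam e β) * φ (f z * c * (Lam e β * b))]
    have h := he.avg_eq_Ex hp (φ ∘ₗ LinearMap.mulLeft ℂ (f z * c)) b
    simp only [he.avg_apply, LinearMap.comp_apply, LinearMap.mulLeft_apply] at h
    exact h.symm
  simp only [h1]
  rw [← map_Ex' τ, ← mul_Ex, Ex_sum]
  simp only [h2]
  rw [sum_comm, mul_sum, map_sum]
  refine sum_congr rfl fun i _ => ?_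
  rw [← mul_sum, ← map_sum, ← sum_mul, ← sum_mul, hf.sum, one_mul]
  simp only [mul_assoc]

theorem sw_H {f : κ → A} (hf : IsPart f) {D : κ → A} (hD : ∀ z, D z ∈ unitary A) :
    n2 (∑ z, star (D z) * f z) ^ 2 = 1 := by
  classical
  have h1 : ∀ z, (∑ z, star (D z) * f z) * f z = star (D z) * f z := fun z => by
    simp only [sum_mul, mul_assoc, hf.mul_ite, mul_ite, mul_zero, sum_ite_eq', mem_univ, if_true]
  rw [← sw_sum_right hf]
  simp only [h1, n2_unitary_mul (Unitary.star_mem (hD _)), n2_proj (hf.proj _)]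
  rw [← map_sum, hf.sum, tr_one]

theorem sw_point (hR : Rickart A) {φ : A →ₗ[ℂ] A} (hφ : BB φ) {q y K G b : A}
    (hq : IsStarProjection q) (hy : ‖y‖ ≤ 1) (hb : ‖b‖ ≤ 1) {η : ℝ} (hη : 0 < η) :
    ‖τ (y * q * K * φ (G * b))‖ ≤ η / 2 * n2 (y * q) ^ 2 + η * n2 (q * K) ^ 2 +
      n2 (star G * G) ^ 2 / (2 * η ^ 3) := by
  obtain ⟨x₁, x₂, hx, h1, h2⟩ := exists_trunc hR G hη
  have e1 : ‖τ (y * q * K * φ (x₁ * b))‖ ≤ n2 (y * q) * (n2 (q * K) * η) := by
    have e : y * q * K * φ (x₁ * b) = y * q * (q * K * φ (x₁ * b)) := by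
      simp only [← mul_assoc, mul_assoc y q q, hq.isIdempotentElem.eq]
    rw [e]
    refine (norm_τ_mul_le _ _).trans (mul_le_mul_of_nonneg_left ?_ (n2_nonneg _))
    refine (n2_mul_le' _ _).trans (mul_le_mul_of_nonneg_left ?_ (n2_nonneg _))
    exact (hφ.b1 _).trans ((norm_mul_le _ _).trans
      ((mul_le_of_le_one_right (norm_nonneg _) hb).trans h1))
  have e2 : ‖τ (y * q * K * φ (x₂ * b))‖ ≤ n2 (q * K) * n2 x₂ := by
    refine (norm_τ_mul_le _ _).trans (mul_le_mul ?_ ?_ (n2_nonneg _) (n2_nonneg _))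
    · rw [mul_assoc]
      exact n2_mul_le_of hy _
    · exact (hφ.b2 _).trans (n2_mul_le_of' _ hb)
  have e3 : τ (y * q * K * φ (G * b)) =
      τ (y * q * K * φ (x₁ * b)) + τ (y * q * K * φ (x₂ * b)) := by
    rw [hx, add_mul, map_add, mul_add, map_add]
  have e4 : n2 x₂ ^ 2 / (2 * η) ≤ n2 (star G * G) ^ 2 / (2 * η ^ 3) := by
    rw [div_le_div_iff₀ (by positivity) (by positivity)]
    nlinarith [mul_le_mul_of_nonneg_left h2 hη.le]
  have e5 : n2 (q * K) * n2 x₂ ≤ η / 2 * n2 (q * K) ^ 2 + n2 x₂ ^ 2 / (2 * η) := by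
    have e : η / 2 * n2 (q * K) ^ 2 + n2 x₂ ^ 2 / (2 * η) - n2 (q * K) * n2 x₂ =
        (η * n2 (q * K) - n2 x₂) ^ 2 / (2 * η) := by field_simp; ring
    have e' : 0 ≤ (η * n2 (q * K) - n2 x₂) ^ 2 / (2 * η) := by positivity
    linarith
  have e6 := mul_nonneg hη.le (sq_nonneg (n2 (y * q) - n2 (q * K)))
  rw [e3]
  refine (norm_add_le _ _).trans ?_
  nlinarith

theorem swap_bound (hR : Rickart A) {φ : A →ₗ[ℂ] A} (hφ : BB φ) {e : ι → A} {f : κ → A}
    (he : IsPart e) (hf : IsPart f) (hm : Mod f φ) {U y D b : A} (hU : U ∈ unitary A)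
    (hy : ‖y‖ ≤ 1) (hD : ‖D‖ ≤ 1) (hb : ‖b‖ ≤ 1) {η : ℝ} (hη : 0 < η) :
    ‖∑ i, ∑ i', τ (y * e i * D * e i' * φ (e i * U * e i' * b))‖
      ≤ 2 * η + (mix e f + mix (fun i => star U * e i * U) e) / η ^ 3 := by
  classical
  have hp : 1 < 3 := by norm_num
  simp only [← sw_ident hp he hf hm, ← Ex_sum]
  refine (norm_Ex_le _).trans ?_
  have h1 : ∀ α : κ → ι → ZMod 3, ‖∑ i, τ (y * e i * D * (∑ z, star (Lam e (α z)) * f z) *
      φ ((∑ z, f z * (e i * U) * Lam e (α z)) * b))‖ ≤ 2 * η +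
      ∑ i, n2 (star (∑ z, f z * (e i * U) * Lam e (α z)) *
        ∑ z, f z * (e i * U) * Lam e (α z)) ^ 2 / (2 * η ^ 3) := by
    intro α
    have hH := sw_H hf fun z => he.Lam_mem (α z)
    set H := ∑ z, star (Lam e (α z)) * f z
    simp only [mul_assoc _ D H]
    refine (norm_sum_le _ _).trans ((sum_le_sum fun i _ =>
      sw_point hR hφ (he.proj i) hy hb hη).trans ?_)
    rw [sum_add_distrib, sum_add_distrib, ← mul_sum, ← mul_sum, sw_sum_left he, sw_sum_right he]
    have e1 : n2 y ^ 2 ≤ 1 := pow_le_one₀ (n2_nonneg _) ((n2_le_norm y).trans hy)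
    have e2 : n2 (D * H) ^ 2 ≤ 1 :=
      (pow_le_pow_left₀ (n2_nonneg _) (n2_mul_le_of hD H) 2).trans hH.le
    nlinarith
  refine (Ex_mono h1).trans ?_
  rw [Ex_add, Ex_const, Ex_sum]
  simp only [Ex_div]
  rw [← sum_div]
  have h2 := sum_le_sum fun i (_ : i ∈ univ) => sw_moment hp he hf (e i * U)
  have h3 : ∀ i, e i * U * star (e i * U) = e i := fun i => by
    rw [star_mul, mul_assoc, ← mul_assoc U, hU.2, one_mul, he.star_eq, he.idem]
  have h4 : ∀ i, star (e i * U) * (e i * U) = star U * e i * U := fun i => by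
    rw [star_mul, he.star_eq, mul_assoc, ← mul_assoc (e i), he.idem, mul_assoc]
  simp only [h3, h4, sum_add_distrib] at h2
  have h5 : 0 ≤ mix e f + mix (fun i => star U * e i * U) e :=
    add_nonneg (mix_nonneg _ _) (mix_nonneg _ _)
  refine add_le_add le_rfl ((div_le_div_of_nonneg_right h2 (by positivity)).trans ?_)
  exact div_le_div_of_nonneg_left h5 (by positivity) (by nlinarith [pow_pos hη 3])

end Vale.Agent.P082
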