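import Vale.Agent.P082.Phase
import Vale.Agent.P082.Mix

/-! Truncation, pinching and second moments of random phases. -/

set_option linter.unusedSectionVars false

namespace Vale.Agent.P082

open Filter Topology Finset Vale.Agent.P104
open scoped InnerProductSpace ComplexOrder ComplexConjugate

universe u v

variable {A : Type u} [CStarAlgebra A] {ι κ : Type} [Fintype ι] [Fintype κ]
variable [Tr A] {p : ℕ} [NeZero p]

theorem sw_trunc (hR : Rickart A) (x : A) {η : ℝ} (hη : 0 < η) :
    ∃ x₁ x₂ : A, x = x₁ + x₂ ∧ ‖x₁‖ ≤ η ∧ η ^ 2 * n2 x₂ ^ 2 ≤ n2 (star x * x) ^ 2 := by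
  let _ := CStarAlgebra.spectralOrder A
  have _ := CStarAlgebra.spectralOrderedRing A
  set h := star x * x with hh
  have hs : star h = h := by simp [hh]
  have hk : star (h - (η ^ 2) • (1 : A)) = h - (η ^ 2) • (1 : A) := by
    rw [star_sub, hs, star_smul, star_one, star_trivial]
  obtain ⟨r, r1, r2, r3, r4, -⟩ := hR.cut hk
  have rs : star r = r := r1.isSelfAdjoint.star_eq
  have rr : r * r = r := r1.isIdempotentElem.eq
  have hc : r * h = h * r := by
    simpa [mul_sub, sub_mul] using r2
  refine ⟨x * (1 - r), x * r, by rw [← mul_add, sub_add_cancel, mul_one], ?_, ?_⟩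
  · have e1 : star (x * (1 - r)) * (x * (1 - r)) = h * (1 - r) := by
      calc _ = (1 - r) * h * (1 - r) := by simp only [star_mul, star_sub, star_one, rs, hh, mul_assoc]
        _ = h * ((1 - r) * (1 - r)) := by
          rw [sub_mul, one_mul, hc, ← mul_assoc, mul_sub h, mul_one]
        _ = _ := by rw [r1.one_sub.isIdempotentElem.eq]
    have e2 : h * (1 - r) ≤ (η ^ 2) • (1 : A) := by
      rw [sub_mul, smul_mul_assoc, one_mul, sub_nonpos] at r4
      refine r4.trans (smul_le_smul_of_nonneg_left r1.one_sub.le_one (by positivity))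
    have e3 := norm_sq_le_of_le (by positivity) (e1.le.trans e2)
    exact (sq_le_sq₀ (norm_nonneg _) hη.le).1 e3
  · obtain ⟨y, hy⟩ := CStarAlgebra.nonneg_iff_eq_star_mul_self.1 r3
    have e1 := tr_mul_nonneg x y
    rw [← hy, ← hh, sub_mul, mul_sub, smul_mul_assoc, one_mul, mul_smul_comm, map_sub, map_smul,
      smul_eq_mul] at e1
    have e2 : n2 (x * r) ^ 2 = tr (h * r) := by
      rw [n2_sq', star_mul, rs, mul_assoc, tr_comm, ← mul_assoc, mul_assoc _ r r, rr]
    have e3 : n2 (h * r) ^ 2 = tr (h * (h * r)) := by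
      rw [n2_sq', star_mul, rs, hs, mul_assoc r h, tr_comm r, mul_assoc h (h * r) r,
        mul_assoc h r r, rr]
    have e4 : n2 (h * r) ^ 2 ≤ n2 h ^ 2 :=
      pow_le_pow_left₀ (n2_nonneg _) (n2_mul_le_of' h r1.norm_le) 2
    rw [e2]
    linarith

theorem sw_sum_left {e : ι → A} (he : IsPart e) (x : A) : ∑ i, n2 (e i * x) ^ 2 = n2 x ^ 2 := by
  have h : ∀ i, n2 (e i * x) ^ 2 = tr (star x * e i * x) := fun i => by
    rw [n2_sq', star_mul, he.star_eq, mul_assoc, ← mul_assoc (e i), he.idem, mul_assoc]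
  simp only [h]
  rw [← map_sum, ← sum_mul, ← mul_sum, he.sum, mul_one, n2_sq']

theorem sw_sum_right {e : ι → A} (he : IsPart e) (x : A) : ∑ i, n2 (x * e i) ^ 2 = n2 x ^ 2 := by
  rw [← n2_star x, ← sw_sum_left he]
  refine sum_congr rfl fun i _ => ?_
  rw [← n2_star, star_mul, he.star_eq]

theorem sw_pinch_le {e : ι → A} (he : IsPart e) (x : A) :
    ∑ i, n2 (e i * x * e i) ^ 2 ≤ n2 x ^ 2 := by
  rw [← sw_sum_left he x]
  exact sum_le_sum fun i _ => pow_le_pow_left₀ (n2_nonneg _) (n2_mul_le_of' _ (he.norm_le i)) 2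

theorem sw_pinch {e : ι → A} (he : IsPart e) (x : A) :
    n2 (∑ i, e i * x * e i) ^ 2 = ∑ i, n2 (e i * x * e i) ^ 2 := by
  classical
  rw [← sw_sum_left he]
  refine sum_congr rfl fun i _ => ?_
  congr 2
  simp only [mul_sum, ← mul_assoc, he.mul_ite, ite_mul, zero_mul, sum_ite_eq, mem_univ, if_true]

theorem sw_quad {μ : Type} [Fintype μ] [DecidableEq μ] (hp : 2 < p) (v : μ → μ → A) :
    Ex (fun α : μ → ZMod p => n2 (∑ a, ∑ b, (conj (ph (α a)) * ph (α b)) • v a b) ^ 2) ≤
      n2 (∑ a, v a a) ^ 2 + ∑ a, ∑ b, n2 (v a b) ^ 2 := by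
  have h1 : ∀ α : μ → ZMod p, n2 (∑ a, ∑ b, (conj (ph (α a)) * ph (α b)) • v a b) ^ 2 =
      Complex.reLm (∑ a, ∑ b, ∑ c, ∑ d,
        ph (α a) * conj (ph (α b)) * conj (ph (α c)) * ph (α d) * τ (star (v a b) * v c d)) := by
    intro α
    rw [n2_sq]
    congr 1
    simp only [star_sum, star_smul, sum_mul, map_sum]
    refine sum_congr rfl fun a _ => sum_congr rfl fun b _ => ?_
    simp only [mul_sum, map_sum]
    refine sum_congr rfl fun c _ => sum_congr rfl fun d _ => ?_
    simp only [smul_mul_assoc, mul_smul_comm, map_smul, smul_eq_mul, star_mul', Complex.star_def,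
      Complex.conj_conj]
    ring
  simp only [h1]
  rw [← map_Ex]
  simp only [Ex_sum, ← Ex_mul (A := ℂ), orth2 hp]
  simp only [add_mul, sub_mul, sum_add_distrib, sum_sub_distrib, ite_and, ite_mul, one_mul,
    zero_mul, sum_ite_irrel, sum_const_zero, sum_ite_eq, mem_univ, if_true, map_add, map_sub,
    map_sum, Complex.reLm_coe]
  have h2 : ∑ a, ∑ c, (τ (star (v a a) * v c c)).re = n2 (∑ a, v a a) ^ 2 := by
    rw [n2_sq]
    simp only [star_sum, sum_mul, map_sum, Complex.re_sum]
    refine sum_congr rfl fun a _ => ?_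
    simp only [mul_sum, map_sum, Complex.re_sum]
  simp only [← n2_sq]
  rw [h2]
  have h3 : 0 ≤ ∑ a, n2 (v a a) ^ 2 := sum_nonneg fun a _ => sq_nonneg _
  linarith

theorem sw_n2_conj {e u : A} (he : IsStarProjection e) (hu : star u = u) :
    n2 (e * u * e) ^ 2 = tr (e * u * e * u) := by
  have es : star e = e := he.isSelfAdjoint.star_eq
  have ee : e * e = e := he.isIdempotentElem.eq
  rw [n2_sq']
  calc _ = tr (e * u * (e * e) * u * e) := by simp only [star_mul, es, hu, mul_assoc]
    _ = tr (e * e * u * e * u) := by rw [ee, tr_comm]; simp only [mul_assoc]; rw [← mul_assoc e e, ee]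
    _ = _ := by rw [ee]

theorem sw_mix_phase {μ : Type} [Fintype μ] [DecidableEq μ] (hp : 2 < p) {e : ι → A} {g : κ → A}
    {h : μ → A} (he : IsPart e) (hg : IsPart g) (hh : IsPart h) :
    Ex (fun α : μ → ZMod p => mix (fun i => star (Lam h α) * e i * Lam h α) g)
      ≤ mix e h + mix h g := by
  have h1 : ∀ (α : μ → ZMod p) i j, g j * (star (Lam h α) * e i * Lam h α) * g j =
      ∑ a, ∑ b, (conj (ph (α a)) * ph (α b)) • (g j * (h a * e i * h b) * g j) := by
    intro α i j
    simp only [Lam, star_sum, star_smul, hh.star_eq, sum_mul, mul_sum, Complex.star_def,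
      smul_mul_assoc, mul_smul_comm, smul_sum, smul_smul]
    rw [sum_comm]
    refine sum_congr rfl fun a _ => sum_congr rfl fun b _ => ?_
    rw [mul_comm]
  simp only [mix, h1, Ex_sum]
  refine (sum_le_sum fun i _ => sum_le_sum fun j _ => sw_quad hp _).trans ?_
  simp only [sum_add_distrib]
  refine add_le_add (sum_le_sum fun i _ => ?_) ?_
  · rw [← sw_pinch hh]
    refine le_trans (le_of_eq ?_) (sw_pinch_le hg _)
    simp only [mul_sum, sum_mul]
  · have h2 := mix_comm hh hg
    simp only [mix] at h2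
    rw [h2, sum_comm]
    refine sum_le_sum fun j _ => ?_
    rw [← sw_pinch hh]
    refine le_trans (le_of_eq ?_) (sw_pinch_le he _)
    refine sum_congr rfl fun i _ => ?_
    have hu : star (∑ a, h a * g j * h a) = ∑ a, h a * g j * h a := by
      simp only [star_sum, star_mul, hh.star_eq, hg.star_eq, mul_assoc]
    rw [sw_n2_conj (he.proj i) hu]
    simp only [mul_sum, sum_mul, map_sum]
    refine sum_congr rfl fun a _ => sum_congr rfl fun b _ => ?_
    rw [n2_sq']
    calc _ = tr (g j * h b * (e i * h a * (g j * g j) * h a * e i * h b * g j)) := by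
          simp only [star_mul, hh.star_eq, hg.star_eq, he.star_eq, mul_assoc]
      _ = tr (e i * h a * (g j * g j) * h a * e i * h b * (g j * g j) * h b) := by
          rw [tr_comm]; simp only [mul_assoc]
      _ = tr (e i * (h a * g j * h a) * (e i * (h b * g j * h b))) := by
          simp only [hg.idem, mul_assoc]
      _ = _ := by rw [tr_comm]; simp only [mul_assoc]

end Vale.Agent.P082
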