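import Vale.Agent.P082.Words

/-! Decoupling of repeated phase unitaries. -/

set_option linter.unusedSectionVars false

namespace Vale.Agent.P082

open Filter Topology Finset Vale.Agent.P104
open scoped InnerProductSpace ComplexOrder ComplexConjugate

universe u v

variable {A : Type u} [CStarAlgebra A] {ι κ : Type} [Fintype ι] [Fintype κ]
variable [Tr A]

section

variable [DecidableEq ι] {C : Type} {p : ℕ} [NeZero p] {n : ℕ}

/-- The product of the projections along a word. -/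
noncomputable def wkW (e : C → ι → A) (c : Fin n → C) (γ : Fin n → ι) : A :=
  (List.ofFn fun l => e (c l) (γ l)).prod

/-- The value of a pair of words. -/
noncomputable def wkF (e : C → ι → A) (c : Fin n → C) (φ : A →ₗ[ℂ] A) (y a : A)
    (γ γ' : Fin n → ι) : ℂ := τ (y * star (wkW e c γ') * φ (wkW e c γ * a))

theorem wk_norm_le {e : C → ι → A} {c : Fin n → C} {φ : A →ₗ[ℂ] A} (hφ : BB φ) {y a : A}
    (hy : ‖y‖ ≤ 1) (ha : ‖a‖ ≤ 1) (γ γ' : Fin n → ι) :
    ‖wkF e c φ y a γ γ'‖ ≤ (n2 (wkW e c γ) ^ 2 + n2 (wkW e c γ') ^ 2) / 2 := by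
  have h1 : n2 (y * star (wkW e c γ')) ≤ n2 (wkW e c γ') := by
    rw [← n2_star (wkW e c γ')]; exact n2_mul_le_of hy _
  have h2 : n2 (φ (wkW e c γ * a)) ≤ n2 (wkW e c γ) := (hφ.b2 _).trans (n2_mul_le_of' _ ha)
  have h3 := norm_τ_mul_le (y * star (wkW e c γ')) (φ (wkW e c γ * a))
  have h4 := mul_le_mul h1 h2 (n2_nonneg _) (n2_nonneg _)
  unfold wkF
  nlinarith [sq_nonneg (n2 (wkW e c γ) - n2 (wkW e c γ'))]

open Classical in
theorem wk_expand {D : Type} [Fintype D] [DecidableEq D] (hp : n < p) (e : C → ι → A)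
    (c : Fin n → C) (d d' : Fin n → D) (φ : A →ₗ[ℂ] A) (y a : A) :
    Ex (fun ϖ : D → ι → ZMod p =>
      τ (y * star (List.ofFn fun l => Lam (e (c l)) (ϖ (d' l))).prod *
        φ ((List.ofFn fun l => Lam (e (c l)) (ϖ (d l))).prod * a)))
      = ∑ γ, ∑ γ', if ∃ π : Equiv.Perm (Fin n), ∀ l, d (π l) = d' l ∧ γ (π l) = γ' l
          then wkF e c φ y a γ γ' else 0 := by
  have h1 : ∀ ϖ : D → ι → ZMod p,
      τ (y * star (List.ofFn fun l => Lam (e (c l)) (ϖ (d' l))).prod *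
        φ ((List.ofFn fun l => Lam (e (c l)) (ϖ (d l))).prod * a))
      = ∑ γ : Fin n → ι, ∑ γ' : Fin n → ι, ((∏ l, ph (ϖ (d l) (γ l))) *
          conj (∏ l, ph (ϖ (d' l) (γ' l)))) * wkF e c φ y a γ γ' := fun ϖ => by
    simp only [Lam]
    rw [prod_expand (fun l => e (c l)) fun l i => ph (ϖ (d l) i),
      prod_expand (fun l => e (c l)) fun l i => ph (ϖ (d' l) i)]
    simp only [star_sum, star_smul, mul_sum, sum_mul, map_sum, smul_mul_assoc, mul_smul_comm,
      map_smul, smul_eq_mul, wkF, wkW, Complex.star_def]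
    exact sum_congr rfl fun γ _ => sum_congr rfl fun γ' _ => by ring
  simp only [h1, Ex_sum]
  refine sum_congr rfl fun γ _ => sum_congr rfl fun γ' _ => ?_
  have h2 : ∀ (g : (D → ι → ZMod p) → ℂ) (z : ℂ), Ex (fun ϖ => g ϖ * z) = Ex g * z :=
    fun g z => (Ex_mul g z).symm
  rw [h2]
  split_ifs with h
  · rw [orth_of_perm d d' γ γ' h, one_mul]
  · rw [orth_of_not (by simpa using hp) d d' γ γ' h, zero_mul]

theorem wk_perm (hp : n < p) (e : C → ι → A) (c : Fin n → C) {π : Equiv.Perm (Fin n)}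
    (hπ : ∀ l, c (π l) = c l) (φ : A →ₗ[ℂ] A) (y a : A) :
    Ex (fun ϖ : Fin n → ι → ZMod p =>
      τ (y * star (pr e c ((List.finRange n).map π) ϖ) * φ (pr e c (List.finRange n) ϖ * a)))
      = ∑ γ, wkF e c φ y a γ (γ ∘ π) := by
  classical
  have h := wk_expand (p := p) hp e c id π φ y a
  simp only [List.ofFn_eq_map, id] at h
  simp only [pr, List.map_map, Function.comp_def, hπ]
  rw [h]
  refine sum_congr rfl fun γ _ => ?_
  rw [sum_eq_single (fun l => γ (π l))]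
  · rw [if_pos ⟨π, fun l => ⟨rfl, rfl⟩⟩]
  · intro γ' _ hγ
    rw [if_neg]
    rintro ⟨π', h'⟩
    exact hγ (funext fun l => by rw [← (h' l).1, (h' l).2])
  · simp

theorem wk_rho [DecidableEq C] {e : C → ι → A} {c : Fin n → C} {ε η : ℝ} (he : ∀ j, IsPart (e j)) (hε0 : 0 ≤ ε)
    (hε : ∀ j j', j ≠ j' → mix (e j) (e j') ≤ ε) (hc : List.IsChain (· ≠ ·) (List.ofFn c))
    (hη : 0 < η) :
    ∑ γ : Fin n → ι with ¬ Function.Injective (fun l => (c l, γ l)), n2 (wkW e c γ) ^ 2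
      ≤ n ^ 2 * (η + (n + 1) * ε / η) := by
  have hR : 0 ≤ η + (n + 1) * ε / η := by positivity
  calc _ ≤ ∑ γ : Fin n → ι, ∑ x : Fin n × Fin n,
        if x.1 ≠ x.2 ∧ c x.1 = c x.2 ∧ γ x.1 = γ x.2 then n2 (wkW e c γ) ^ 2 else 0 := by
        rw [sum_filter]
        refine sum_le_sum fun γ _ => ?_
        have h0 : ∀ x : Fin n × Fin n, 0 ≤
            if x.1 ≠ x.2 ∧ c x.1 = c x.2 ∧ γ x.1 = γ x.2 then n2 (wkW e c γ) ^ 2 else 0 :=
          fun x => by split_ifs <;> positivity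
        split_ifs with h
        · exact sum_nonneg fun x _ => h0 x
        · obtain ⟨l, l', h1, h2⟩ := Function.not_injective_iff.1 h
          refine le_trans ?_ (single_le_sum (fun x _ => h0 x) (mem_univ (l, l')))
          rw [if_pos ⟨h2, congrArg Prod.fst h1, congrArg Prod.snd h1⟩]
    _ ≤ ∑ _x : Fin n × Fin n, (η + (n + 1) * ε / η) := by
        rw [sum_comm]
        refine sum_le_sum fun x _ => ?_
        by_cases h : x.1 ≠ x.2 ∧ c x.1 = c x.2
        · refine le_trans (le_of_eq ?_) (rep_word he hε0 hε hc h.1 h.2 hη)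
          rw [sum_filter]
          exact sum_congr rfl fun γ _ => by simp [h.1, h.2, wkW]
        · refine le_trans (le_of_eq (sum_eq_zero fun γ _ => if_neg fun h' => h ⟨h'.1, h'.2.1⟩)) hR
    _ = _ := by simp [sq, mul_add]

theorem wk_main [Fintype C] [DecidableEq C] (hR : Rickart A) {e : C → ι → A} {c : Fin n → C}
    {ε η : ℝ} (hp2 : 2 < p) (hp : n < p) (he : ∀ j, IsPart (e j)) (hε0 : 0 ≤ ε)
    (hε : ∀ j j', j ≠ j' → mix (e j) (e j') ≤ ε) {j : C}
    (hc : List.IsChain (· ≠ ·) (j :: List.ofFn c)) {φ : A →ₗ[ℂ] A} (hφ : BB φ)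
    (hm : Mod (e j) φ) {y a : A} (hy : ‖y‖ ≤ 1) (ha : ‖a‖ ≤ 1) (hη : 0 < η) :
    ‖Ex (fun ϖ : C → ι → ZMod p =>
        τ (y * star (pr e id (List.ofFn c) ϖ) * φ (pr e id (List.ofFn c) ϖ * a)))
      - τ (y * avgW e (List.ofFn c) φ a)‖
      ≤ n.factorial * (2 * η + (n + 1) * ε / η ^ 3 + 2 * (n ^ 2 * (η + (n + 1) * ε / η))) := by
  classical
  set P : Finset (Equiv.Perm (Fin n)) := univ.filter fun π => ∀ l, c (π l) = c l with hP
  set F := wkF e c φ y a with hF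
  have hcard : (P.card : ℝ) ≤ n.factorial := by
    have := card_le_univ P
    rw [Fintype.card_perm, Fintype.card_fin] at this
    exact_mod_cast this
  have h1 : Ex (fun ϖ : C → ι → ZMod p =>
        τ (y * star (pr e id (List.ofFn c) ϖ) * φ (pr e id (List.ofFn c) ϖ * a)))
      = ∑ γ, ∑ γ' ∈ P.image (fun π : Equiv.Perm (Fin n) => γ ∘ π), F γ γ' := by
    have h := wk_expand (p := p) hp e c c c φ y a
    simp only [pr, List.map_ofFn, Function.comp_def, id]
    rw [h]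
    refine sum_congr rfl fun γ _ => ?_
    rw [← sum_filter]
    refine sum_congr ?_ fun _ _ => rfl
    ext γ'
    simp only [mem_filter, mem_univ, true_and, mem_image, hP, funext_iff, forall_and]
  have h2 : τ (y * avgW e (List.ofFn c) φ a) = ∑ γ, F γ (γ ∘ (1 : Equiv.Perm (Fin n))) := by
    rw [← wk_perm (p := p) hp e c (π := 1) (fun _ => rfl) φ y a, List.ofFn_eq_map,
      ← Ex_pr (p := p) (by omega) he (List.nodup_finRange n) φ a, mul_Ex, map_Ex']
    simp [mul_assoc]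
  have h3 : ∀ π ∈ P.erase 1, ‖∑ γ, F γ (γ ∘ π)‖ ≤ 2 * η + (n + 1) * ε / η ^ 3 := fun π hπ => by
    have hπ' : ∀ l, c (π l) = c l := (mem_filter.1 (mem_of_mem_erase hπ)).2
    rw [← wk_perm (p := p) hp e c hπ' φ y a]
    have := swap_word (p := p) (c := c) hR hp2 he hε0 hε (List.nodup_finRange n)
      (L' := (List.finRange n).map π) (Equiv.Perm.map_finRange_perm π).symm
      (by simp [List.map_map, Function.comp_def, hπ'])
      (fun h => ne_of_mem_erase hπ (Equiv.ext fun l => by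
        have := List.map_inj_left.1 ((List.map_id _).trans h) l (List.mem_finRange l)
        exact this.symm))
      (by rwa [← List.ofFn_eq_map]) hφ hm hy ha hη
    rwa [List.length_finRange] at this
  have h4 : ∀ γ : Fin n → ι, ‖∑ γ' ∈ P.image (fun π : Equiv.Perm (Fin n) => γ ∘ π), F γ γ'
      - ∑ π ∈ P, F γ (γ ∘ π)‖ ≤ if ¬ Function.Injective (fun l => (c l, γ l)) then
        ∑ π ∈ P, (n2 (wkW e c γ) ^ 2 + n2 (wkW e c (γ ∘ π)) ^ 2) else 0 := fun γ => by
    split_ifs with h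
    · rw [sum_image, sub_self, norm_zero]
      intro π hπ π' hπ' hh
      refine Equiv.ext fun l => h (Prod.ext ?_ (congrFun hh l))
      exact ((mem_filter.1 hπ).2 l).trans ((mem_filter.1 hπ').2 l).symm
    · have a1 : ∑ γ' ∈ P.image (fun π : Equiv.Perm (Fin n) => γ ∘ π), ‖F γ γ'‖
          ≤ ∑ π ∈ P, ‖F γ (γ ∘ π)‖ := sum_image_le_of_nonneg fun _ _ => norm_nonneg _
      have a2 : ∑ π ∈ P, ‖F γ (γ ∘ π)‖
          ≤ ∑ π ∈ P, (n2 (wkW e c γ) ^ 2 + n2 (wkW e c (γ ∘ π)) ^ 2) / 2 :=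
        sum_le_sum fun π _ => wk_norm_le hφ hy ha _ _
      rw [← sum_div] at a2
      have a3 := norm_sub_le (∑ γ' ∈ P.image (fun π : Equiv.Perm (Fin n) => γ ∘ π), F γ γ')
        (∑ π ∈ P, F γ (γ ∘ π))
      linarith [norm_sum_le (P.image (fun π : Equiv.Perm (Fin n) => γ ∘ π)) (F γ),
        norm_sum_le P fun π => F γ (γ ∘ π)]
  have hρ := wk_rho he hε0 hε hc.tail hη
  have h5 : ∀ π ∈ P, ∑ γ : Fin n → ι with ¬ Function.Injective (fun l => (c l, γ l)),
      (n2 (wkW e c γ) ^ 2 + n2 (wkW e c (γ ∘ π)) ^ 2)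
      ≤ 2 * (n ^ 2 * (η + (n + 1) * ε / η)) := fun π hπ => by
    have hπ' : ∀ l, c (π l) = c l := (mem_filter.1 hπ).2
    have : ∑ γ : Fin n → ι with ¬ Function.Injective (fun l => (c l, γ l)),
        n2 (wkW e c (γ ∘ π)) ^ 2 = ∑ γ : Fin n → ι with ¬ Function.Injective (fun l => (c l, γ l)),
        n2 (wkW e c γ) ^ 2 := by
      refine sum_equiv (Equiv.arrowCongr π.symm (Equiv.refl ι)) (fun γ => ?_) fun γ _ => rfl
      have e1 : (fun l => (c l, Equiv.arrowCongr π.symm (Equiv.refl ι) γ l))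
          = (fun l => (c l, γ l)) ∘ π := by
        funext l; simp [hπ']
      simp only [mem_filter, mem_univ, true_and, e1, Equiv.injective_comp]
    rw [sum_add_distrib, this]
    linarith
  have h6 : ‖∑ γ, ∑ γ' ∈ P.image (fun π : Equiv.Perm (Fin n) => γ ∘ π), F γ γ'
      - ∑ π ∈ P, ∑ γ, F γ (γ ∘ π)‖ ≤ P.card * (2 * (n ^ 2 * (η + (n + 1) * ε / η))) := by
    rw [sum_comm (s := P), ← sum_sub_distrib]
    refine (norm_sum_le _ _).trans ((sum_le_sum fun γ _ => h4 γ).trans ?_)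
    rw [← sum_filter, sum_comm]
    exact (sum_le_sum h5).trans_eq (by simp)
  have h7 : ‖∑ π ∈ P.erase 1, ∑ γ, F γ (γ ∘ π)‖ ≤ P.card * (2 * η + (n + 1) * ε / η ^ 3) := by
    refine (norm_sum_le _ _).trans ((sum_le_sum h3).trans ?_)
    rw [sum_const, nsmul_eq_mul]
    exact mul_le_mul_of_nonneg_right (by exact_mod_cast card_erase_le) (by positivity)
  have h8 : (1 : Equiv.Perm (Fin n)) ∈ P := by simp [hP]
  rw [← add_sum_erase P _ h8] at h6
  rw [h1, h2]
  have h9 : ∀ X Y Z : ℂ, X - Y = X - (Y + Z) + Z := fun X Y Z => by ring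
  rw [h9 _ _ (∑ π ∈ P.erase 1, ∑ γ, F γ (γ ∘ π))]
  refine (norm_add_le _ _).trans ((add_le_add h6 h7).trans ?_)
  rw [← mul_add, add_comm]
  exact mul_le_mul_of_nonneg_right hcard (by positivity)

end

theorem decouple (hR : Rickart A) (K : ℕ) {δ : ℝ} (hδ : 0 < δ) : ∃ ε : ℝ, 0 < ε ∧
    ∀ (ι C : Type) [Fintype ι] [DecidableEq ι] [Fintype C] [DecidableEq C] (p : ℕ) [NeZero p]
      (e : C → ι → A), 2 < p → K < p → (∀ j, IsPart (e j)) →
      (∀ j j', j ≠ j' → mix (e j) (e j') ≤ ε) → ∀ (w : List C) (j : C), w.length ≤ K →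
      List.IsChain (· ≠ ·) (j :: w) → ∀ φ : A →ₗ[ℂ] A, BB φ → Mod (e j) φ →
      ∀ y a : A, ‖y‖ ≤ 1 → ‖a‖ ≤ 1 →
      ‖Ex (fun ϖ : C → ι → ZMod p => τ (y * star (pr e id w ϖ) * φ (pr e id w ϖ * a)))
        - τ (y * avgW e w φ a)‖ ≤ δ := by
  have hK : (0 : ℝ) < K.factorial * (3 + 4 * K ^ 2) := by positivity
  obtain ⟨η, hη, η1, η2⟩ : ∃ η : ℝ, 0 < η ∧ η ≤ 1 ∧ K.factorial * (3 + 4 * K ^ 2) * η ≤ δ :=
    ⟨min 1 (δ / (K.factorial * (3 + 4 * K ^ 2))), lt_min one_pos (by positivity), min_le_left _ _,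
      by rw [mul_comm, ← le_div_iff₀ hK]; exact min_le_right _ _⟩
  refine ⟨η ^ 4 / (K + 1), by positivity, ?_⟩
  intro ι C _ _ _ _ p _ e hp2 hp he hε w j hw hc φ hφ hm y a hy ha
  have h := wk_main (p := p) (c := w.get) hR hp2 (by omega) he (by positivity) hε
    (by rwa [List.ofFn_get]) hφ hm hy ha hη
  rw [List.ofFn_get] at h
  refine h.trans (le_trans ?_ η2)
  have a0 : (w.length : ℝ) ≤ K := by exact_mod_cast hw
  have a1 : (w.length + 1 : ℝ) * (η ^ 4 / (K + 1)) ≤ η ^ 4 := by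
    rw [mul_div_assoc', div_le_iff₀ (by positivity), mul_comm]
    exact mul_le_mul_of_nonneg_left (by linarith) (by positivity)
  have a2 : (w.length + 1 : ℝ) * (η ^ 4 / (K + 1)) / η ^ 3 ≤ η := by
    rw [div_le_iff₀ (by positivity)]; linarith [show η * η ^ 3 = η ^ 4 by ring]
  have a3 : (w.length + 1 : ℝ) * (η ^ 4 / (K + 1)) / η ≤ η := by
    rw [div_le_iff₀ hη]
    nlinarith [pow_le_pow_of_le_one hη.le η1 (show 2 ≤ 4 by norm_num)]
  have a4 : (w.length.factorial : ℝ) ≤ K.factorial := by exact_mod_cast Nat.factorial_le hw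
  have a5 : (w.length : ℝ) ^ 2 ≤ K ^ 2 := pow_le_pow_left₀ (by positivity) a0 2
  rw [mul_assoc]
  refine mul_le_mul a4 ?_ (by positivity) (by positivity)
  have a6 : (w.length : ℝ) ^ 2 * (η + (w.length + 1 : ℝ) * (η ^ 4 / (K + 1)) / η)
      ≤ K ^ 2 * (2 * η) := mul_le_mul a5 (by linarith) (by positivity) (by positivity)
  linarith

end Vale.Agent.P082
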