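import Vale.Agent.P082.Swap

/-! Words of independent phase unitaries. -/

set_option linter.unusedSectionVars false

namespace Vale.Agent.P082

open Filter Topology Finset Vale.Agent.P104
open scoped InnerProductSpace ComplexOrder ComplexConjugate

theorem chain_mid {X : Type*} {R : X → X → Prop} {l m : List X} (h : List.IsChain R l)
    (s t : List X) (e : s ++ m ++ t = l) : List.IsChain R m :=
  (e ▸ h : List.IsChain R (s ++ m ++ t)).left_of_append.right_of_append

universe u v

variable {A : Type u} [CStarAlgebra A] {ι κ : Type} [Fintype ι] [Fintype κ]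
variable [Tr A] [DecidableEq ι] {p : ℕ} [NeZero p] {σ C : Type} [Fintype σ] [DecidableEq σ]
  {e : C → ι → A} {c : σ → C} {ε : ℝ}

theorem wd_norm {u : A} (hu : u ∈ unitary A) : ‖u‖ ≤ 1 := by
  have h := CStarRing.norm_star_mul_self (x := u)
  rw [hu.1] at h
  have h1 : ‖(1 : A)‖ ≤ 1 := (IsStarProjection.one A).norm_le
  nlinarith [norm_nonneg u]

theorem wd_mul {a b : A} (ha : ‖a‖ ≤ 1) (hb : ‖b‖ ≤ 1) : ‖a * b‖ ≤ 1 :=
  (norm_mul_le a b).trans (mul_le_one₀ ha (norm_nonneg _) hb)

theorem wd_conj {f : ι → A} {g : κ → A} {u : A} (hu : u ∈ unitary A) :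
    mix (fun i => star u * f i * u) g = mix f fun j => star (star u) * g j * star u := by
  rw [← mix_conj (e := f) hu]
  congr 1
  funext j
  rw [star_star]
  calc g j = (star u * u) * g j * (star u * u) := by rw [hu.1, one_mul, mul_one]
    _ = _ := by simp only [mul_assoc]

theorem mix_word (hp : 2 < p) (he : ∀ j, IsPart (e j))
    (hε : ∀ j j', j ≠ j' → mix (e j) (e j') ≤ ε) {L : List σ} (hL : L.Nodup) {j j' : C}
    (hc : List.IsChain (· ≠ ·) (j :: L.map c ++ [j'])) :
    Ex (fun ϖ : σ → ι → ZMod p =>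
      mix (fun i => star (pr e c L ϖ) * e j i * pr e c L ϖ) (e j')) ≤ (L.length + 1) * ε := by
  induction L generalizing j with
  | nil =>
    refine Ex_le fun ϖ => ?_
    simpa [pr_nil] using hε j j' (by simpa using hc)
  | cons n L ih =>
    obtain ⟨hn, hL⟩ := List.nodup_cons.1 hL
    obtain ⟨h1, h2⟩ := List.isChain_cons_cons.1 hc
    rw [Ex_update n]
    refine le_trans (Ex_mono (g := fun ϖ : σ → ι → ZMod p => ε +
      mix (fun i => star (pr e c L ϖ) * e (c n) i * pr e c L ϖ) (e j')) fun ϖ => ?_) ?_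
    · have hu := pr_mem (c := c) he L ϖ
      have h3 := mix_phase (p := p) hp (he j) ((he j').conj (Unitary.star_mem hu)) (he (c n))
      rw [wd_conj hu]
      refine le_trans (le_of_eq ?_) (h3.trans (add_le_add (hε _ _ h1) le_rfl))
      congr 1
      funext α
      rw [← wd_conj hu]
      simp only [pr_cons, pr_update hn, Function.update_self, star_mul, mul_assoc]
    · rw [Ex_add, Ex_const]
      have := ih hL h2
      simp only [List.length_cons]
      push_cast
      linarith

theorem wd_two (hp : 1 < p) {f : ι → A} (hf : IsPart f) (φ : A →ₗ[ℂ] A) (y D U b : A) :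
    Ex (fun α : ι → ZMod p => Ex fun β : ι → ZMod p =>
      τ (y * star (Lam f α) * D * star (Lam f β) * φ (Lam f α * U * Lam f β * b)))
    = ∑ i, ∑ i', τ (y * f i * D * f i' * φ (f i * U * f i' * b)) := by
  have h1 : ∀ (x z : A), Ex (fun β : ι → ZMod p => τ (z * star (Lam f β) * φ (x * Lam f β * b)))
      = ∑ i', τ (z * f i' * φ (x * f i' * b)) := fun x z => by
    have := congrArg (fun w => τ (z * w))
      (hf.avg_eq_Ex (p := p) hp (φ ∘ₗ LinearMap.mulLeft ℂ x) b)
    simp only [hf.avg_apply, mul_Ex, map_Ex', mul_sum, map_sum, LinearMap.comp_apply,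
      LinearMap.mulLeft_apply] at this
    simpa only [mul_assoc] using this.symm
  simp only [h1, Ex_sum]
  rw [sum_comm]
  refine sum_congr rfl fun i' _ => ?_
  have := congrArg (fun w => τ (y * w))
    (hf.avg_eq_Ex (p := p) hp (LinearMap.mulLeft ℂ (D * f i') ∘ₗ φ) (U * f i' * b))
  simp only [hf.avg_apply, mul_Ex, map_Ex', mul_sum, map_sum, LinearMap.comp_apply,
    LinearMap.mulLeft_apply] at this
  simpa only [mul_assoc] using this.symm

theorem swap_word (hR : Rickart A) (hp : 2 < p) (he : ∀ j, IsPart (e j)) (hε0 : 0 ≤ ε)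
    (hε : ∀ j j', j ≠ j' → mix (e j) (e j') ≤ ε) {L L' : List σ} (hL : L.Nodup)
    (hp' : L.Perm L') (hcc : L.map c = L'.map c) (hne : L ≠ L') {j : C}
    (hc : List.IsChain (· ≠ ·) (j :: L.map c)) {φ : A →ₗ[ℂ] A} (hφ : BB φ) (hm : Mod (e j) φ)
    {y a : A} (hy : ‖y‖ ≤ 1) (ha : ‖a‖ ≤ 1) {η : ℝ} (hη : 0 < η) :
    ‖Ex (fun ϖ : σ → ι → ZMod p => τ (y * star (pr e c L' ϖ) * φ (pr e c L ϖ * a)))‖
      ≤ 2 * η + (L.length + 1) * ε / η ^ 3 := by
  induction L generalizing L' j φ with
  | nil => exact absurd (List.nil_perm.1 hp').symm hne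
  | cons n L ih =>
    obtain ⟨n', L', rfl⟩ : ∃ n' L'', L' = n' :: L'' := by
      rcases L' with _ | ⟨n', L'⟩
      · simp at hcc
      · exact ⟨_, _, rfl⟩
    have hL' := hp'.nodup_iff.1 hL
    obtain ⟨hn, hL⟩ := List.nodup_cons.1 hL
    obtain ⟨hn', hL'⟩ := List.nodup_cons.1 hL'
    obtain ⟨h1, h2⟩ := List.isChain_cons_cons.1 hc
    obtain ⟨c1, c2⟩ := List.cons.inj hcc
    by_cases hnn : n = n'
    · subst hnn
      have h3 := ih hL (List.Perm.cons_inv hp') c2 (fun h => hne (by rw [h])) h2
        (hφ.avg (he (c n))) ((he (c n)).mod_avg φ)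
      rw [Ex_update n]
      refine le_trans (le_of_eq ?_) (h3.trans ?_)
      · congr 2
        funext ϖ
        rw [(he (c n)).avg_eq_Ex (p := p) (by omega), mul_Ex, map_Ex']
        simp only [pr_cons, pr_update hn, pr_update hn', Function.update_self, star_mul, mul_assoc]
      · simp only [List.length_cons]
        push_cast
        gcongr
        linarith
    · have m1 : n' ∈ L := by
        have := hp'.symm.subset List.mem_cons_self
        exact (List.mem_cons.1 this).resolve_left (Ne.symm hnn)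
      have m2 : n ∈ L' := by
        have := hp'.subset List.mem_cons_self
        exact (List.mem_cons.1 this).resolve_left hnn
      obtain ⟨L2, L1, rfl⟩ := List.append_of_mem m1
      obtain ⟨L2', L1', rfl⟩ := List.append_of_mem m2
      have a1 := List.nodup_middle.1 hL
      have a2 := List.nodup_middle.1 hL'
      simp only [List.nodup_cons, List.mem_append, List.mem_cons, not_or] at a1 a2 hn hn'
      have h4 : List.IsChain (· ≠ ·) (c n :: L2.map c ++ [c n]) := by
        refine chain_mid h2 [] (L1.map c) ?_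
        simp [c1]
      have h5 := mix_word (p := p) hp he hε (List.nodup_append.1 a1.2).1 h4
      rw [Ex_update n']
      simp only [Ex_update (V := ℂ) n fun ϖ : σ → ι → ZMod p => Ex fun β : ι → ZMod p =>
        τ (y * star (pr e c (n' :: (L2' ++ n :: L1')) (Function.update ϖ n' β)) *
          φ (pr e c (n :: (L2 ++ n' :: L1)) (Function.update ϖ n' β) * a))]
      refine (norm_Ex_le _).trans (le_trans (Ex_mono (g := fun ϖ : σ → ι → ZMod p => 2 * η +
        (ε + mix (fun i => star (pr e c L2 ϖ) * e (c n) i * pr e c L2 ϖ) (e (c n))) / η ^ 3)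
          fun ϖ => ?_) ?_)
      · have h6 := swap_bound hR hφ (he (c n)) (he j) hm (pr_mem (c := c) he L2 ϖ)
          (wd_mul hy (wd_norm (Unitary.star_mem (pr_mem (c := c) he L1' ϖ))))
          (wd_norm (Unitary.star_mem (pr_mem (c := c) he L2' ϖ)))
          (wd_mul (wd_norm (pr_mem (c := c) he L1 ϖ)) ha) hη
        rw [← wd_two (p := p) (by omega) (he (c n))] at h6
        refine le_trans (le_of_eq ?_) (h6.trans ?_)
        · congr 2
          funext α
          congr 1
          funext β
          simp only [pr_cons, pr_append, pr_update hn.1, pr_update hn.2.2, pr_update hn'.1,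
            pr_update hn'.2.2, pr_update a1.1.1, pr_update a1.1.2, pr_update a2.1.1,
            pr_update a2.1.2, Function.update_self, Function.update_of_ne hnn, ← c1, star_mul,
            mul_assoc]
        · gcongr
          exact hε _ _ h1.symm
      · rw [Ex_add, Ex_const, Ex_div, Ex_add, Ex_const]
        simp only [List.length_cons, List.length_append]
        push_cast
        gcongr
        nlinarith [mul_nonneg (Nat.cast_nonneg (α := ℝ) L1.length) hε0]

theorem wd_split {K : ℕ} {n n' : Fin K} (h : n < n') :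
    ∃ L1 L2 L3, List.finRange K = L1 ++ n :: (L2 ++ n' :: L3) := by
  obtain ⟨L1, L, h1⟩ := List.append_of_mem (List.mem_finRange n)
  have h2 := List.mem_finRange n'
  have h3 := List.pairwise_lt_finRange K
  rw [h1] at h2 h3
  rcases List.mem_append.1 h2 with h2 | h2
  · exact absurd ((List.pairwise_append.1 h3).2.2 _ h2 _ List.mem_cons_self) h.not_gt
  · obtain ⟨L2, L3, rfl⟩ := List.append_of_mem ((List.mem_cons.1 h2).resolve_left h.ne')
    exact ⟨L1, L2, L3, h1⟩

theorem wd_sq {K : ℕ} (hp : K < p) (a : Fin K → ι → A) :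
    Ex (fun ϖ : Fin K → ι → ZMod p =>
      n2 (List.ofFn fun l => ∑ i, ph (ϖ l i) • a l i).prod ^ 2)
    = ∑ γ : Fin K → ι, n2 (List.ofFn fun l => a l (γ l)).prod ^ 2 := by
  have h1 : ∀ ϖ : Fin K → ι → ZMod p, τ (star (List.ofFn fun l => ∑ i, ph (ϖ l i) • a l i).prod *
      (List.ofFn fun l => ∑ i, ph (ϖ l i) • a l i).prod) = ∑ γ : Fin K → ι, ∑ γ' : Fin K → ι,
      ((∏ l, ph (ϖ (id l) (γ l))) * conj (∏ l, ph (ϖ (id l) (γ' l)))) *
        τ (star (List.ofFn fun l => a l (γ' l)).prod * (List.ofFn fun l => a l (γ l)).prod) :=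
    fun ϖ => by
      rw [prod_expand a fun l i => ph (ϖ l i)]
      simp only [star_sum, star_smul, mul_sum, sum_mul, map_sum, smul_mul_assoc, mul_smul_comm,
        map_smul, smul_eq_mul, Complex.star_def, id]
      exact sum_congr rfl fun γ _ => sum_congr rfl fun γ' _ => by ring
  have h2 : ∀ (g : (Fin K → ι → ZMod p) → ℂ) (z : ℂ), Ex (fun ϖ => g ϖ * z) = Ex g * z :=
    fun g z => (Ex_mul g z).symm
  simp only [n2_sq, ← Complex.re_sum]
  rw [← Complex.reLm_coe, ← map_Ex]
  simp only [h1, Ex_sum, h2]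
  congr 1
  refine sum_congr rfl fun γ _ => ?_
  rw [sum_eq_single γ]
  · rw [orth_of_perm id id γ γ ⟨1, fun _ => ⟨rfl, rfl⟩⟩, one_mul]
  · intro γ' _ hγ
    rw [orth_of_not (by simpa using hp) id id γ γ', zero_mul]
    rintro ⟨π, h⟩
    exact hγ (funext fun l => by rw [← (h l).2, show π l = l from (h l).1])
  · simp

theorem wd_rep {K : ℕ} {c : Fin K → C} (he : ∀ j, IsPart (e j)) (hε0 : 0 ≤ ε)
    (hε : ∀ j j', j ≠ j' → mix (e j) (e j') ≤ ε)
    (hc : List.IsChain (· ≠ ·) (List.ofFn c)) {n n' : Fin K} (hn : n < n') (hcn : c n = c n')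
    {η : ℝ} (hη : 0 < η) :
    ∑ γ : Fin K → ι with γ n = γ n', n2 (List.ofFn fun l => e (c l) (γ l)).prod ^ 2
      ≤ η + (K + 1) * ε / η := by
  obtain ⟨L1, L2, L3, hL⟩ := wd_split hn
  have hN := List.nodup_finRange K
  have hlen := congrArg List.length hL
  rw [hL] at hN
  have a1 := List.nodup_middle.1 hN
  rw [← List.append_assoc] at a1
  obtain ⟨a2, a3⟩ := List.nodup_cons.1 a1
  obtain ⟨a4, a5⟩ := List.nodup_cons.1 (List.nodup_middle.1 a3)
  simp only [List.mem_append, List.mem_cons, not_or] at a2 a4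
  have h4 : List.IsChain (· ≠ ·) (c n :: L2.map c ++ [c n]) := by
    refine chain_mid hc (L1.map c) (L3.map c) ?_
    rw [List.ofFn_eq_map, hL]
    simp [hcn]
  have h5 := mix_word (p := K + 3) (by omega) he hε
    (List.nodup_append.1 (List.nodup_append.1 a5).1).2.1 h4
  let a : ι → Fin K → ι → A := fun x l i =>
    if l = n ∨ l = n' then (if i = x then e (c n) x else 0) else e (c l) i
  have b1 : ∀ γ : Fin K → ι, (if γ n = γ n' then n2 (List.ofFn fun l => e (c l) (γ l)).prod ^ 2
      else 0) ≤ ∑ x, n2 (List.ofFn fun l => a x l (γ l)).prod ^ 2 := fun γ => by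
    split_ifs with h
    · refine le_trans (le_of_eq ?_) (single_le_sum (f := fun x =>
        n2 (List.ofFn fun l => a x l (γ l)).prod ^ 2) (fun _ _ => by positivity) (mem_univ (γ n)))
      congr 4
      funext l
      simp only [a]
      split_ifs with h1 h2
      · rcases h1 with rfl | rfl
        · rfl
        · rw [hcn, h]
      · rcases h1 with rfl | rfl
        · exact absurd rfl h2
        · exact absurd h.symm h2
      · rfl
    · exact sum_nonneg fun _ _ => by positivity
  have b2 : ∀ (x : ι) (ϖ : Fin K → ι → ZMod (K + 3)),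
      n2 (List.ofFn fun l => ∑ i, ph (ϖ l i) • a x l i).prod
        = n2 (e (c n) x * pr e c L2 ϖ * e (c n) x) := fun x ϖ => by
    have b3 : ∀ L : List (Fin K), n ∉ L → n' ∉ L →
        (L.map fun l => ∑ i, ph (ϖ l i) • a x l i).prod = pr e c L ϖ := fun L h1 h2 => by
      unfold pr
      congr 1
      refine List.map_congr_left fun l hl => ?_
      have : ¬ (l = n ∨ l = n') := by
        rintro (rfl | rfl)
        exacts [h1 hl, h2 hl]
      simp only [a, if_neg this, Lam]
    rw [List.ofFn_eq_map, hL]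
    simp only [List.map_append, List.map_cons, List.prod_append, List.prod_cons]
    rw [b3 L1 a2.1.1 a4.1.1, b3 L2 a2.1.2 a4.1.2, b3 L3 a2.2.2 a4.2,
      n2_unitary_mul (pr_mem he L1 ϖ), ← mul_assoc, ← mul_assoc,
      n2_mul_unitary _ (pr_mem he L3 ϖ)]
    simp [a, n2_smul, norm_ph]
  have b4 : ∀ ϖ : Fin K → ι → ZMod (K + 3), ∑ x, n2 (e (c n) x * pr e c L2 ϖ * e (c n) x) ^ 2
      ≤ η + mix (fun i => star (pr e c L2 ϖ) * e (c n) i * pr e c L2 ϖ) (e (c n)) / η :=
    fun ϖ => by
      have hf := he (c n)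
      generalize pr e c L2 ϖ = U
      generalize e (c n) = f at hf
      have b5 : ∀ x, n2 (f x * U * f x) ^ 2
          ≤ η * tr (f x) + n2 (f x * (star U * f x * U) * f x) ^ 2 / η := fun x => by
        have e1 : star (f x * U * f x) * (f x * U * f x)
            = f x * (f x * (star U * f x * U) * f x) := by
          simp only [star_mul, hf.star_eq, mul_assoc]
          rw [← mul_assoc (f x) (f x) (U * _), ← mul_assoc (f x) (f x), hf.idem]
        have e2 := abs_tr_mul_le (f x) (f x * (star U * f x * U) * f x)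
        rw [n2_sq', e1, ← n2_proj (hf.proj x)]
        refine (le_abs_self _).trans (e2.trans ?_)
        generalize n2 (f x * (star U * f x * U) * f x) = s
        generalize n2 (f x) = t
        rw [← sub_le_iff_le_add', le_div_iff₀ hη]
        nlinarith [sq_nonneg (s - η * t), sq_nonneg s, sq_nonneg (η * t)]
      refine (sum_le_sum fun x _ => b5 x).trans ?_
      rw [sum_add_distrib, ← mul_sum, ← map_sum, hf.sum, tr_one, mul_one, ← sum_div]
      gcongr
      exact sum_le_sum fun x _ => single_le_sum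
        (f := fun x' => n2 (f x' * (star U * f x * U) * f x') ^ 2) (fun _ _ => by positivity)
        (mem_univ x)
  rw [sum_filter]
  refine (sum_le_sum fun γ _ => b1 γ).trans ?_
  rw [sum_comm]
  have hK : K < K + 3 := by omega
  simp only [← wd_sq hK, b2]
  rw [← Ex_sum]
  refine (Ex_mono b4).trans ?_
  rw [Ex_add, Ex_const, Ex_div]
  gcongr
  refine h5.trans (mul_le_mul_of_nonneg_right ?_ hε0)
  simp only [List.length_finRange, List.length_append, List.length_cons] at hlen
  have : L2.length ≤ K := by omega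
  exact_mod_cast Nat.succ_le_succ this

theorem rep_word {K : ℕ} {c : Fin K → C} (he : ∀ j, IsPart (e j)) (hε0 : 0 ≤ ε)
    (hε : ∀ j j', j ≠ j' → mix (e j) (e j') ≤ ε)
    (hc : List.IsChain (· ≠ ·) (List.ofFn c)) {n n' : Fin K} (hn : n ≠ n') (hcn : c n = c n')
    {η : ℝ} (hη : 0 < η) :
    ∑ γ : Fin K → ι with γ n = γ n', n2 (List.ofFn fun l => e (c l) (γ l)).prod ^ 2
      ≤ η + (K + 1) * ε / η := by
  rcases hn.lt_or_gt with h | h
  · exact wd_rep he hε0 hε hc h hcn hη
  · simpa only [eq_comm] using wd_rep he hε0 hε hc h hcn.symm hη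

end Vale.Agent.P082
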